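import Vale.Agent.Lib.P200.All.Chern

namespace Vale.Agent.Lib.P200.All

open MvPolynomial Module Fam Gen

variable {K : Type*} [Field K] {f g h : MvPolynomial (Fin 3) K} {a b c : ℕ}

/-- The polynomial families of values of the relations. -/
structure Fm (f g h : MvPolynomial (Fin 3) K)
    (D : Fin 3 → MvPolynomial (Fin 3) K →ₗ[K] MvPolynomial (Fin 3) K)
    (V : Submodule K (MvPolynomial (Fin 3) K)) {ι : Type} [Fintype ι]
    (W : ι → Fin 3 → MvPolynomial (Fin 3) K) (c₁ : MvPolynomial (Fin 3) K) : Prop where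
  val : ∀ (P : Fin 3 → K) (s : ι), ∃ v₁ ∈ V, ∃ v₂ ∈ V, L1 P * v₁ + L2 P * v₂ ∈ II f g h ∧
    ∀ i, eval P (W s i) = eval P (D i (L1 P * v₁ + L2 P * v₂))
  gen : ∀ P : Fin 3 → K, ∀ v₁ ∈ V, ∀ v₂ ∈ V, L1 P * v₁ + L2 P * v₂ ∈ II f g h →
    ∃ α : ι → K, ∀ i, eval P c₁ * eval P (D i (L1 P * v₁ + L2 P * v₂)) = ∑ s, α s * eval P (W s i)

section Common

variable {D : Fin 3 → MvPolynomial (Fin 3) K →ₗ[K] MvPolynomial (Fin 3) K} {n : ℕ}

lemma rel_mem {V : Submodule K (MvPolynomial (Fin 3) K)} (hV : V ≤ Hd K (n + 1)) {P : Fin 3 → K}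
    {v₁ v₂ : MvPolynomial (Fin 3) K} (hv₁ : v₁ ∈ V) (hv₂ : v₂ ∈ V)
    (hι : L1 P * v₁ + L2 P * v₂ ∈ II f g h) :
    L1 P * v₁ + L2 P * v₂ ∈ degPart (II f g h) (n + 2) := by
  refine mem_degPart.mpr ⟨hι, Submodule.add_mem _ ?_ ?_⟩
  · have := Hd_mul_mem (L1_mem P) (hV hv₁)
    rwa [show 1 + (n + 1) = n + 2 by omega] at this
  · have := Hd_mul_mem (L2_mem P) (hV hv₂)
    rwa [show 1 + (n + 1) = n + 2 by omega] at this

lemma Fm.syz [Infinite K] {V : Submodule K (MvPolynomial (Fin 3) K)} {ι : Type} [Fintype ι]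
    {W : ι → Fin 3 → MvPolynomial (Fin 3) K} {c₁ : MvPolynomial (Fin 3) K}
    (F : Fm f g h D V W c₁) (cI : CI f g h a b c) (hD : IsDec D f g h a b c (n + 2))
    (hV : V ≤ Hd K (n + 1)) (s : ι) : W s 0 * f + W s 1 * g + W s 2 * h = 0 := by
  refine MvPolynomial.funext fun P => ?_
  obtain ⟨v₁, hv₁, v₂, hv₂, hι, hval⟩ := F.val P s
  have h1 := cI.val_orth hD (P := P) (rel_mem hV hv₁ hv₂ hι)
  rw [map_add, map_add, map_mul, map_mul, map_mul, hval, hval, hval, h1, map_zero]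
  simp

lemma Fm.zero_high [Infinite K] {V : Submodule K (MvPolynomial (Fin 3) K)} {ι : Type} [Fintype ι]
    {W : ι → Fin 3 → MvPolynomial (Fin 3) K} {c₁ : MvPolynomial (Fin 3) K}
    (F : Fm f g h D V W c₁) (hD : IsDec D f g h a b c (n + 2)) (hc : n + 2 < c) (s : ι) :
    W s 2 = 0 := by
  refine MvPolynomial.funext fun P => ?_
  obtain ⟨v₁, hv₁, v₂, hv₂, hι, hval⟩ := F.val P s
  rw [hval]
  have h1 := hD.mem 2 (L1 P * v₁ + L2 P * v₂)
  have h2 : D 2 (L1 P * v₁ + L2 P * v₂) ∈ Pt K (n + 2) c := h1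
  rw [Pt_of_lt hc, Submodule.mem_bot] at h2
  rw [h2]

/-- A relation with vanishing value comes from the colon. -/
theorem kos_of_zero [Infinite K] (cI : CI f g h a b c) (hD : IsDec D f g h a b c (n + 2))
    {V : Submodule K (MvPolynomial (Fin 3) K)} (hV : V ≤ Hd K (n + 1))
    (hIV : degPart (II f g h) (n + 1) ≤ V) {P : Fin 3 → K} (hP0 : P 0 ≠ 0)
    (hcolon : ∀ y ∈ Hd K n, L1 P * y ∈ V → L2 P * y ∈ V → y ∈ colon V n)
    {v₁ v₂ : MvPolynomial (Fin 3) K} (hv₁ : v₁ ∈ V) (hv₂ : v₂ ∈ V)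
    (hι : L1 P * v₁ + L2 P * v₂ ∈ II f g h)
    (h0 : ∀ i, eval P (D i (L1 P * v₁ + L2 P * v₂)) = 0) :
    ∃ y ∈ colon V n, v₁ - L2 P * y ∈ II f g h ∧ v₂ + L1 P * y ∈ II f g h := by
  obtain ⟨y₀, hy₀, h2, h3⟩ := cI.rel_koszul hD hP0 (hV hv₁) (hV hv₂) hι h0
  have hlinP : ∀ {m : MvPolynomial (Fin 3) K}, m ∈ Hd K 1 → m * y₀ ∈ Hd K (n + 1) := by
    intro m hm
    have := Hd_mul_mem hm hy₀
    rwa [add_comm] at this
  have h4 : L2 P * y₀ ∈ V := by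
    have h5 : v₁ - L2 P * y₀ ∈ V := hIV (mem_degPart.mpr ⟨h2,
      Submodule.sub_mem _ (hV hv₁) (hlinP (L2_mem P))⟩)
    have h6 := Submodule.sub_mem _ hv₁ h5
    rwa [sub_sub_cancel] at h6
  have h5 : L1 P * y₀ ∈ V := by
    have h6 : v₂ + L1 P * y₀ ∈ V := hIV (mem_degPart.mpr ⟨h3,
      Submodule.add_mem _ (hV hv₂) (hlinP (L1_mem P))⟩)
    have h7 := Submodule.sub_mem _ h6 hv₂
    rwa [add_sub_cancel_left] at h7
  exact ⟨y₀, hcolon y₀ hy₀ h5 h4, h2, h3⟩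

section Count

variable {I : Ideal (MvPolynomial (Fin 3) K)}

lemma img_eq {P : Fin 3 → K} {V : Submodule K (MvPolynomial (Fin 3) K)} {d : ℕ}
    (hpV : ∀ t ∈ up I V d, ∃ v₁ ∈ V, ∃ v₂ ∈ V, t - (L1 P * v₁ + L2 P * v₂) ∈ I) :
    ((V.map (qm I)).prod (V.map (qm I))).map (PhiL I P) = (up I V d).map (qm I) := by
  refine le_antisymm (map_pairs_le fun v hv => ⟨mul_mem_up _ (L1_mem P) hv, mul_mem_up _ (L2_mem P) hv⟩) ?_
  rintro _ ⟨t, ht, rfl⟩
  obtain ⟨v₁, hv₁, v₂, hv₂, hmem⟩ := hpV t ht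
  refine ⟨(qm I v₁, qm I v₂), ⟨⟨v₁, hv₁, rfl⟩, ⟨v₂, hv₂, rfl⟩⟩, ?_⟩
  show PhiL I P (qm I v₁, qm I v₂) = qm I t
  rw [PhiL_qm]
  have := qm_eq_zero.mpr hmem
  rw [map_sub, sub_eq_zero] at this
  exact this.symm

lemma ko_le {P : Fin 3 → K} {V : Submodule K (MvPolynomial (Fin 3) K)} {n : ℕ} :
    ((colon V n).map (qm I)).map (KoL I P)
      ≤ ((V.map (qm I)).prod (V.map (qm I))) ⊓ LinearMap.ker (PhiL I P) := by
  rintro _ ⟨_, ⟨y, hy, rfl⟩, rfl⟩
  rw [KoL_apply]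
  refine ⟨⟨⟨L2 P * y, lin_mul_mem hy.2 (L2_mem P), qm_mul _ _⟩, ⟨-(L1 P * y),
    Submodule.neg_mem _ (lin_mul_mem hy.2 (L1_mem P)), ?_⟩⟩, ?_⟩
  · show qm I (-(L1 P * y)) = _
    rw [map_neg, qm_mul]
  · rw [SetLike.mem_coe, LinearMap.mem_ker, PhiL_apply]
    ring

end Count

lemma ko_finrank [Infinite K] (cI : CI f g h a b c) {l : MvPolynomial (Fin 3) K →ₗ[K] K} {s : ℕ}
    (hs : a + b + c = s + 3)
    (hl : ∀ g' ∈ Hd K s, l g' = 0 ↔ g' ∈ degPart (II f g h) s)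
    (hn2 : n + 2 < a + b)
    {V : Submodule K (MvPolynomial (Fin 3) K)} {P : Fin 3 → K} (hP0 : P 0 ≠ 0) (hfP : eval P f ≠ 0)
    (hTf : Module.Finite K (colon V n)) :
    finrank K (((colon V n).map (qm (II f g h))).map (KoL (II f g h) P))
      = finrank K ((colon V n).map (qm (II f g h))) := by
  have h1 := finrank_map_add_inf_ker (KoL (II f g h) P) ((colon V n).map (qm (II f g h)))
  have h2 : ((colon V n).map (qm (II f g h))) ⊓ LinearMap.ker (KoL (II f g h) P) = ⊥ := by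
    rw [eq_bot_iff]
    rintro u ⟨hu1, hu2⟩
    obtain ⟨y, hy, rfl⟩ := Submodule.mem_map.mp hu1
    rw [SetLike.mem_coe, LinearMap.mem_ker, KoL_apply] at hu2
    have h3 := congrArg Prod.fst hu2
    have h4 := congrArg Prod.snd hu2
    simp only [Prod.fst_zero, Prod.snd_zero, neg_eq_zero] at h3 h4
    rw [← qm_mul, qm_eq_zero] at h3 h4
    rw [Submodule.mem_bot, qm_eq_zero]
    refine cI.ann_pencil hs hl hP0 hfP hy.1 ?_ h4 h3
    have := cI.hab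
    have := cI.hbc
    omega
  rw [h2, finrank_bot] at h1
  omega

lemma e₀_not_mem (cI : CI f g h a b c)
    (hD : IsDec D f g h a b c (n + 2)) (hn2 : n + 2 < a + b)
    {V : Submodule K (MvPolynomial (Fin 3) K)} (hV : V ≤ Hd K (n + 1)) {P : Fin 3 → K}
    {r₁ r₂ : MvPolynomial (Fin 3) K} (hr₁ : r₁ ∈ V) (hr₂ : r₂ ∈ V) {i₁ : Fin 3}
    (hne : eval P (D i₁ (L1 P * r₁ + L2 P * r₂)) ≠ 0) :
    (qm (II f g h) r₁, qm (II f g h) r₂) ∉ ((colon V n).map (qm (II f g h))).map (KoL (II f g h) P) := by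
  have hHd : ∀ {m y : MvPolynomial (Fin 3) K}, m ∈ Hd K 1 → y ∈ Hd K n → m * y ∈ Hd K (n + 1) := by
    intro m y hm hy
    have := Hd_mul_mem hm hy
    rwa [add_comm] at this
  rintro ⟨_, ⟨y, hy, rfl⟩, he⟩
  rw [KoL_apply] at he
  have h3 := congrArg Prod.fst he
  have h4 := congrArg Prod.snd he
  simp only at h3 h4
  rw [← qm_mul] at h3 h4
  have h5 : r₁ - L2 P * y ∈ degPart (II f g h) (n + 1) := by
    refine mem_degPart.mpr ⟨?_, Submodule.sub_mem _ (hV hr₁) (hHd (L2_mem P) hy.1)⟩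
    rw [← qm_eq_zero, map_sub, sub_eq_zero]
    exact h3.symm
  have h6 : r₂ + L1 P * y ∈ degPart (II f g h) (n + 1) := by
    refine mem_degPart.mpr ⟨?_, Submodule.add_mem _ (hV hr₂) (hHd (L1_mem P) hy.1)⟩
    rw [← qm_eq_zero, map_add, ← h4]
    exact neg_add_cancel _
  have h7 := cI.val_of_I hD (P := P) hn2 h5 h6 i₁
  have h8 : L1 P * (r₁ - L2 P * y) + L2 P * (r₂ + L1 P * y) = L1 P * r₁ + L2 P * r₂ := by ring
  rw [h8] at h7
  exact hne h7

lemma ker_le [Infinite K] (cI : CI f g h a b c) (hD : IsDec D f g h a b c (n + 2))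
    {V : Submodule K (MvPolynomial (Fin 3) K)} (hV : V ≤ Hd K (n + 1))
    (hIV : degPart (II f g h) (n + 1) ≤ V) {P : Fin 3 → K} (hP0 : P 0 ≠ 0)
    (hcolon : ∀ y ∈ Hd K n, L1 P * y ∈ V → L2 P * y ∈ V → y ∈ colon V n)
    {r₁ r₂ : MvPolynomial (Fin 3) K} (hr₁ : r₁ ∈ V) (hr₂ : r₂ ∈ V)
    (hrr : L1 P * r₁ + L2 P * r₂ ∈ II f g h) {i₁ : Fin 3}
    (hne : eval P (D i₁ (L1 P * r₁ + L2 P * r₂)) ≠ 0)
    (hprop : ∀ v₁ ∈ V, ∀ v₂ ∈ V, L1 P * v₁ + L2 P * v₂ ∈ II f g h → ∀ i k,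
      eval P (D i (L1 P * v₁ + L2 P * v₂)) * eval P (D k (L1 P * r₁ + L2 P * r₂))
        = eval P (D k (L1 P * v₁ + L2 P * v₂)) * eval P (D i (L1 P * r₁ + L2 P * r₂))) :
    ((V.map (qm (II f g h))).prod (V.map (qm (II f g h)))) ⊓ LinearMap.ker (PhiL (II f g h) P)
      ≤ ((colon V n).map (qm (II f g h))).map (KoL (II f g h) P)
        ⊔ Submodule.span K {(qm (II f g h) r₁, qm (II f g h) r₂)} := by
  rintro ⟨_, _⟩ ⟨⟨⟨v₁, hv₁, rfl⟩, ⟨v₂, hv₂, rfl⟩⟩, hk⟩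
  have hk' : PhiL (II f g h) P (qm (II f g h) v₁, qm (II f g h) v₂) = 0 := hk
  rw [PhiL_qm, qm_eq_zero] at hk'
  set Az := eval P (D i₁ (L1 P * r₁ + L2 P * r₂)) with hAz
  set r := eval P (D i₁ (L1 P * v₁ + L2 P * v₂)) / Az with hr
  have hw₁ : v₁ - r • r₁ ∈ V := Submodule.sub_mem _ hv₁ (V.smul_mem _ hr₁)
  have hw₂ : v₂ - r • r₂ ∈ V := Submodule.sub_mem _ hv₂ (V.smul_mem _ hr₂)
  have hcomb : L1 P * (v₁ - r • r₁) + L2 P * (v₂ - r • r₂)
      = (L1 P * v₁ + L2 P * v₂) - r • (L1 P * r₁ + L2 P * r₂) := by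
    simp only [smul_eq_C_mul]
    ring
  have hmem : L1 P * (v₁ - r • r₁) + L2 P * (v₂ - r • r₂) ∈ II f g h := by
    rw [hcomb]
    exact Ideal.sub_mem _ hk' (Submodule.smul_of_tower_mem _ _ hrr)
  have hval0 : ∀ i, eval P (D i (L1 P * (v₁ - r • r₁) + L2 P * (v₂ - r • r₂))) = 0 := by
    intro i
    rw [hcomb, map_sub, map_smul, map_sub, MvPolynomial.smul_eval, sub_eq_zero, hr]
    have := hprop v₁ hv₁ v₂ hv₂ hk' i i₁
    rw [← hAz] at this
    field_simp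
    linear_combination this
  obtain ⟨y, hy, h1, h2⟩ := kos_of_zero cI hD hV hIV hP0 hcolon hw₁ hw₂ hmem hval0
  have h3 : (qm (II f g h) v₁, qm (II f g h) v₂) = KoL (II f g h) P (qm (II f g h) y)
      + r • (qm (II f g h) r₁, qm (II f g h) r₂) := by
    rw [KoL_apply, Prod.smul_mk, Prod.mk_add_mk, Prod.mk.injEq]
    have h4 := qm_eq_zero.mpr h1
    have h5 := qm_eq_zero.mpr h2
    rw [map_sub, map_sub, map_smul, qm_mul] at h4
    rw [map_add, map_sub, map_smul, qm_mul] at h5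
    constructor
    · rw [← sub_eq_zero, ← h4]
      abel
    · rw [← sub_eq_zero, ← h5]
      abel
  rw [h3]
  exact Submodule.add_mem_sup ⟨_, Submodule.mem_map_of_mem hy, rfl⟩
    (Submodule.smul_mem _ _ (Submodule.mem_span_singleton_self _))

/-- The exact count of relations when the values lie on a line. -/
theorem count_lemma [Infinite K] (cI : CI f g h a b c) {l : MvPolynomial (Fin 3) K →ₗ[K] K} {s : ℕ}
    (hs : a + b + c = s + 3)
    (hl : ∀ g' ∈ Hd K s, l g' = 0 ↔ g' ∈ degPart (II f g h) s)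
    (hD : IsDec D f g h a b c (n + 2)) (hn2 : n + 2 < a + b)
    {V : Submodule K (MvPolynomial (Fin 3) K)} (hV : V ≤ Hd K (n + 1))
    (hIV : degPart (II f g h) (n + 1) ≤ V) {P : Fin 3 → K} (hP0 : P 0 ≠ 0) (hfP : eval P f ≠ 0)
    (hpV : ∀ t ∈ up (II f g h) V (n + 1), ∃ v₁ ∈ V, ∃ v₂ ∈ V,
      t - (L1 P * v₁ + L2 P * v₂) ∈ II f g h)
    (hcolon : ∀ y ∈ Hd K n, L1 P * y ∈ V → L2 P * y ∈ V → y ∈ colon V n)
    {r₁ r₂ : MvPolynomial (Fin 3) K} (hr₁ : r₁ ∈ V) (hr₂ : r₂ ∈ V)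
    (hrr : L1 P * r₁ + L2 P * r₂ ∈ II f g h) {i₁ : Fin 3}
    (hne : eval P (D i₁ (L1 P * r₁ + L2 P * r₂)) ≠ 0)
    (hprop : ∀ v₁ ∈ V, ∀ v₂ ∈ V, L1 P * v₁ + L2 P * v₂ ∈ II f g h → ∀ i k,
      eval P (D i (L1 P * v₁ + L2 P * v₂)) * eval P (D k (L1 P * r₁ + L2 P * r₂))
        = eval P (D k (L1 P * v₁ + L2 P * v₂)) * eval P (D i (L1 P * r₁ + L2 P * r₂))) :
    (finrank K (up (II f g h) V (n + 1)) - finrank K (degPart (II f g h) (n + 2)))
      + (finrank K (colon V n) - finrank K (degPart (II f g h) n)) + 1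
        = 2 * (finrank K V - finrank K (degPart (II f g h) (n + 1))) := by
  have hVf := fin_of_le hV
  have hTf := fin_of_le (colon_le V n)
  have hUf := fin_of_le (up_le (I := II f g h) hV)
  have hx1 := finrank_map_qm (I := II f g h) hV hIV
  have hy1 := finrank_map_qm (I := II f g h) (colon_le V n) (degPart_le_colon hIV)
  have hw1 : finrank K ((up (II f g h) V (n + 1)).map (qm (II f g h)))
      + finrank K (degPart (II f g h) (n + 2)) = finrank K (up (II f g h) V (n + 1)) :=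
    finrank_map_qm (I := II f g h) (up_le (I := II f g h) hV)
      (degPart_le_up (I := II f g h) V (n + 1))
  have hrank := rank_pairs (P := P) (I := II f g h) hV
  rw [img_eq hpV] at hrank
  have hKY := ko_finrank (n := n) (V := V) cI hs hl hn2 hP0 hfP hTf
  have hfinP : Module.Finite K ↥((V.map (qm (II f g h))).prod (V.map (qm (II f g h)))) :=
    (finrank_prod_self _).1
  have hfinK : Module.Finite K ↥(((V.map (qm (II f g h))).prod (V.map (qm (II f g h))))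
      ⊓ LinearMap.ker (PhiL (II f g h) P)) := Submodule.finiteDimensional_of_le inf_le_left
  have hlt : ((colon V n).map (qm (II f g h))).map (KoL (II f g h) P)
      < ((V.map (qm (II f g h))).prod (V.map (qm (II f g h)))) ⊓ LinearMap.ker (PhiL (II f g h) P) := by
    refine lt_of_le_of_ne ko_le fun heq => e₀_not_mem (n := n) cI hD hn2 hV hr₁ hr₂ hne ?_
    rw [heq]
    refine ⟨⟨⟨r₁, hr₁, rfl⟩, ⟨r₂, hr₂, rfl⟩⟩, ?_⟩
    rw [SetLike.mem_coe, LinearMap.mem_ker, PhiL_qm, qm_eq_zero]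
    exact hrr
  have hge := Submodule.finrank_lt_finrank_of_lt hlt
  have hle := ker_le cI hD hV hIV hP0 hcolon hr₁ hr₂ hrr hne hprop
  have h1 := Submodule.finrank_mono hle
  have h2 := Submodule.finrank_add_le_finrank_add_finrank
    (((colon V n).map (qm (II f g h))).map (KoL (II f g h) P))
    (Submodule.span K {(qm (II f g h) r₁, qm (II f g h) r₂)})
  have h3 : finrank K (Submodule.span K {(qm (II f g h) r₁, qm (II f g h) r₂)}) ≤ 1 := by
    classical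
    have := finrank_span_finset_le_card (R := K) ({(qm (II f g h) r₁, qm (II f g h) r₂)} : Finset _)
    simp only [Finset.coe_singleton, Finset.card_singleton] at this
    exact this
  omega

end Common

end Vale.Agent.Lib.P200.All
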