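import Vale.Agent.Lib.P200.All.Ana

namespace Vale.Agent.Lib.P200.All

open MvPolynomial Module Fam Gen

variable {K : Type*} [Field K] {f g h : MvPolynomial (Fin 3) K} {a b c : ℕ}

section Cases

variable {D : Fin 3 → MvPolynomial (Fin 3) K →ₗ[K] MvPolynomial (Fin 3) K} {n : ℕ}
  (cI : CI f g h a b c) {l : MvPolynomial (Fin 3) K →ₗ[K] K} {s : ℕ}
  (hs : a + b + c = s + 3)
  (hl : ∀ g' ∈ Hd K s, l g' = 0 ↔ g' ∈ degPart (II f g h) s)
  (hD : IsDec D f g h a b c (n + 2))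

include cI hs hl hD

/-- All values vanish. -/
theorem case0 [Infinite K] (hn1 : a ≤ n + 2) (hn2 : n + 2 < a + b)
    {V : Submodule K (MvPolynomial (Fin 3) K)} (hV : V ≤ Hd K (n + 1))
    (hIV : degPart (II f g h) (n + 1) ≤ V) (hcl : Closed (II f g h) V (n + 1)) {e : ℕ}
    (hde : n + 1 + 1 + e = s) {cZ : MvPolynomial (Fin 3) K} (hcZ : cZ ≠ 0)
    (hpZ : ∀ P : Fin 3 → K, eval P cZ ≠ 0 → ∀ t ∈ up (II f g h) (perp l (up (II f g h) V (n + 1)) e) e,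
      ∃ z₁ ∈ perp l (up (II f g h) V (n + 1)) e, ∃ z₂ ∈ perp l (up (II f g h) V (n + 1)) e,
        t - (L1 P * z₁ + L2 P * z₂) ∈ II f g h)
    {ι : Type} [Fintype ι] {W : ι → Fin 3 → MvPolynomial (Fin 3) K} {c₁ : MvPolynomial (Fin 3) K}
    (F : Fm f g h D V W c₁) (hc₁ : c₁ ≠ 0) (hW : ∀ s i, W s i = 0) :
    EE (II f g h) (a, b, c) V (n + 1) := by
  have hf0 : f ≠ 0 := cI.reg.h0
  have hprod : c₁ * cZ * (f * X 0) ≠ 0 :=
    mul_ne_zero (mul_ne_zero hc₁ hcZ) (mul_ne_zero hf0 (X_ne_zero 0))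
  obtain ⟨P, hP⟩ := exists_eval_ne hprod
  rw [map_mul, map_mul, map_mul, eval_X] at hP
  have h1 := left_ne_zero_of_mul hP
  have h2 := right_ne_zero_of_mul hP
  have hc₁P := left_ne_zero_of_mul h1
  have hcZP := right_ne_zero_of_mul h1
  have hfP := left_ne_zero_of_mul h2
  have hP0 := right_ne_zero_of_mul h2
  have hcolon : ∀ y ∈ Hd K n, L1 P * y ∈ V → L2 P * y ∈ V → y ∈ colon V n :=
    fun y hy h3 h4 => cI.colon_of_pencil hs hl hde hV hIV hcl (hpZ P hcZP) rfl hy h3 h4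
  have hQ : QP (II f g h) V n P := by
    intro v₁ hv₁ v₂ hv₂ hrel
    refine kos_of_zero cI hD hV hIV hP0 hcolon hv₁ hv₂ hrel fun i => ?_
    obtain ⟨α, hα⟩ := F.gen P v₁ hv₁ v₂ hv₂ hrel
    have h3 := hα i
    simp only [hW, map_zero, mul_zero, Finset.sum_const_zero] at h3
    exact (mul_eq_zero.mp h3).resolve_left hc₁P
  exact cI.EE_of_QP hs hl hP0 hfP hn1 hn2 hV hIV hQ

/-- The values fill a plane. -/
theorem case2 [Infinite K] (hn2 : n + 2 < a + b)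
    {V : Submodule K (MvPolynomial (Fin 3) K)} (hV : V ≤ Hd K (n + 1))
    (hIV : degPart (II f g h) (n + 1) ≤ V) (hcl : Closed (II f g h) V (n + 1)) {e : ℕ}
    (hde : n + 1 + 1 + e = s) {cV : MvPolynomial (Fin 3) K} (hcV : cV ≠ 0)
    (hpV : ∀ P : Fin 3 → K, eval P cV ≠ 0 → ∀ t ∈ up (II f g h) V (n + 1), ∃ v₁ ∈ V, ∃ v₂ ∈ V,
      t - (L1 P * v₁ + L2 P * v₂) ∈ II f g h)
    {ι : Type} [Fintype ι] {W : ι → Fin 3 → MvPolynomial (Fin 3) K} {c₁ : MvPolynomial (Fin 3) K}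
    (F : Fm f g h D V W c₁) {s₁ s₂ : ι} (hC : W s₁ 1 * W s₂ 2 - W s₁ 2 * W s₂ 1 ≠ 0) :
    EE (II f g h) (a, b, c) V (n + 1) := by
  have hf0 : f ≠ 0 := cI.reg.h0
  have hcn : c ≤ n + 2 := by
    by_contra hc
    apply hC
    rw [F.zero_high hD (by omega) s₁, F.zero_high hD (by omega) s₂]
    ring
  have hab := cI.hab
  have hbc := cI.hbc
  have hprod : cV * (f * X 0) * (W s₁ 1 * W s₂ 2 - W s₁ 2 * W s₂ 1) ≠ 0 :=
    mul_ne_zero (mul_ne_zero hcV (mul_ne_zero hf0 (X_ne_zero 0))) hC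
  obtain ⟨P, hP⟩ := exists_eval_ne hprod
  rw [map_mul, map_mul, map_mul, eval_X] at hP
  have h1 := left_ne_zero_of_mul hP
  have h2 := right_ne_zero_of_mul hP
  have hcVP := left_ne_zero_of_mul h1
  have h3 := right_ne_zero_of_mul h1
  have hfP := left_ne_zero_of_mul h3
  have hP0 := right_ne_zero_of_mul h3
  obtain ⟨r₁₁, h11, r₁₂, h12, hι₁, hval₁⟩ := F.val P s₁
  obtain ⟨r₂₁, h21, r₂₂, h22, hι₂, hval₂⟩ := F.val P s₂
  have hQ : QP (II f g h) (perp l V (e + 1)) e P := by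
    refine cI.QP_of_values hs hl hD hP0 hfP hV hde (hpV P hcVP) h11 h12 h21 h22 hι₁ hι₂ ?_
    rw [← hval₁, ← hval₂, ← hval₁, ← hval₂]
    simpa using h2
  have hde' : n + 1 + 1 + e = s := hde
  have hU : perp l V (e + 1) ≤ Hd K (e + 1) := CI.perp_le' _ _
  have hIU : degPart (II f g h) (e + 1) ≤ perp l V (e + 1) :=
    cI.degPart_le_perp hs hl (by omega) hV
  have hZ : perp l (up (II f g h) V (n + 1)) e = colon (perp l V (e + 1)) e :=
    cI.perp_up hs hl hde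
  have hup : up (II f g h) (colon (perp l V (e + 1)) e) e = perp l V (e + 1) := by
    rw [← hZ]
    exact cI.up_dual hs hl hde hV hIV hcl
  have hE := cI.EE_of_QP_dual hs hl hP0 hfP (n := e) (by omega) (by omega) hU hIU hQ hup
  rw [← hZ] at hE
  exact cI.EE_dual hs hl hde hV hIV hcl hE

end Cases

/-- Vanishing of all minors of a syzygy family. -/
lemma minors_all {f g h : MvPolynomial (Fin 3) K} (hf : f ≠ 0) {u v : Fin 3 → MvPolynomial (Fin 3) K}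
    (hu : u 0 * f + u 1 * g + u 2 * h = 0) (hv : v 0 * f + v 1 * g + v 2 * h = 0)
    (hm : u 1 * v 2 - u 2 * v 1 = 0) (i k : Fin 3) : u i * v k = u k * v i := by
  have h12 : u 1 * v 2 = u 2 * v 1 := sub_eq_zero.mp hm
  have h01 : u 0 * v 1 = u 1 * v 0 := by
    apply mul_left_cancel₀ hf
    linear_combination (v 1) * hu - (u 1) * hv + h * hm
  have h02 : u 0 * v 2 = u 2 * v 0 := by
    apply mul_left_cancel₀ hf
    linear_combination (v 2) * hu - (u 2) * hv - g * hm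
  fin_cases i <;> fin_cases k
  · rfl
  · exact h01
  · exact h02
  · exact h01.symm
  · rfl
  · exact h12
  · exact h02.symm
  · exact h12.symm
  · rfl

section Case1

variable {D : Fin 3 → MvPolynomial (Fin 3) K →ₗ[K] MvPolynomial (Fin 3) K} {n : ℕ}
  (cI : CI f g h a b c) {l : MvPolynomial (Fin 3) K →ₗ[K] K} {s : ℕ}
  (hs : a + b + c = s + 3)
  (hl : ∀ g' ∈ Hd K s, l g' = 0 ↔ g' ∈ degPart (II f g h) s)
  (hD : IsDec D f g h a b c (n + 2))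

/-- The common direction of the values of a family. -/
lemma direction [Infinite K] {ι : Type} [Fintype ι] {W : ι → Fin 3 → MvPolynomial (Fin 3) K}
    {D₀ : ℕ} (hWm : ∀ s i, W s i ∈ Pt K D₀ (![a, b, c] i)) {s₀ : ι} {i₁ : Fin 3}
    (hne : W s₀ i₁ ≠ 0) :
    ∃ (g₀ : MvPolynomial (Fin 3) K) (W' : Fin 3 → MvPolynomial (Fin 3) K) (D' : ℕ),
      g₀ ≠ 0 ∧ (∀ i, W s₀ i = g₀ * W' i) ∧ (∀ d, (∀ i, d ∣ W' i) → IsUnit d) ∧
        W' i₁ ≠ 0 ∧ ∀ i, W' i ∈ Pt K D' (![a, b, c] i) := by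
  obtain ⟨g₀, W', hg₀, hW', hprim⟩ := prim (W s₀) ⟨i₁, hne⟩
  have hW'i₁ : W' i₁ ≠ 0 := by
    intro h0
    apply hne
    rw [hW', h0, mul_zero]
  have hdeg : ∀ i, W s₀ i ≠ 0 → W s₀ i ∈ Hd K (D₀ - ![a, b, c] i) ∧ ![a, b, c] i ≤ D₀ := by
    intro i hi
    have h1 := hWm s₀ i
    by_cases h2 : ![a, b, c] i ≤ D₀
    · rw [Pt_of_le h2] at h1
      exact ⟨h1, h2⟩
    · rw [Pt_of_lt (by omega), Submodule.mem_bot] at h1
      exact absurd h1 hi
  obtain ⟨e₀, he₀⟩ : ∃ e₀, g₀ ∈ Hd K e₀ :=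
    homog_of_mul (p := W' i₁) (n := D₀ - ![a, b, c] i₁)
      (by rw [mul_comm, ← hW']; exact (hdeg i₁ hne).1) hW'i₁ hg₀
  refine ⟨g₀, W', D₀ - e₀, hg₀, hW', hprim, hW'i₁, fun i => ?_⟩
  by_cases h0 : W' i = 0
  · rw [h0]
    exact Submodule.zero_mem _
  · have hne' : W s₀ i ≠ 0 := by
      rw [hW']
      exact mul_ne_zero hg₀ h0
    obtain ⟨hd1, hd2⟩ := hdeg i hne'
    obtain ⟨e₁, he₁⟩ := homog_of_mul (p := g₀) (q := W' i) (n := D₀ - ![a, b, c] i)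
      (by rw [← hW']; exact hd1) hg₀ h0
    have h3 : g₀ * W' i ∈ Hd K (e₀ + e₁) := Hd_mul_mem he₀ he₁
    have h4 : e₀ + e₁ = D₀ - ![a, b, c] i :=
      IsHomogeneous.inj_right h3 (by rw [← hW']; exact hd1) (mul_ne_zero hg₀ h0)
    rw [Pt_of_le (by omega)]
    have h5 : D₀ - e₀ - ![a, b, c] i = e₁ := by omega
    rw [h5]
    exact he₁

include cI hs hl hD

/-- The values fill a line. -/
theorem case1 [Infinite K] (hn2 : n + 2 < a + b)
    {V : Submodule K (MvPolynomial (Fin 3) K)} (hV : V ≤ Hd K (n + 1))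
    (hIV : degPart (II f g h) (n + 1) ≤ V) (hcl : Closed (II f g h) V (n + 1)) {e : ℕ}
    (hde : n + 1 + 1 + e = s) {cV : MvPolynomial (Fin 3) K} (hcV : cV ≠ 0)
    (hpV : ∀ P : Fin 3 → K, eval P cV ≠ 0 → ∀ t ∈ up (II f g h) V (n + 1), ∃ v₁ ∈ V, ∃ v₂ ∈ V,
      t - (L1 P * v₁ + L2 P * v₂) ∈ II f g h)
    {cZ : MvPolynomial (Fin 3) K} (hcZ : cZ ≠ 0) {EZ : ℕ} (hcZm : cZ ∈ Hd K EZ)
    (hpZ : ∀ P : Fin 3 → K, eval P cZ ≠ 0 → ∀ t ∈ up (II f g h) (perp l (up (II f g h) V (n + 1)) e) e,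
      ∃ z₁ ∈ perp l (up (II f g h) V (n + 1)) e, ∃ z₂ ∈ perp l (up (II f g h) V (n + 1)) e,
        t - (L1 P * z₁ + L2 P * z₂) ∈ II f g h)
    {ι : Type} [Fintype ι] {W : ι → Fin 3 → MvPolynomial (Fin 3) K} {c₁ : MvPolynomial (Fin 3) K}
    (F : Fm f g h D V W c₁) (hc₁ : c₁ ≠ 0) {E₁ : ℕ} (hc₁m : c₁ ∈ Hd K E₁) {D₀ : ℕ}
    (hWm : ∀ s i, W s i ∈ Pt K D₀ (![a, b, c] i))
    (hminor : ∀ s s', W s 1 * W s' 2 - W s 2 * W s' 1 = 0) {s₀ : ι} {i₁ : Fin 3}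
    (hne : W s₀ i₁ ≠ 0) :
    EE (II f g h) (a, b, c) V (n + 1) := by
  have hf0 : f ≠ 0 := cI.reg.h0
  have syz := fun s => F.syz cI hD hV s
  have hmin : ∀ s s' i k, W s i * W s' k = W s k * W s' i :=
    fun s s' i k => minors_all hf0 (syz s) (syz s') (hminor s s') i k
  obtain ⟨g₀, W', D', hg₀, hW', hprim, hW'i₁, hWm'⟩ := direction hWm hne
  have hsyz' : W' 0 * f + W' 1 * g + W' 2 * h = 0 := by
    apply mul_left_cancel₀ hg₀
    have := syz s₀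
    rw [hW', hW', hW'] at this
    rw [mul_zero]
    linear_combination this
  have hcr1 : ∀ s i k, W s i * W' k = W s k * W' i := by
    intro s i k
    apply mul_left_cancel₀ hg₀
    have := hmin s s₀ i k
    rw [hW', hW'] at this
    linear_combination this
  have hcross : ∀ P : Fin 3 → K, eval P (c₁ * cZ) ≠ 0 → P 0 ≠ 0 → ∀ v₁ ∈ V, ∀ v₂ ∈ V,
      L1 P * v₁ + L2 P * v₂ ∈ II f g h → ∀ i k,
        eval P (D i (L1 P * v₁ + L2 P * v₂)) * eval P (W' k)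
          = eval P (D k (L1 P * v₁ + L2 P * v₂)) * eval P (W' i) := by
    intro P hP _ v₁ hv₁ v₂ hv₂ hrel i k
    rw [map_mul] at hP
    have hc₁P := left_ne_zero_of_mul hP
    obtain ⟨α, hα⟩ := F.gen P v₁ hv₁ v₂ hv₂ hrel
    apply mul_left_cancel₀ hc₁P
    rw [← mul_assoc, ← mul_assoc, hα i, hα k, Finset.sum_mul, Finset.sum_mul]
    refine Finset.sum_congr rfl fun s _ => ?_
    have h1 := congrArg (eval P) (hcr1 s i k)
    rw [map_mul, map_mul] at h1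
    rw [mul_assoc, mul_assoc, h1]
  have hcolon : ∀ P : Fin 3 → K, eval P (c₁ * cZ) ≠ 0 → P 0 ≠ 0 → ∀ y ∈ Hd K n, L1 P * y ∈ V →
      L2 P * y ∈ V → y ∈ colon V n := by
    intro P hP _ y hy h3 h4
    rw [map_mul] at hP
    exact cI.colon_of_pencil hs hl hde hV hIV hcl (hpZ P (right_ne_zero_of_mul hP)) rfl hy h3 h4
  -- the point for counting
  have hprod : c₁ * cZ * cV * (f * X 0) * W s₀ i₁ ≠ 0 :=
    mul_ne_zero (mul_ne_zero (mul_ne_zero (mul_ne_zero hc₁ hcZ) hcV)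
      (mul_ne_zero hf0 (X_ne_zero 0))) hne
  obtain ⟨P, hP⟩ := exists_eval_ne hprod
  have hP' := hP
  rw [map_mul, map_mul, map_mul, map_mul, map_mul, eval_X] at hP
  have h1 := left_ne_zero_of_mul hP
  have hWP := right_ne_zero_of_mul hP
  have h2 := left_ne_zero_of_mul h1
  have h3 := right_ne_zero_of_mul h1
  have hfP := left_ne_zero_of_mul h3
  have hP0 := right_ne_zero_of_mul h3
  have hcVP := right_ne_zero_of_mul h2
  have hΓP : eval P (c₁ * cZ) ≠ 0 := by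
    rw [map_mul]
    exact left_ne_zero_of_mul h2
  obtain ⟨r₁, hr₁, r₂, hr₂, hrr, hval⟩ := F.val P s₀
  have hne' : eval P (D i₁ (L1 P * r₁ + L2 P * r₂)) ≠ 0 := by
    rw [← hval]
    exact hWP
  have hprop : ∀ v₁ ∈ V, ∀ v₂ ∈ V, L1 P * v₁ + L2 P * v₂ ∈ II f g h → ∀ i k,
      eval P (D i (L1 P * v₁ + L2 P * v₂)) * eval P (D k (L1 P * r₁ + L2 P * r₂))
        = eval P (D k (L1 P * v₁ + L2 P * v₂)) * eval P (D i (L1 P * r₁ + L2 P * r₂)) := by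
    intro v₁ hv₁ v₂ hv₂ hrel i k
    rw [← hval, ← hval, hW', hW', map_mul, map_mul]
    have := hcross P hΓP hP0 v₁ hv₁ v₂ hv₂ hrel i k
    linear_combination (eval P g₀) * this
  have hcount := count_lemma cI hs hl hD hn2 hV hIV hP0 hfP (hpV P hcVP) (hcolon P hΓP hP0) hr₁ hr₂
    hrr hne' hprop
  have hch := chern cI hD hV hIV (Γ := c₁ * cZ) (mul_ne_zero hc₁ hcZ) (Hd_mul_mem hc₁m hcZm) (W := W')
    (D' := D') ⟨i₁, hW'i₁⟩ hWm' hsyz' hprim hcross hcolon hn2 hcount.le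
  have hN := N_A (a := a) (b := b) (c := c) (d := n + 1)
    (q := finrank K V - finrank K (degPart (II f g h) (n + 1))) cI.hab cI.hbc cI.a_pos (by omega)
  have hle := finrank_mono_Hd (degPart_le_up (I := II f g h) V (n + 1)) (up_le (I := II f g h) hV)
  unfold EE
  change finrank K (degPart (II f g h) (n + 2)) + _ ≤ _
  change finrank K (degPart (II f g h) (n + 2)) ≤ _ at hle
  omega

end Case1

end Vale.Agent.Lib.P200.All
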