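import Mathlib

namespace Vale.Agent.Lib.P200.All

open MvPolynomial Module

variable {K : Type*} [Field K]

/-- The piece of degree `j - p` of `S/I`, for `S` the polynomial ring in three variables: the image
of the forms of degree `j - p`; it is zero when `j < p`. -/
noncomputable def pc (I : Ideal (MvPolynomial (Fin 3) K)) (j p : ℕ) :
    Submodule K (MvPolynomial (Fin 3) K ⧸ I) :=
  if p ≤ j then (homogeneousSubmodule (Fin 3) K (j - p)).map (Ideal.Quotient.mkₐ K I).toLinearMap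
  else ⊥

/-- Triples of elements of the piece of degree `j - p` of `S/I`. -/
noncomputable def trp (I : Ideal (MvPolynomial (Fin 3) K)) (j p : ℕ) :
    Submodule K ((MvPolynomial (Fin 3) K ⧸ I) × (MvPolynomial (Fin 3) K ⧸ I) ×
      (MvPolynomial (Fin 3) K ⧸ I)) :=
  (pc I j p).prod ((pc I j p).prod (pc I j p))

/-- The class of a variable in `S/I`. -/
noncomputable def xq (I : Ideal (MvPolynomial (Fin 3) K)) (i : Fin 3) :
    MvPolynomial (Fin 3) K ⧸ I :=
  Ideal.Quotient.mk I (X i)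

/-- The function underlying the first Koszul differential. -/
noncomputable def fA (I : Ideal (MvPolynomial (Fin 3) K))
    (a : (MvPolynomial (Fin 3) K ⧸ I) × (MvPolynomial (Fin 3) K ⧸ I) × (MvPolynomial (Fin 3) K ⧸ I)) :
    MvPolynomial (Fin 3) K ⧸ I :=
  xq I 0 * a.1 + xq I 1 * a.2.1 + xq I 2 * a.2.2

lemma fA_add (I : Ideal (MvPolynomial (Fin 3) K))
    (a b : (MvPolynomial (Fin 3) K ⧸ I) × (MvPolynomial (Fin 3) K ⧸ I) × (MvPolynomial (Fin 3) K ⧸ I)) :
    fA I (a + b) = fA I a + fA I b := by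
  simp only [fA, Prod.fst_add, Prod.snd_add]
  ring

lemma fA_smul (I : Ideal (MvPolynomial (Fin 3) K)) (r : K)
    (a : (MvPolynomial (Fin 3) K ⧸ I) × (MvPolynomial (Fin 3) K ⧸ I) × (MvPolynomial (Fin 3) K ⧸ I)) :
    fA I (r • a) = r • fA I a := by
  simp only [fA, Prod.smul_fst, Prod.smul_snd, smul_add, mul_smul_comm]

/-- The Koszul differential `(a₀, a₁, a₂) ↦ x₀ a₀ + x₁ a₁ + x₂ a₂` on `S/I`. -/
noncomputable def dKa (I : Ideal (MvPolynomial (Fin 3) K)) :
    ((MvPolynomial (Fin 3) K ⧸ I) × (MvPolynomial (Fin 3) K ⧸ I) × (MvPolynomial (Fin 3) K ⧸ I))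
      →ₗ[K] (MvPolynomial (Fin 3) K ⧸ I) where
  toFun := fA I
  map_add' := fA_add I
  map_smul' := fA_smul I

/-- The function underlying the second Koszul differential. -/
noncomputable def fB (I : Ideal (MvPolynomial (Fin 3) K))
    (b : (MvPolynomial (Fin 3) K ⧸ I) × (MvPolynomial (Fin 3) K ⧸ I) × (MvPolynomial (Fin 3) K ⧸ I)) :
    (MvPolynomial (Fin 3) K ⧸ I) × (MvPolynomial (Fin 3) K ⧸ I) × (MvPolynomial (Fin 3) K ⧸ I) :=
  (-(xq I 1 * b.1) - xq I 2 * b.2.1, xq I 0 * b.1 - xq I 2 * b.2.2,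
    xq I 0 * b.2.1 + xq I 1 * b.2.2)

lemma fB_add (I : Ideal (MvPolynomial (Fin 3) K))
    (a b : (MvPolynomial (Fin 3) K ⧸ I) × (MvPolynomial (Fin 3) K ⧸ I) × (MvPolynomial (Fin 3) K ⧸ I)) :
    fB I (a + b) = fB I a + fB I b := by
  simp only [fB, Prod.fst_add, Prod.snd_add, Prod.mk_add_mk, Prod.mk.injEq]
  refine ⟨?_, ?_, ?_⟩ <;> ring

lemma fB_smul (I : Ideal (MvPolynomial (Fin 3) K)) (r : K)
    (a : (MvPolynomial (Fin 3) K ⧸ I) × (MvPolynomial (Fin 3) K ⧸ I) × (MvPolynomial (Fin 3) K ⧸ I)) :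
    fB I (r • a) = r • fB I a := by
  simp only [fB, Prod.smul_fst, Prod.smul_snd, Prod.smul_mk, Prod.mk.injEq,
    smul_add, smul_sub, smul_neg, mul_smul_comm, and_self]

/-- The Koszul differential
`(b₀₁, b₀₂, b₁₂) ↦ (-x₁ b₀₁ - x₂ b₀₂, x₀ b₀₁ - x₂ b₁₂, x₀ b₀₂ + x₁ b₁₂)` on `S/I`. -/
noncomputable def dKb (I : Ideal (MvPolynomial (Fin 3) K)) :
    ((MvPolynomial (Fin 3) K ⧸ I) × (MvPolynomial (Fin 3) K ⧸ I) × (MvPolynomial (Fin 3) K ⧸ I))
      →ₗ[K] ((MvPolynomial (Fin 3) K ⧸ I) × (MvPolynomial (Fin 3) K ⧸ I) ×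
        (MvPolynomial (Fin 3) K ⧸ I)) where
  toFun := fB I
  map_add' := fB_add I
  map_smul' := fB_smul I

/-- The function underlying the last Koszul differential. -/
noncomputable def fC (I : Ideal (MvPolynomial (Fin 3) K)) (c : MvPolynomial (Fin 3) K ⧸ I) :
    (MvPolynomial (Fin 3) K ⧸ I) × (MvPolynomial (Fin 3) K ⧸ I) × (MvPolynomial (Fin 3) K ⧸ I) :=
  (xq I 2 * c, -(xq I 1 * c), xq I 0 * c)

lemma fC_add (I : Ideal (MvPolynomial (Fin 3) K)) (a b : MvPolynomial (Fin 3) K ⧸ I) :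
    fC I (a + b) = fC I a + fC I b := by
  simp only [fC, Prod.mk_add_mk, Prod.mk.injEq]
  refine ⟨?_, ?_, ?_⟩ <;> ring

lemma fC_smul (I : Ideal (MvPolynomial (Fin 3) K)) (r : K) (a : MvPolynomial (Fin 3) K ⧸ I) :
    fC I (r • a) = r • fC I a := by
  simp only [fC, Prod.smul_mk, Prod.mk.injEq, smul_neg, mul_smul_comm, and_self]

/-- The Koszul differential `c ↦ (x₂ c, -x₁ c, x₀ c)` on `S/I`. -/
noncomputable def dKc (I : Ideal (MvPolynomial (Fin 3) K)) :
    (MvPolynomial (Fin 3) K ⧸ I) →ₗ[K] ((MvPolynomial (Fin 3) K ⧸ I) ×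
      (MvPolynomial (Fin 3) K ⧸ I) × (MvPolynomial (Fin 3) K ⧸ I)) where
  toFun := fC I
  map_add' := fC_add I
  map_smul' := fC_smul I

/-- The boundaries in homological degree `0` and internal degree `j`. -/
noncomputable def Bd0 (I : Ideal (MvPolynomial (Fin 3) K)) (j : ℕ) :
    Submodule K (MvPolynomial (Fin 3) K ⧸ I) := (trp I j 1).map (dKa I)

/-- The cycles in homological degree `1` and internal degree `j`. -/
noncomputable def Zy1 (I : Ideal (MvPolynomial (Fin 3) K)) (j : ℕ) :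
    Submodule K ((MvPolynomial (Fin 3) K ⧸ I) × (MvPolynomial (Fin 3) K ⧸ I) ×
      (MvPolynomial (Fin 3) K ⧸ I)) := trp I j 1 ⊓ LinearMap.ker (dKa I)

/-- The boundaries in homological degree `1` and internal degree `j`. -/
noncomputable def Bd1 (I : Ideal (MvPolynomial (Fin 3) K)) (j : ℕ) :
    Submodule K ((MvPolynomial (Fin 3) K ⧸ I) × (MvPolynomial (Fin 3) K ⧸ I) ×
      (MvPolynomial (Fin 3) K ⧸ I)) := (trp I j 2).map (dKb I)

/-- The cycles in homological degree `2` and internal degree `j`. -/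
noncomputable def Zy2 (I : Ideal (MvPolynomial (Fin 3) K)) (j : ℕ) :
    Submodule K ((MvPolynomial (Fin 3) K ⧸ I) × (MvPolynomial (Fin 3) K ⧸ I) ×
      (MvPolynomial (Fin 3) K ⧸ I)) := trp I j 2 ⊓ LinearMap.ker (dKb I)

/-- The boundaries in homological degree `2` and internal degree `j`. -/
noncomputable def Bd2 (I : Ideal (MvPolynomial (Fin 3) K)) (j : ℕ) :
    Submodule K ((MvPolynomial (Fin 3) K ⧸ I) × (MvPolynomial (Fin 3) K ⧸ I) ×
      (MvPolynomial (Fin 3) K ⧸ I)) := (pc I j 3).map (dKc I)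

/-- The cycles in homological degree `3` and internal degree `j`. -/
noncomputable def Zy3 (I : Ideal (MvPolynomial (Fin 3) K)) (j : ℕ) :
    Submodule K (MvPolynomial (Fin 3) K ⧸ I) := pc I j 3 ⊓ LinearMap.ker (dKc I)

/-- `β_{0,j}`: homology in homological degree `0`. -/
noncomputable def kb0 (I : Ideal (MvPolynomial (Fin 3) K)) (j : ℕ) : ℕ :=
  finrank K (pc I j 0) - finrank K (Bd0 I j)

/-- `β_{1,j}`: homology in homological degree `1`. -/
noncomputable def kb1 (I : Ideal (MvPolynomial (Fin 3) K)) (j : ℕ) : ℕ :=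
  finrank K (Zy1 I j) - finrank K (Bd1 I j)

/-- `β_{2,j}`: homology in homological degree `2`. -/
noncomputable def kb2 (I : Ideal (MvPolynomial (Fin 3) K)) (j : ℕ) : ℕ :=
  finrank K (Zy2 I j) - finrank K (Bd2 I j)

/-- `β_{3,j}`: homology in homological degree `3`. -/
noncomputable def kb3 (I : Ideal (MvPolynomial (Fin 3) K)) (j : ℕ) : ℕ :=
  finrank K (Zy3 I j)

/-- The graded Betti number `β_{p,j}(S/I) = dim Tor_p^S(S/I, K)_j`, computed as the dimension of the
homology in internal degree `j` of the Koszul complex of `x₀, x₁, x₂` on `S/I`. -/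
noncomputable def kb (I : Ideal (MvPolynomial (Fin 3) K)) (p j : ℕ) : ℕ :=
  if p = 0 then kb0 I j else if p = 1 then kb1 I j else if p = 2 then kb2 I j
  else if p = 3 then kb3 I j else 0

end Vale.Agent.Lib.P200.All
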