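import Vale.Agent.Lib.P200.All.Main
import Vale.Agent.Lib.P200.All.Betti

namespace Vale.Agent.Lib.P200.All

open MvPolynomial Module Fam Gen

variable {K : Type*} [Field K]

section Prod3

/-- Triples of elements of a subspace. -/
abbrev Tr {M : Type*} [AddCommGroup M] [Module K M] (V : Submodule K M) : Submodule K (M × M × M) :=
  V.prod (V.prod V)

lemma finrank_Tr {M : Type*} [AddCommGroup M] [Module K M] (V : Submodule K M) [Module.Finite K V] :
    Module.Finite K (Tr V) ∧ finrank K (Tr V) = 3 * finrank K V := by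
  let e : (↥V × ↥V × ↥V) ≃ₗ[K] ↥(Tr V) :=
    { toFun := fun p => ⟨(p.1.1, p.2.1.1, p.2.2.1), ⟨p.1.2, p.2.1.2, p.2.2.2⟩⟩
      map_add' := fun _ _ => rfl
      map_smul' := fun _ _ => rfl
      invFun := fun q => (⟨q.1.1, q.2.1⟩, ⟨q.1.2.1, q.2.2.1⟩, ⟨q.1.2.2, q.2.2.2⟩)
      left_inv := fun _ => rfl
      right_inv := fun _ => rfl }
  refine ⟨Module.Finite.equiv e, ?_⟩
  rw [← e.finrank_eq, Module.finrank_prod, Module.finrank_prod]
  omega

lemma fin_Tr {M : Type*} [AddCommGroup M] [Module K M] (V : Submodule K M) [Module.Finite K V] :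
    Module.Finite K (Tr V) := (finrank_Tr V).1

end Prod3

section Gen

variable {I : Ideal (MvPolynomial (Fin 3) K)}

lemma pc_eq (I : Ideal (MvPolynomial (Fin 3) K)) (j p : ℕ) : pc I j p = (Pt K j p).map (qm I) := by
  unfold pc Pt
  split_ifs
  · rfl
  · rw [Submodule.map_bot]

lemma xq_eq (I : Ideal (MvPolynomial (Fin 3) K)) (i : Fin 3) : xq I i = qm I (X i) := rfl

instance pc_fin (j p : ℕ) : Module.Finite K (pc I j p) := by
  rw [pc_eq]
  by_cases h : p ≤ j
  · rw [Pt_of_le h]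
    infer_instance
  · rw [Pt_of_lt (by omega), Submodule.map_bot]
    infer_instance

/-- The action on triples of the quotient map. -/
noncomputable def q3 (I : Ideal (MvPolynomial (Fin 3) K)) :
    (MvPolynomial (Fin 3) K × MvPolynomial (Fin 3) K × MvPolynomial (Fin 3) K) →ₗ[K]
      ((MvPolynomial (Fin 3) K ⧸ I) × (MvPolynomial (Fin 3) K ⧸ I) × (MvPolynomial (Fin 3) K ⧸ I)) :=
  LinearMap.prodMap (qm I) (LinearMap.prodMap (qm I) (qm I))

lemma q3_apply (s : MvPolynomial (Fin 3) K × MvPolynomial (Fin 3) K × MvPolynomial (Fin 3) K) :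
    q3 I s = (qm I s.1, qm I s.2.1, qm I s.2.2) := rfl

lemma map_q3 (V : Submodule K (MvPolynomial (Fin 3) K)) :
    Tr (V.map (qm I)) = (Tr V).map (q3 I) := by
  ext ⟨x, y, z⟩
  constructor
  · rintro ⟨⟨u, hu, rfl⟩, ⟨v, hv, rfl⟩, ⟨w, hw, rfl⟩⟩
    exact ⟨(u, v, w), ⟨hu, hv, hw⟩, rfl⟩
  · rintro ⟨⟨u, v, w⟩, ⟨hu, hv, hw⟩, h⟩
    simp only [q3_apply, Prod.mk.injEq] at h
    obtain ⟨rfl, rfl, rfl⟩ := h
    exact ⟨⟨u, hu, rfl⟩, ⟨v, hv, rfl⟩, ⟨w, hw, rfl⟩⟩

lemma trp_eq (I : Ideal (MvPolynomial (Fin 3) K)) (j p : ℕ) :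
    trp I j p = (Tr (Pt K j p)).map (q3 I) := by
  rw [← map_q3, ← pc_eq]
  rfl

/-- The Koszul differential on the polynomial ring. -/
noncomputable def muS : (MvPolynomial (Fin 3) K × MvPolynomial (Fin 3) K × MvPolynomial (Fin 3) K)
    →ₗ[K] MvPolynomial (Fin 3) K where
  toFun a := X 0 * a.1 + X 1 * a.2.1 + X 2 * a.2.2
  map_add' a b := by
    simp only [Prod.fst_add, Prod.snd_add]
    ring
  map_smul' r a := by
    simp only [Prod.smul_fst, Prod.smul_snd, RingHom.id_apply, smul_add, mul_smul_comm]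

lemma muS_apply (a : MvPolynomial (Fin 3) K × MvPolynomial (Fin 3) K × MvPolynomial (Fin 3) K) :
    muS a = X 0 * a.1 + X 1 * a.2.1 + X 2 * a.2.2 := rfl

/-- The second Koszul differential on the polynomial ring. -/
noncomputable def delS : (MvPolynomial (Fin 3) K × MvPolynomial (Fin 3) K × MvPolynomial (Fin 3) K)
    →ₗ[K] (MvPolynomial (Fin 3) K × MvPolynomial (Fin 3) K × MvPolynomial (Fin 3) K) where
  toFun b := (-(X 1 * b.1) - X 2 * b.2.1, X 0 * b.1 - X 2 * b.2.2, X 0 * b.2.1 + X 1 * b.2.2)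
  map_add' a b := by
    simp only [Prod.fst_add, Prod.snd_add, Prod.mk_add_mk, Prod.mk.injEq]
    refine ⟨?_, ?_, ?_⟩ <;> ring
  map_smul' r a := by
    simp only [Prod.smul_fst, Prod.smul_snd, RingHom.id_apply, Prod.smul_mk, Prod.mk.injEq,
      smul_add, smul_sub, smul_neg, mul_smul_comm, and_self]

lemma delS_apply (b : MvPolynomial (Fin 3) K × MvPolynomial (Fin 3) K × MvPolynomial (Fin 3) K) :
    delS b = (-(X 1 * b.1) - X 2 * b.2.1, X 0 * b.1 - X 2 * b.2.2, X 0 * b.2.1 + X 1 * b.2.2) := rfl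

lemma dKa_q3 (s : MvPolynomial (Fin 3) K × MvPolynomial (Fin 3) K × MvPolynomial (Fin 3) K) :
    dKa I (q3 I s) = qm I (muS s) := by
  rw [muS_apply, map_add, map_add, qm_mul, qm_mul, qm_mul]
  rfl

lemma dKb_q3 (s : MvPolynomial (Fin 3) K × MvPolynomial (Fin 3) K × MvPolynomial (Fin 3) K) :
    dKb I (q3 I s) = q3 I (delS s) := by
  rw [delS_apply, q3_apply, q3_apply]
  simp only [map_sub, map_add, map_neg, qm_mul]
  rfl

lemma dKc_q (s : MvPolynomial (Fin 3) K) :
    dKc I (qm I s) = q3 I (X 2 * s, -(X 1 * s), X 0 * s) := by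
  rw [q3_apply]
  simp only [map_neg, qm_mul]
  rfl

lemma lin_Hd {m x : MvPolynomial (Fin 3) K} {n : ℕ} (hm : m ∈ Hd K 1) (hx : x ∈ Hd K n) :
    m * x ∈ Hd K (n + 1) := by
  have := Hd_mul_mem hm hx
  rwa [add_comm] at this

lemma muS_mem {n : ℕ} {s : MvPolynomial (Fin 3) K × MvPolynomial (Fin 3) K × MvPolynomial (Fin 3) K}
    (hs : s ∈ Tr (Hd K n)) : muS s ∈ Hd K (n + 1) := by
  obtain ⟨h0, h1, h2⟩ := hs
  rw [muS_apply]
  exact Submodule.add_mem _ (Submodule.add_mem _ (lin_Hd (X_mem_Hd 0) h0) (lin_Hd (X_mem_Hd 1) h1))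
    (lin_Hd (X_mem_Hd 2) h2)

/-- Every form of positive degree is in the image of the Koszul differential. -/
lemma muS_surj {n : ℕ} {x : MvPolynomial (Fin 3) K} (hx : x ∈ Hd K (n + 1)) :
    ∃ s ∈ Tr (Hd K n), muS s = x := by
  rw [← Hd_one_mul n] at hx
  induction hx using Submodule.mul_induction_on' with
  | mem_mul_mem m hm g hg =>
    rw [mem_Hd] at hm
    have hm' : m ∈ Submodule.span K (Set.range (X : Fin 3 → MvPolynomial (Fin 3) K)) := by
      rw [← homogeneousSubmodule_one_eq_span_X]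
      exact hm
    clear hm
    induction hm' using Submodule.span_induction with
    | mem y hy =>
      obtain ⟨i, rfl⟩ := hy
      fin_cases i
      · exact ⟨(g, 0, 0), ⟨hg, Submodule.zero_mem _, Submodule.zero_mem _⟩, by simp [muS_apply]⟩
      · exact ⟨(0, g, 0), ⟨Submodule.zero_mem _, hg, Submodule.zero_mem _⟩, by simp [muS_apply]⟩
      · exact ⟨(0, 0, g), ⟨Submodule.zero_mem _, Submodule.zero_mem _, hg⟩, by simp [muS_apply]⟩
    | zero => exact ⟨0, Submodule.zero_mem _, by simp⟩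
    | add a b _ _ iha ihb =>
      obtain ⟨s, hs, hs'⟩ := iha
      obtain ⟨t, ht, ht'⟩ := ihb
      exact ⟨s + t, Submodule.add_mem _ hs ht, by rw [map_add, add_mul, hs', ht']⟩
    | smul r a _ iha =>
      obtain ⟨s, hs, hs'⟩ := iha
      refine ⟨r • s, Submodule.smul_mem _ r hs, ?_⟩
      rw [map_smul, hs', smul_mul_assoc]
  | add a _ b _ iha ihb =>
    obtain ⟨s, hs, rfl⟩ := iha
    obtain ⟨t, ht, rfl⟩ := ihb
    exact ⟨s + t, Submodule.add_mem _ hs ht, map_add _ _ _⟩

/-- A form vanishing at the first coordinate point lies in the ideal of the last two variables. -/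
lemma mem_X12 {d : ℕ} {α : MvPolynomial (Fin 3) K} (hα : α ∈ Hd K d)
    (h0 : eval ![1, 0, 0] α = 0) :
    ∃ A B, A ∈ Pt K d 1 ∧ B ∈ Pt K d 1 ∧ A * X 1 + B * X 2 = α := by
  set 𝔭 : Ideal (MvPolynomial (Fin 3) K) := Ideal.span {X 1, X 2} with h𝔭
  let ψ : MvPolynomial (Fin 3) K →ₐ[K] MvPolynomial (Fin 3) K := aeval ![X 0, 0, 0]
  have h1 : (Ideal.Quotient.mkₐ K 𝔭).comp ψ = Ideal.Quotient.mkₐ K 𝔭 := by
    apply MvPolynomial.algHom_ext
    intro i
    fin_cases i
    · simp [ψ]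
    · simp only [ψ, AlgHom.comp_apply, aeval_X]
      simp only [Fin.mk_one, Matrix.cons_val_one, Matrix.cons_val_zero, map_zero]
      symm
      rw [Ideal.Quotient.mkₐ_eq_mk, Ideal.Quotient.eq_zero_iff_mem]
      exact Ideal.subset_span (by simp)
    · simp only [ψ, AlgHom.comp_apply, aeval_X]
      simp only [Fin.reduceFinMk, Matrix.cons_val, map_zero]
      symm
      rw [Ideal.Quotient.mkₐ_eq_mk, Ideal.Quotient.eq_zero_iff_mem]
      exact Ideal.subset_span (by simp)
  have h2 : α - ψ α ∈ 𝔭 := by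
    have h3 := AlgHom.congr_fun h1 α
    simp only [AlgHom.comp_apply, Ideal.Quotient.mkₐ_eq_mk] at h3
    exact Ideal.Quotient.eq.mp h3.symm
  have hψ : ∀ (n : ℕ) (h : MvPolynomial (Fin 3) K), h ∈ Hd K n →
      ψ h = C (eval ![1, 0, 0] h) * X 0 ^ n := by
    intro n
    induction n with
    | zero =>
      intro h hh
      have hg' : h = C (coeff 0 h) := by
        by_cases h0 : h = 0
        · simp [h0]
        · have := totalDegree_of_Hd hh h0
          exact totalDegree_eq_zero_iff_eq_C.mp this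
      rw [hg']
      simp [ψ]
    | succ n ih =>
      intro h hh
      have h2 : h ∈ Hd K 1 * Hd K n := by
        rw [Hd_one_mul n]
        exact hh
      clear hh
      induction h2 using Submodule.mul_induction_on' with
      | mem_mul_mem m hm g hg =>
        have hlin : ψ m = C (eval ![1, 0, 0] m) * X 0 := by
          rw [mem_Hd] at hm
          have hm' : m ∈ Submodule.span K (Set.range (X : Fin 3 → MvPolynomial (Fin 3) K)) := by
            rw [← homogeneousSubmodule_one_eq_span_X]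
            exact hm
          clear hm
          induction hm' using Submodule.span_induction with
          | mem y hy =>
            obtain ⟨i, rfl⟩ := hy
            fin_cases i <;> simp [ψ]
          | zero => simp
          | add a b _ _ iha ihb =>
            rw [map_add, iha, ihb, map_add, C_add, add_mul]
          | smul r a _ iha =>
            rw [map_smul, iha, MvPolynomial.smul_eval, C_mul, smul_eq_C_mul, mul_assoc]
        rw [map_mul, map_mul, hlin, ih g hg, C_mul]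
        ring
      | add a _ b _ iha ihb =>
        rw [map_add, iha, ihb, map_add, C_add, add_mul]
  have h3 : ψ α = 0 := by
    rw [hψ d α hα, h0, C_0, zero_mul]
  rw [h3, sub_zero] at h2
  obtain ⟨A, B, hAB⟩ := Ideal.mem_span_pair.mp h2
  exact ⟨_, _, cp_mem _ _ A, cp_mem _ _ B, decomp2 (X_mem_Hd 1) (X_mem_Hd 2) hα hAB⟩

/-- Exactness of the Koszul complex on the polynomial ring. -/
lemma koszul_S {n : ℕ} {s : MvPolynomial (Fin 3) K × MvPolynomial (Fin 3) K × MvPolynomial (Fin 3) K}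
    (hs : s ∈ Tr (Hd K n)) (h0 : muS s = 0) : ∃ b ∈ Tr (Pt K n 1), delS b = s := by
  obtain ⟨s₀, s₁, s₂⟩ := s
  obtain ⟨h1, h2, h3⟩ := hs
  change s₀ ∈ Hd K n at h1
  change s₁ ∈ Hd K n at h2
  change s₂ ∈ Hd K n at h3
  rw [muS_apply] at h0
  simp only at h0
  have h4 := congrArg (eval ![1, 0, 0]) h0
  simp at h4
  obtain ⟨A, B, hA, hB, hAB⟩ := mem_X12 h1 h4
  -- the Koszul relation on the last two variables
  let P : Fin 3 → K := ![1, 0, 0]
  have hP : P 0 ≠ 0 := by simp [P]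
  have hL1 : L1 P = X 1 := by simp [L1, P]
  have hL2 : L2 P = X 2 := by simp [L2, P]
  have h5 : L1 P * (s₁ + X 0 * A) + L2 P * (s₂ + X 0 * B) = 0 := by
    rw [hL1, hL2]
    rw [← hAB] at h0
    linear_combination h0
  have hq : s₂ + X 0 * B ∈ Hd K n := by
    refine Submodule.add_mem _ h3 ?_
    by_cases h6 : 1 ≤ n
    · rw [Pt_of_le h6] at hB
      have := lin_Hd (X_mem_Hd 0) hB
      rwa [show n - 1 + 1 = n by omega] at this
    · rw [Pt_of_lt (by omega), Submodule.mem_bot] at hB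
      rw [hB, mul_zero]
      exact Submodule.zero_mem _
  obtain ⟨y, hy, hy1, hy2⟩ := koszul hP hq h5
  rw [hL2] at hy1
  rw [hL1] at hy2
  refine ⟨(-A, -B, -y), ⟨Submodule.neg_mem _ hA, Submodule.neg_mem _ hB, Submodule.neg_mem _ hy⟩, ?_⟩
  rw [delS_apply]
  simp only [Prod.mk.injEq]
  refine ⟨?_, ?_, ?_⟩
  · rw [← hAB]
    ring
  · linear_combination -hy1
  · linear_combination -hy2

end Gen

end Vale.Agent.Lib.P200.All
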