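import Vale.Agent.Lib.P200.All.BettiA

namespace Vale.Agent.Lib.P200.All

open MvPolynomial Module Fam Gen

variable {K : Type*} [Field K]

lemma Pt_succ_succ (j p : ℕ) : (Pt K (j + 1) (p + 1) : Submodule K (MvPolynomial (Fin 3) K))
    = Pt K j p := by
  by_cases h : p ≤ j
  · rw [Pt_of_le (by omega), Pt_of_le h]
    congr 1
    omega
  · rw [Pt_of_lt (by omega), Pt_of_lt (by omega)]

lemma mul_Pt {m v : MvPolynomial (Fin 3) K} {j p : ℕ} (hm : m ∈ Hd K 1) (hv : v ∈ Pt K j (p + 1)) :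
    m * v ∈ Pt K j p := by
  have := lin_Pt hm hv
  rwa [Pt_succ_succ] at this

lemma muS_Pt {j p : ℕ} {s : MvPolynomial (Fin 3) K × MvPolynomial (Fin 3) K × MvPolynomial (Fin 3) K}
    (hs : s ∈ Tr (Pt K j (p + 1))) : muS s ∈ Pt K j p := by
  obtain ⟨h0, h1, h2⟩ := hs
  rw [muS_apply]
  exact Submodule.add_mem _ (Submodule.add_mem _ (mul_Pt (X_mem_Hd 0) h0) (mul_Pt (X_mem_Hd 1) h1))
    (mul_Pt (X_mem_Hd 2) h2)

lemma delS_Pt {j p : ℕ} {b : MvPolynomial (Fin 3) K × MvPolynomial (Fin 3) K × MvPolynomial (Fin 3) K}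
    (hb : b ∈ Tr (Pt K j (p + 1))) : delS b ∈ Tr (Pt K j p) := by
  obtain ⟨h0, h1, h2⟩ := hb
  rw [delS_apply]
  refine ⟨?_, ?_, ?_⟩
  · exact Submodule.sub_mem _ (Submodule.neg_mem _ (mul_Pt (X_mem_Hd 1) h0)) (mul_Pt (X_mem_Hd 2) h1)
  · exact Submodule.sub_mem _ (mul_Pt (X_mem_Hd 0) h0) (mul_Pt (X_mem_Hd 2) h2)
  · exact Submodule.add_mem _ (mul_Pt (X_mem_Hd 0) h1) (mul_Pt (X_mem_Hd 1) h2)

lemma muS_delS (b : MvPolynomial (Fin 3) K × MvPolynomial (Fin 3) K × MvPolynomial (Fin 3) K) :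
    muS (delS b) = 0 := by
  rw [delS_apply, muS_apply]
  simp only
  ring

lemma delS_c (s : MvPolynomial (Fin 3) K) : delS (X 2 * s, -(X 1 * s), X 0 * s) = 0 := by
  rw [delS_apply]
  simp only [Prod.mk_eq_zero]
  refine ⟨?_, ?_, ?_⟩ <;> ring

section Gen

variable {I : Ideal (MvPolynomial (Fin 3) K)}

lemma le_A (j : ℕ) : (trp I j 1).map (dKa I) ≤ pc I j 0 := by
  rw [trp_eq, pc_eq]
  rintro _ ⟨_, ⟨s, hs, rfl⟩, rfl⟩
  exact ⟨muS s, muS_Pt hs, (dKa_q3 s).symm⟩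

lemma le_B' (j : ℕ) : (trp I j 2).map (dKb I) ≤ trp I j 1 ⊓ LinearMap.ker (dKa I) := by
  rw [trp_eq, trp_eq]
  rintro _ ⟨_, ⟨s, hs, rfl⟩, rfl⟩
  refine ⟨⟨delS s, delS_Pt hs, (dKb_q3 s).symm⟩, ?_⟩
  rw [SetLike.mem_coe, LinearMap.mem_ker, dKb_q3, dKa_q3, muS_delS, map_zero]

lemma le_C (j : ℕ) : (pc I j 3).map (dKc I) ≤ trp I j 2 ⊓ LinearMap.ker (dKb I) := by
  rw [pc_eq, trp_eq]
  rintro _ ⟨_, ⟨s, hs, rfl⟩, rfl⟩
  refine ⟨⟨(X 2 * s, -(X 1 * s), X 0 * s), ⟨mul_Pt (X_mem_Hd 2) hs,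
    Submodule.neg_mem _ (mul_Pt (X_mem_Hd 1) hs), mul_Pt (X_mem_Hd 0) hs⟩, (dKc_q s).symm⟩, ?_⟩
  rw [SetLike.mem_coe, LinearMap.mem_ker, dKc_q, dKb_q3, delS_c, map_zero]

lemma finrank_trp (j p : ℕ) : finrank K (trp I j p) = 3 * finrank K (pc I j p) :=
  (finrank_Tr (pc I j p)).2

instance trp_fin (j p : ℕ) : Module.Finite K (trp I j p) := (finrank_Tr (pc I j p)).1

/-- The Euler characteristic of the Koszul complex in one degree. -/
theorem euler_kb (j : ℕ) :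
    kb I 0 j + kb I 2 j + 3 * finrank K (pc I j 1) + finrank K (pc I j 3)
      = kb I 1 j + kb I 3 j + finrank K (pc I j 0) + 3 * finrank K (pc I j 2) := by
  have h1 := finrank_map_add_inf_ker (dKa I) (trp I j 1)
  have h2 := finrank_map_add_inf_ker (dKb I) (trp I j 2)
  have h3 := finrank_map_add_inf_ker (dKc I) (pc I j 3)
  rw [finrank_trp] at h1 h2
  have hA := Submodule.finrank_mono (le_A (I := I) j)
  have hfK : Module.Finite K ↥(trp I j 1 ⊓ LinearMap.ker (dKa I)) :=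
    Submodule.finiteDimensional_of_le inf_le_left
  have hfK2 : Module.Finite K ↥(trp I j 2 ⊓ LinearMap.ker (dKb I)) :=
    Submodule.finiteDimensional_of_le inf_le_left
  have hB := Submodule.finrank_mono (le_B' (I := I) j)
  have hC := Submodule.finrank_mono (le_C (I := I) j)
  have e0 : kb I 0 j = finrank K (pc I j 0) - finrank K ((trp I j 1).map (dKa I)) := rfl
  have e1 : kb I 1 j = finrank K ↥(trp I j 1 ⊓ LinearMap.ker (dKa I))
      - finrank K ((trp I j 2).map (dKb I)) := rfl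
  have e2 : kb I 2 j = finrank K ↥(trp I j 2 ⊓ LinearMap.ker (dKb I))
      - finrank K ((pc I j 3).map (dKc I)) := rfl
  have e3 : kb I 3 j = finrank K ↥(pc I j 3 ⊓ LinearMap.ker (dKc I)) := rfl
  rw [e0, e1, e2, e3]
  omega

/-- The dimensions of the pieces of the complex depend only on the Hilbert function. -/
lemma finrank_pc_eq {I' : Ideal (MvPolynomial (Fin 3) K)}
    (h : ∀ d, finrank K (degPart I d) = finrank K (degPart I' d)) (j p : ℕ) :
    finrank K (pc I j p) = finrank K (pc I' j p) := by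
  by_cases hp : p ≤ j
  · rw [pc_eq, pc_eq, Pt_of_le hp]
    have h1 := finrank_map_qm (I := I) (le_refl (Hd K (j - p))) inf_le_right
    have h2 := finrank_map_qm (I := I') (le_refl (Hd K (j - p))) inf_le_right
    have h3 := h (j - p)
    omega
  · rw [pc_eq, pc_eq, Pt_of_lt (by omega), Submodule.map_bot, Submodule.map_bot, finrank_bot,
      finrank_bot]

/-- The Betti numbers in homological degree zero. -/
lemma kb0_zero (I : Ideal (MvPolynomial (Fin 3) K)) : kb I 0 0 = finrank K (pc I 0 0) := by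
  have e0 : kb I 0 0 = finrank K (pc I 0 0) - finrank K ((trp I 0 1).map (dKa I)) := rfl
  have h1 : trp I 0 1 = ⊥ := by
    rw [trp_eq, Pt_of_lt (by omega)]
    simp [Tr]
  rw [e0, h1, Submodule.map_bot, finrank_bot, Nat.sub_zero]

lemma kb0_succ (I : Ideal (MvPolynomial (Fin 3) K)) (n : ℕ) : kb I 0 (n + 1) = 0 := by
  have e0 : kb I 0 (n + 1) = finrank K (pc I (n + 1) 0)
      - finrank K ((trp I (n + 1) 1).map (dKa I)) := rfl
  have h1 : (trp I (n + 1) 1).map (dKa I) = pc I (n + 1) 0 := by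
    refine le_antisymm (le_A _) ?_
    rw [trp_eq, pc_eq, Pt_of_le (by omega), Pt_of_le (by omega)]
    rintro _ ⟨x, hx, rfl⟩
    obtain ⟨s, hs, rfl⟩ := muS_surj (n := n) (by simpa using hx)
    exact ⟨q3 I s, ⟨s, by simpa using hs, rfl⟩, dKa_q3 s⟩
  rw [e0, h1, Nat.sub_self]

/-- The socle formula. -/
theorem kb3_formula (I : Ideal (MvPolynomial (Fin 3) K)) (n : ℕ) :
    kb I 3 (n + 3) + finrank K (degPart I n) = finrank K (colon (degPart I (n + 1)) n) := by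
  have e3 : kb I 3 (n + 3) = finrank K ↥(pc I (n + 3) 3 ⊓ LinearMap.ker (dKc I)) := rfl
  have h1 : pc I (n + 3) 3 ⊓ LinearMap.ker (dKc I) = (colon (degPart I (n + 1)) n).map (qm I) := by
    rw [pc_eq, Pt_of_le (by omega), show n + 3 - 3 = n by omega]
    ext u
    constructor
    · rintro ⟨⟨s, hs, rfl⟩, h2⟩
      rw [SetLike.mem_coe, LinearMap.mem_ker, dKc_q, q3_apply] at h2
      simp only [Prod.mk_eq_zero, map_neg, neg_eq_zero, qm_eq_zero] at h2
      obtain ⟨h3, h4, h5⟩ := h2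
      refine ⟨s, ⟨hs, fun i => ?_⟩, rfl⟩
      refine mem_degPart.mpr ⟨?_, lin_Hd (X_mem_Hd i) hs⟩
      fin_cases i
      · exact h5
      · exact h4
      · exact h3
    · rintro ⟨s, ⟨hs, h2⟩, rfl⟩
      refine ⟨⟨s, hs, rfl⟩, ?_⟩
      rw [SetLike.mem_coe, LinearMap.mem_ker, dKc_q, q3_apply]
      simp only [Prod.mk_eq_zero, map_neg, neg_eq_zero, qm_eq_zero]
      exact ⟨(mem_degPart.mp (h2 2)).1, (mem_degPart.mp (h2 1)).1, (mem_degPart.mp (h2 0)).1⟩
  rw [e3, h1]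
  exact finrank_map_qm (colon_le _ _) (degPart_le_colon le_rfl)

lemma kb3_low (I : Ideal (MvPolynomial (Fin 3) K)) {j : ℕ} (hj : j < 3) : kb I 3 j = 0 := by
  have e3 : kb I 3 j = finrank K ↥(pc I j 3 ⊓ LinearMap.ker (dKc I)) := rfl
  rw [e3, pc_eq, Pt_of_lt hj, Submodule.map_bot, bot_inf_eq, finrank_bot]

lemma kb1_zero (I : Ideal (MvPolynomial (Fin 3) K)) : kb I 1 0 = 0 := by
  have e1 : kb I 1 0 = finrank K ↥(trp I 0 1 ⊓ LinearMap.ker (dKa I))
      - finrank K ((trp I 0 2).map (dKb I)) := rfl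
  have h1 : trp I 0 1 = ⊥ := by
    rw [trp_eq, Pt_of_lt (by omega)]
    simp [Tr]
  rw [e1, h1, bot_inf_eq, finrank_bot, Nat.zero_sub]

/-- The formula for the number of generators. -/
theorem kb1_formula (I : Ideal (MvPolynomial (Fin 3) K)) (n : ℕ) :
    kb I 1 (n + 1) + finrank K ↥(Hd K 1 * degPart I n) = finrank K (degPart I (n + 1)) := by
  have e1 : kb I 1 (n + 1) = finrank K ↥(trp I (n + 1) 1 ⊓ LinearMap.ker (dKa I))
      - finrank K ((trp I (n + 1) 2).map (dKb I)) := rfl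
  set E := Tr (Hd K n) with hE
  set I3 := Tr (degPart I n) with hI3
  set φ := qm I ∘ₗ muS with hφ
  set Z := E ⊓ LinearMap.ker φ with hZ
  set N := E ⊓ LinearMap.ker (muS (K := K)) with hN
  have hfE : Module.Finite K E := fin_Tr _
  have hfd : Module.Finite K (degPart I n) := fin_of_le inf_le_right
  have hfI : Module.Finite K I3 := fin_Tr _
  have hfZ : Module.Finite K Z := Submodule.finiteDimensional_of_le inf_le_left
  have hfN : Module.Finite K N := Submodule.finiteDimensional_of_le inf_le_left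
  have htrp1 : trp I (n + 1) 1 = E.map (q3 I) := by
    rw [trp_eq, Pt_of_le (by omega)]
    simp [hE]
  have hA : trp I (n + 1) 1 ⊓ LinearMap.ker (dKa I) = Z.map (q3 I) := by
    rw [htrp1]
    ext u
    constructor
    · rintro ⟨⟨s, hs, rfl⟩, h2⟩
      rw [SetLike.mem_coe, LinearMap.mem_ker, dKa_q3] at h2
      exact ⟨s, ⟨hs, h2⟩, rfl⟩
    · rintro ⟨s, ⟨hs, h2⟩, rfl⟩
      refine ⟨⟨s, hs, rfl⟩, ?_⟩
      rw [SetLike.mem_coe, LinearMap.mem_ker, dKa_q3]
      exact h2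
  have hIE : ∀ s, s ∈ E → (q3 I s = 0 ↔ s ∈ I3) := by
    rintro ⟨s₀, s₁, s₂⟩ ⟨h0, h1, h2⟩
    rw [q3_apply]
    simp only [Prod.mk_eq_zero, qm_eq_zero]
    constructor
    · rintro ⟨h3, h4, h5⟩
      exact ⟨mem_degPart.mpr ⟨h3, h0⟩, mem_degPart.mpr ⟨h4, h1⟩, mem_degPart.mpr ⟨h5, h2⟩⟩
    · rintro ⟨h3, h4, h5⟩
      exact ⟨(mem_degPart.mp h3).1, (mem_degPart.mp h4).1, (mem_degPart.mp h5).1⟩
  have hI3E : I3 ≤ E := by
    rintro s ⟨h0, h1, h2⟩
    exact ⟨(mem_degPart.mp h0).2, (mem_degPart.mp h1).2, (mem_degPart.mp h2).2⟩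
  have hB : Z ⊓ LinearMap.ker (q3 I) = I3 := by
    ext s
    constructor
    · rintro ⟨⟨h1, _⟩, h3⟩
      exact (hIE s h1).mp h3
    · intro h1
      have h2 : s ∈ E := hI3E h1
      have h3 : q3 I s = 0 := (hIE s h2).mpr h1
      refine ⟨⟨h2, ?_⟩, h3⟩
      rw [SetLike.mem_coe, LinearMap.mem_ker, hφ, LinearMap.comp_apply, ← dKa_q3, h3, map_zero]
  have h1 := finrank_map_add_inf_ker (q3 I) Z
  rw [hB] at h1
  have hC1 : Z.map (muS (K := K)) = degPart I (n + 1) := by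
    ext x
    constructor
    · rintro ⟨s, ⟨hs, h2⟩, rfl⟩
      refine mem_degPart.mpr ⟨?_, muS_mem hs⟩
      rw [SetLike.mem_coe, LinearMap.mem_ker] at h2
      exact qm_eq_zero.mp h2
    · intro hx
      obtain ⟨hx1, hx2⟩ := mem_degPart.mp hx
      obtain ⟨s, hs, rfl⟩ := muS_surj hx2
      exact ⟨s, ⟨hs, qm_eq_zero.mpr hx1⟩, rfl⟩
  have hC2 : Z ⊓ LinearMap.ker (muS (K := K)) = N := by
    ext s
    constructor
    · rintro ⟨⟨h1, _⟩, h3⟩
      exact ⟨h1, h3⟩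
    · rintro ⟨h1, h3⟩
      refine ⟨⟨h1, ?_⟩, h3⟩
      rw [SetLike.mem_coe, LinearMap.mem_ker] at h3
      rw [SetLike.mem_coe, LinearMap.mem_ker, hφ, LinearMap.comp_apply, h3, map_zero]
  have h2 := finrank_map_add_inf_ker (muS (K := K)) Z
  rw [hC1, hC2] at h2
  have hD : (trp I (n + 1) 2).map (dKb I) = N.map (q3 I) := by
    have h3 : (Pt K (n + 1) 2 : Submodule K (MvPolynomial (Fin 3) K)) = Pt K n 1 := Pt_succ_succ n 1
    rw [trp_eq, h3]
    ext u
    constructor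
    · rintro ⟨_, ⟨b, hb, rfl⟩, rfl⟩
      refine ⟨delS b, ⟨?_, ?_⟩, (dKb_q3 b).symm⟩
      · have h6 : b ∈ Tr (Pt K (n + 1) 2) := by
          rw [h3]
          exact hb
        have h5 := delS_Pt (j := n + 1) (p := 1) h6
        rw [Pt_of_le (by omega), show n + 1 - 1 = n by omega] at h5
        exact h5
      · rw [SetLike.mem_coe, LinearMap.mem_ker, muS_delS]
    · rintro ⟨s, ⟨hs, h4⟩, rfl⟩
      obtain ⟨b, hb, rfl⟩ := koszul_S hs h4
      exact ⟨q3 I b, ⟨b, hb, rfl⟩, dKb_q3 b⟩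
  have h3 := finrank_map_add_inf_ker (q3 I) N
  have hE' : N ⊓ LinearMap.ker (q3 I) = N ⊓ I3 := by
    ext s
    constructor
    · rintro ⟨h1, h4⟩
      exact ⟨h1, (hIE s h1.1).mp h4⟩
    · rintro ⟨h1, h4⟩
      exact ⟨h1, (hIE s h1.1).mpr h4⟩
  rw [hE'] at h3
  have hF1 : I3.map (muS (K := K)) = Hd K 1 * degPart I n := by
    apply le_antisymm
    · rintro _ ⟨s, ⟨h0, h1, h2⟩, rfl⟩
      rw [muS_apply]
      exact Submodule.add_mem _ (Submodule.add_mem _ (Submodule.mul_mem_mul (X_mem_Hd 0) h0)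
        (Submodule.mul_mem_mul (X_mem_Hd 1) h1)) (Submodule.mul_mem_mul (X_mem_Hd 2) h2)
    · refine Submodule.mul_le.mpr fun m hm x hx => ?_
      rw [mem_Hd] at hm
      have hm' : m ∈ Submodule.span K (Set.range (X : Fin 3 → MvPolynomial (Fin 3) K)) := by
        rw [← homogeneousSubmodule_one_eq_span_X]
        exact hm
      clear hm
      induction hm' using Submodule.span_induction with
      | mem y hy =>
        obtain ⟨i, rfl⟩ := hy
        fin_cases i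
        · exact ⟨(x, 0, 0), ⟨hx, Submodule.zero_mem _, Submodule.zero_mem _⟩, by simp [muS_apply]⟩
        · exact ⟨(0, x, 0), ⟨Submodule.zero_mem _, hx, Submodule.zero_mem _⟩, by simp [muS_apply]⟩
        · exact ⟨(0, 0, x), ⟨Submodule.zero_mem _, Submodule.zero_mem _, hx⟩, by simp [muS_apply]⟩
      | zero => simp
      | add a b _ _ iha ihb =>
        rw [add_mul]
        exact Submodule.add_mem _ iha ihb
      | smul r a _ iha =>
        rw [smul_mul_assoc]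
        exact Submodule.smul_mem _ r iha
  have hF2 : I3 ⊓ LinearMap.ker (muS (K := K)) = N ⊓ I3 := by
    ext s
    constructor
    · rintro ⟨h1, h4⟩
      exact ⟨⟨hI3E h1, h4⟩, h1⟩
    · rintro ⟨⟨_, h4⟩, h1⟩
      exact ⟨h1, h4⟩
  have h4 := finrank_map_add_inf_ker (muS (K := K)) I3
  rw [hF1, hF2] at h4
  have hle : Hd K 1 * degPart I n ≤ degPart I (n + 1) :=
    Submodule.mul_le.mpr fun m hm x hx => lin_mul_degPart hm hx
  have h5 := finrank_mono_Hd hle (inf_le_right : degPart I (n + 1) ≤ Hd K (n + 1))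
  rw [e1, hA, hD]
  omega

end Gen

end Vale.Agent.Lib.P200.All
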