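import Vale.Agent.Lib.P200.All.BettiB

namespace Vale.Agent.Lib.P200.All

open MvPolynomial Module Fam Gen

variable {K : Type*} [Field K]

section Powers

variable {f g h : MvPolynomial (Fin 3) K}

lemma mem_pair_of {x y u : MvPolynomial (Fin 3) K} :
    u ∈ Ideal.span {x, y} ↔ ∃ α β, α * x + β * y = u := Ideal.mem_span_pair

lemma reg_sq3 (hr : RegSeq f g h) : RegSeq f g (h ^ 2) := by
  refine ⟨hr.h0, hr.h1, fun u hu => ?_⟩
  refine hr.h2 u (hr.h2 _ ?_)
  rw [show h * (h * u) = h ^ 2 * u by ring]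
  exact hu

lemma reg_sq2 (hr : RegSeq f g h) : RegSeq f (g ^ 2) h := by
  refine ⟨hr.h0, fun u hu => ?_, fun u hu => ?_⟩
  · refine hr.h1 u (hr.h1 _ ?_)
    rw [show g * (g * u) = g ^ 2 * u by ring]
    exact hu
  · obtain ⟨α, β, hab⟩ := mem_pair_of.mp hu
    have h1 : h * u ∈ Ideal.span {f, g} := mem_pair_of.mpr ⟨α, β * g, by rw [← hab]; ring⟩
    obtain ⟨α₁, β₁, h2⟩ := mem_pair_of.mp (hr.h2 u h1)
    have h3 : g * (h * β₁ - β * g) ∈ Ideal.span {f} := by
      refine Ideal.mem_span_singleton'.mpr ⟨α - h * α₁, ?_⟩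
      rw [← h2] at hab
      linear_combination hab
    obtain ⟨y, hy⟩ := Ideal.mem_span_singleton'.mp (hr.h1 _ h3)
    have h4 : h * β₁ ∈ Ideal.span {f, g} := mem_pair_of.mpr ⟨y, β, by rw [hy]; ring⟩
    obtain ⟨α₂, β₂, h5⟩ := mem_pair_of.mp (hr.h2 β₁ h4)
    refine mem_pair_of.mpr ⟨α₁ + α₂ * g, β₂, ?_⟩
    rw [← h2, ← h5]
    ring

lemma reg_sq1 (hr : RegSeq f g h) : RegSeq (f ^ 2) g h := by
  have hf := hr.h0
  refine ⟨pow_ne_zero _ hf, fun u hu => ?_, fun u hu => ?_⟩
  · obtain ⟨w, hw⟩ := Ideal.mem_span_singleton'.mp hu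
    have h1 : g * u ∈ Ideal.span {f} := Ideal.mem_span_singleton'.mpr ⟨w * f, by rw [← hw]; ring⟩
    obtain ⟨v, hv⟩ := Ideal.mem_span_singleton'.mp (hr.h1 u h1)
    have h2 : g * v = w * f := by
      apply mul_left_cancel₀ hf
      rw [← hv] at hw
      linear_combination -hw
    have h3 : g * v ∈ Ideal.span {f} := Ideal.mem_span_singleton'.mpr ⟨w, h2.symm⟩
    obtain ⟨v', hv'⟩ := Ideal.mem_span_singleton'.mp (hr.h1 v h3)
    refine Ideal.mem_span_singleton'.mpr ⟨v', ?_⟩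
    rw [← hv, ← hv']
    ring
  · obtain ⟨α, β, hab⟩ := mem_pair_of.mp hu
    have h1 : h * u ∈ Ideal.span {f, g} := mem_pair_of.mpr ⟨α * f, β, by rw [← hab]; ring⟩
    obtain ⟨α₁, β₁, h2⟩ := mem_pair_of.mp (hr.h2 u h1)
    have h3 : g * (β - h * β₁) ∈ Ideal.span {f} := by
      refine Ideal.mem_span_singleton'.mpr ⟨h * α₁ - α * f, ?_⟩
      rw [← h2] at hab
      linear_combination -hab
    obtain ⟨y, hy⟩ := Ideal.mem_span_singleton'.mp (hr.h1 _ h3)
    have h4 : h * α₁ ∈ Ideal.span {f, g} := by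
      refine mem_pair_of.mpr ⟨α, y, ?_⟩
      apply mul_left_cancel₀ hf
      rw [← h2] at hab
      have : g * (y * f) = g * (β - h * β₁) := by rw [hy]
      linear_combination hab + this
    obtain ⟨α₂, β₂, h5⟩ := mem_pair_of.mp (hr.h2 α₁ h4)
    refine mem_pair_of.mpr ⟨α₂, β₂ * f + β₁, ?_⟩
    rw [← h2, ← h5]
    ring

/-- Raising the degrees of the forms of degree above `n`. -/
lemma exists_raised {a b c : ℕ} (hf : f ∈ Hd K a) (hg : g ∈ Hd K b) (hh : h ∈ Hd K c)
    (hreg : RegSeq f g h) (ha : 2 ≤ a) (hab : a ≤ b) (hbc : b ≤ c) (n : ℕ) :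
    ∃ (a' b' c' : ℕ) (f' g' h' : MvPolynomial (Fin 3) K), f' ∈ Hd K a' ∧ g' ∈ Hd K b' ∧ h' ∈ Hd K c' ∧
      RegSeq f' g' h' ∧ 2 ≤ a' ∧ a' ≤ b' ∧ b' ≤ c' ∧
      ((a ≤ n ∧ a' = a ∧ f' = f) ∨ (n < a ∧ n + 1 < a')) ∧
      ((b ≤ n ∧ b' = b ∧ g' = g) ∨ (n < b ∧ n + 1 < b')) ∧
      ((c ≤ n ∧ c' = c ∧ h' = h) ∨ (n < c ∧ n + 1 < c')) := by
  have hsq : ∀ {x : MvPolynomial (Fin 3) K} {m : ℕ}, x ∈ Hd K m → x ^ 2 ∈ Hd K (2 * m) := by
    intro x m hx
    have := IsHomogeneous.pow hx 2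
    rwa [mul_comm] at this
  by_cases h3 : c ≤ n
  · exact ⟨a, b, c, f, g, h, hf, hg, hh, hreg, ha, hab, hbc, Or.inl ⟨by omega, rfl, rfl⟩,
      Or.inl ⟨by omega, rfl, rfl⟩, Or.inl ⟨h3, rfl, rfl⟩⟩
  by_cases h2 : b ≤ n
  · exact ⟨a, b, 2 * c, f, g, h ^ 2, hf, hg, hsq hh, reg_sq3 hreg, ha, hab, by omega,
      Or.inl ⟨by omega, rfl, rfl⟩, Or.inl ⟨h2, rfl, rfl⟩, Or.inr ⟨by omega, by omega⟩⟩
  by_cases h1 : a ≤ n
  · exact ⟨a, 2 * b, 2 * c, f, g ^ 2, h ^ 2, hf, hsq hg, hsq hh, reg_sq3 (reg_sq2 hreg), ha,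
      by omega, by omega, Or.inl ⟨h1, rfl, rfl⟩, Or.inr ⟨by omega, by omega⟩,
      Or.inr ⟨by omega, by omega⟩⟩
  · exact ⟨2 * a, 2 * b, 2 * c, f ^ 2, g ^ 2, h ^ 2, hsq hf, hsq hg, hsq hh,
      reg_sq3 (reg_sq2 (reg_sq1 hreg)), by omega, by omega, by omega,
      Or.inr ⟨by omega, by omega⟩, Or.inr ⟨by omega, by omega⟩, Or.inr ⟨by omega, by omega⟩⟩

end Powers

section JSide

/-- The span of `P_d` and of the `q` lexicographically greatest monomials outside `P`. -/
noncomputable def JQ (K : Type*) [Field K] (e : T3) (d q : ℕ) :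
    Submodule K (MvPolynomial (Fin 3) K) :=
  PdE K e d ⊔ Submodule.span K (mon K '' {t : T3 | t ∈ outE e d ∧ rankE e d t < q})

lemma JE_eq_JQ (e : T3) (I : Ideal (MvPolynomial (Fin 3) K)) (d : ℕ) :
    JE e I d = JQ K e d (qE e I d) := rfl

lemma JQ_eq (e : T3) (d q : ℕ) :
    JQ K e d q = Submodule.span K (mon K '' ((Fam.inP e d ∪ Fam.topSet e d q : Finset _) : Set T3)) := by
  rw [Finset.coe_union, Set.image_union, Submodule.span_union, ← Fam.Pd_eq]
  have hset : {t : T3 | t ∈ outE e d ∧ rankE e d t < q} = ((Fam.topSet e d q : Finset _) : Set T3) := by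
    ext t
    simp only [Fam.topSet, Finset.coe_filter, Set.mem_ofPred_eq]
  rw [JQ, hset]

lemma finrank_JQ (e : T3) (d q : ℕ) :
    finrank K (JQ K e d q) = (Fam.inP e d).card + min q (outE e d).card := by
  rw [JQ_eq, finrank_span_mon, Finset.card_union_of_disjoint (Fam.disjoint_parts _ _ _), Fam.card_topSet]

lemma JE_le (e : T3) (I : Ideal (MvPolynomial (Fin 3) K)) (d : ℕ) : JE e I d ≤ Hd K d := by
  rw [Fam.Jd_eq, Submodule.span_le]
  rintro _ ⟨t, ht, rfl⟩
  rw [Finset.coe_union, Set.mem_union] at ht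
  rcases ht with ht | ht
  · exact mon_mem_Hd (Fam.mem_inP.mp ht).1
  · exact mon_mem_Hd (mem_out.mp (Fam.mem_topSet.mp ht).1).2

lemma comp_of_mem (e : T3) (I : Ideal (MvPolynomial (Fin 3) K)) {x : MvPolynomial (Fin 3) K}
    (hx : x ∈ ⨆ d, JE e I d) (d : ℕ) : homogeneousComponent d x ∈ JE e I d := by
  induction hx using Submodule.iSup_induction' with
  | mem d' y hy =>
    rw [homogeneousComponent_of_mem (JE_le e I d' hy)]
    split_ifs with h
    · subst h
      exact hy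
    · exact Submodule.zero_mem _
  | zero =>
    rw [map_zero]
    exact Submodule.zero_mem _
  | add y z _ _ h1 h2 =>
    rw [map_add]
    exact Submodule.add_mem _ h1 h2

lemma degPart_J (e : T3) {I 𝔍 : Ideal (MvPolynomial (Fin 3) K)}
    (h : ∀ g, g ∈ 𝔍 ↔ g ∈ ⨆ d, JE e I d) (d : ℕ) : degPart 𝔍 d = JE e I d := by
  ext x
  rw [mem_degPart]
  constructor
  · rintro ⟨h1, h2⟩
    have := comp_of_mem e I ((h x).mp h1) d
    rwa [homogeneousComponent_eq_self h2] at this
  · intro hx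
    exact ⟨(h x).mpr (Submodule.mem_iSup_of_mem d hx), JE_le e I d hx⟩

/-- Multiplication by a variable and the spaces `JQ`. -/
lemma X_mul_JQ (e : T3) (I : Ideal (MvPolynomial (Fin 3) K)) (i : Fin 3) (d q : ℕ)
    (hstep : GS e d q ≤ qE e I (d + 1)) : ∀ g ∈ JQ K e d q, X i * g ∈ JE e I (d + 1) := by
  have h : JQ K e d q ≤ (JE e I (d + 1)).comap (LinearMap.mulLeft K (X i)) := by
    refine sup_le ?_ ?_
    · intro g hg
      exact Submodule.mem_sup_left (Fam.X_mul_Pd e i d g hg)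
    · rw [Submodule.span_le]
      rintro _ ⟨t, ⟨h1, h2⟩, rfl⟩
      show X i * mon K t ∈ JE e I (d + 1)
      rw [X_mul_mon]
      obtain ⟨e1, e2, e3⟩ := bump_ge i t
      have hs := bump_sum i t
      obtain ⟨⟨t1, t2, t3⟩, t4⟩ := mem_out.mp h1
      by_cases hc : e.1 ≤ (bump i t).1 ∨ e.2.1 ≤ (bump i t).2.1 ∨ e.2.2 ≤ (bump i t).2.2
      · exact Submodule.mem_sup_left (Submodule.subset_span ⟨bump i t, ⟨by omega, hc⟩, rfl⟩)
      · have hout : bump i t ∈ outE e (d + 1) := mem_out.mpr ⟨by omega, by omega⟩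
        have h3 := rank_lt_GS (SH_of_bump h2 hout)
        exact Submodule.mem_sup_right (Submodule.subset_span ⟨bump i t, ⟨hout, by omega⟩, rfl⟩)
  exact fun g hg => h hg

/-- The growth of `JQ`, measured against a type which agrees in degree `d`. -/
lemma mul_JQ_le (e e' : T3) (d q : ℕ) (ho : outE e' d = outE e d)
    (hi : Fam.inP e' d = Fam.inP e d) :
    finrank K ↥(Hd K 1 * JQ K e d q) ≤ (Fam.inP e' (d + 1)).card + GS e' d q := by
  have hle : Hd K 1 * JQ K e d q
      ≤ Submodule.span K (mon K '' ((Fam.inP e' (d + 1) ∪ SH e' d q : Finset _) : Set T3)) := by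
    refine Submodule.mul_le.mpr fun m hm x hx => ?_
    have hX : ∀ i : Fin 3, ∀ x ∈ JQ K e d q, X i * x ∈
        Submodule.span K (mon K '' ((Fam.inP e' (d + 1) ∪ SH e' d q : Finset _) : Set T3)) := by
      intro i
      have h : JQ K e d q ≤ (Submodule.span K (mon K '' ((Fam.inP e' (d + 1) ∪ SH e' d q : Finset _) : Set T3))).comap
          (LinearMap.mulLeft K (X i)) := by
        rw [JQ_eq, Submodule.span_le]
        rintro _ ⟨t, ht, rfl⟩
        show X i * mon K t ∈ Submodule.span K (mon K '' ((Fam.inP e' (d + 1) ∪ SH e' d q : Finset _) : Set T3))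
        rw [X_mul_mon]
        refine Submodule.subset_span ⟨bump i t, ?_, rfl⟩
        rw [Finset.coe_union, Set.mem_union, Finset.mem_coe, Finset.mem_coe]
        have hsum : t.1 + t.2.1 + t.2.2 = d := by
          rw [Finset.coe_union, Set.mem_union] at ht
          rcases ht with ht | ht
          · exact (Fam.mem_inP.mp ht).1
          · exact (mem_out.mp (Fam.mem_topSet.mp ht).1).2
        obtain ⟨e1, e2, e3⟩ := bump_ge i t
        have hs := bump_sum i t
        by_cases hc : e'.1 ≤ (bump i t).1 ∨ e'.2.1 ≤ (bump i t).2.1 ∨ e'.2.2 ≤ (bump i t).2.2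
        · exact Or.inl (Fam.mem_inP.mpr ⟨by omega, hc⟩)
        · right
          have hout : bump i t ∈ outE e' (d + 1) := mem_out.mpr ⟨by omega, by omega⟩
          have htout : t ∈ outE e' d := by
            refine mem_out.mpr ⟨?_, hsum⟩
            have h1 : (bump i t).1 < e'.1 := by omega
            have h2 : (bump i t).2.1 < e'.2.1 := by omega
            have h3 : (bump i t).2.2 < e'.2.2 := by omega
            omega
          have htout2 : t ∈ outE e d := by rwa [← ho]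
          have hrank : rankE e' d t = rankE e d t := by
            rw [rankE, rankE, ho]
          rw [Finset.coe_union, Set.mem_union] at ht
          rcases ht with ht | ht
          · exfalso
            have h4 : t ∈ Fam.inP e' d := by rwa [hi]
            obtain ⟨_, h5⟩ := Fam.mem_inP.mp h4
            obtain ⟨⟨h6, h7, h8⟩, _⟩ := mem_out.mp htout
            omega
          · obtain ⟨_, h5⟩ := Fam.mem_topSet.mp ht
            exact SH_of_bump (by omega) hout
      exact fun x hx => h hx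
    rw [mem_Hd] at hm
    have hm' : m ∈ Submodule.span K (Set.range (X : Fin 3 → MvPolynomial (Fin 3) K)) := by
      rw [← homogeneousSubmodule_one_eq_span_X]
      exact hm
    clear hm
    induction hm' using Submodule.span_induction with
    | mem y hy =>
      obtain ⟨i, rfl⟩ := hy
      exact hX i x hx
    | zero => simp
    | add a b _ _ iha ihb =>
      rw [add_mul]
      exact Submodule.add_mem _ iha ihb
    | smul r a _ iha =>
      rw [smul_mul_assoc]
      exact Submodule.smul_mem _ r iha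
  haveI : Module.Finite K ↥(Submodule.span K (mon K '' ((Fam.inP e' (d + 1) ∪ SH e' d q : Finset _) : Set T3))) :=
    Module.Finite.span_of_finite K (Set.Finite.image _ (Finset.finite_toSet _))
  have h1 := Submodule.finrank_mono hle
  rw [finrank_span_mon] at h1
  have h2 := Finset.card_union_le (Fam.inP e' (d + 1)) (SH e' d q)
  exact h1.trans h2

end JSide

end Vale.Agent.Lib.P200.All
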