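import Vale.Agent.Lib.P200.All.BettiC

namespace Vale.Agent.Lib.P200.All

open MvPolynomial Module Fam Gen

variable {K : Type*} [Field K]

section Lpp

variable {f g h : MvPolynomial (Fin 3) K} {a b c : ℕ}

lemma hdim_F (hr : RegSeq f g h) (hf : f ∈ Hd K a) (hg : g ∈ Hd K b) (hh : h ∈ Hd K c)
    (ha : 1 ≤ a) (hb : 1 ≤ b) (d : ℕ) :
    finrank K (degPart (Ideal.span {f, g, h}) d) = (Fam.inP (a, b, c) d).card := by
  have h3 := (finrank_all hr hf hg hh ha hb d).2.2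
  have h4 := Fam.card_inP (a, b, c) d
  rw [outsideP_eq] at h4
  omega

lemma span3_le {I : Ideal (MvPolynomial (Fin 3) K)} (h1 : f ∈ I) (h2 : g ∈ I) (h3 : h ∈ I) :
    Ideal.span {f, g, h} ≤ I := by
  rw [Ideal.span_le]
  rintro x (rfl | rfl | rfl)
  · exact h1
  · exact h2
  · exact h3

/-- The two types have the same parts in degree `n` when the entries agree or exceed `n`. -/
lemma out_eq_of {a b c a' b' c' n : ℕ} (h1 : a' = a ∨ (n < a ∧ n < a'))
    (h2 : b' = b ∨ (n < b ∧ n < b')) (h3 : c' = c ∨ (n < c ∧ n < c')) :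
    outE (a', b', c') n = outE (a, b, c) n := by
  ext t
  rw [mem_out, mem_out]
  obtain ⟨t1, t2, t3⟩ := t
  simp only
  constructor <;> rintro ⟨⟨h4, h5, h6⟩, h7⟩ <;> refine ⟨⟨?_, ?_, ?_⟩, h7⟩ <;> omega

lemma inP_eq_of {a b c a' b' c' n : ℕ} (h1 : a' = a ∨ (n < a ∧ n < a'))
    (h2 : b' = b ∨ (n < b ∧ n < b')) (h3 : c' = c ∨ (n < c ∧ n < c')) :
    Fam.inP (a', b', c') n = Fam.inP (a, b, c) n := by
  ext t
  rw [Fam.mem_inP, Fam.mem_inP]
  obtain ⟨t1, t2, t3⟩ := t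
  simp only
  constructor <;> rintro ⟨h7, h4⟩ <;> refine ⟨h7, ?_⟩ <;> omega

/-- A term `u * x` with `u` of degree `n + 1 - e` and `x` a form of degree `e ≤ n` in the ideal. -/
lemma term_mem_mul {I : Ideal (MvPolynomial (Fin 3) K)} {x u : MvPolynomial (Fin 3) K} {e n : ℕ}
    (hx : x ∈ Hd K e) (hxI : x ∈ I) (he : e ≤ n) (hu : u ∈ Hd K (n + 1 - e)) :
    u * x ∈ Hd K 1 * degPart I n := by
  obtain ⟨r, hr⟩ : ∃ r, n = r + e := ⟨n - e, by omega⟩
  subst hr
  have hu' : u ∈ Hd K 1 * Hd K r := by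
    rw [Hd_one_mul]
    convert hu using 2
    omega
  clear hu
  induction hu' using Submodule.mul_induction_on' with
  | mem_mul_mem m hm y hy =>
    rw [mul_assoc]
    exact Submodule.mul_mem_mul hm (mem_degPart.mpr ⟨I.mul_mem_left y hxI, Hd_mul_mem hy hx⟩)
  | add y _ z _ hy hz =>
    rw [add_mul]
    exact Submodule.add_mem _ hy hz

/-- The first inequality: growth of the lex-plus-powers space is at most that of `I`. -/
theorem raise_ineq (hf : f ∈ Hd K a) (hg : g ∈ Hd K b) (hh : h ∈ Hd K c)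
    (hreg : RegSeq f g h) (ha : 2 ≤ a) (hab : a ≤ b) (hbc : b ≤ c)
    {I : Ideal (MvPolynomial (Fin 3) K)} (hfI : f ∈ I) (hgI : g ∈ I) (hhI : h ∈ I) (n : ℕ) :
    finrank K ↥(Hd K 1 * JE (a, b, c) I n) ≤ finrank K ↥(Hd K 1 * degPart I n) := by
  obtain ⟨a', b', c', f', g', h', hf', hg', hh', hreg', ha', hab', hbc', C1, C2, C3⟩ :=
    exists_raised hf hg hh hreg ha hab hbc n
  have e1 : a' = a ∨ (n < a ∧ n < a') := by
    rcases C1 with ⟨_, h, _⟩ | ⟨h1, h2⟩
    · exact Or.inl h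
    · exact Or.inr ⟨h1, by omega⟩
  have e2 : b' = b ∨ (n < b ∧ n < b') := by
    rcases C2 with ⟨_, h, _⟩ | ⟨h1, h2⟩
    · exact Or.inl h
    · exact Or.inr ⟨h1, by omega⟩
  have e3 : c' = c ∨ (n < c ∧ n < c') := by
    rcases C3 with ⟨_, h, _⟩ | ⟨h1, h2⟩
    · exact Or.inl h
    · exact Or.inr ⟨h1, by omega⟩
  have ho := out_eq_of e1 e2 e3
  have hi := inP_eq_of e1 e2 e3
  -- the terms
  have ht0 : ∀ {x : MvPolynomial (Fin 3) K} {e e' x'} {α : MvPolynomial (Fin 3) K},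
      x ∈ I → ((e ≤ n ∧ e' = e ∧ x' = x) ∨ (n < e ∧ n + 1 < e')) →
      cp n e' α * x' ∈ I := by
    intro x e e' x' α hx C
    rcases C with ⟨_, _, rfl⟩ | ⟨_, h2⟩
    · exact I.mul_mem_left _ hx
    · rw [cp, if_neg (by omega), zero_mul]
      exact I.zero_mem
  have ht1 : ∀ {x : MvPolynomial (Fin 3) K} {e e' x'} {α : MvPolynomial (Fin 3) K},
      x ∈ I → x ∈ Hd K e → ((e ≤ n ∧ e' = e ∧ x' = x) ∨ (n < e ∧ n + 1 < e')) →
      cp (n + 1) e' α * x' ∈ Hd K 1 * degPart I n := by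
    intro x e e' x' α hx hxd C
    rcases C with ⟨h0, rfl, rfl⟩ | ⟨_, h2⟩
    · rw [cp, if_pos (by omega)]
      exact term_mem_mul hxd hx h0 (homogeneousComponent_mem _ _)
    · rw [cp, if_neg (by omega), zero_mul]
      exact Submodule.zero_mem _
  have hFV : degPart (Ideal.span {f', g', h'}) n ≤ degPart I n := by
    intro x hx
    obtain ⟨h1, h2⟩ := mem_degPart.mp hx
    obtain ⟨α, β, γ, h3⟩ := mem_span3.mp h1
    have h4 := decomp3 hf' hg' hh' h2 h3
    refine mem_degPart.mpr ⟨?_, h2⟩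
    rw [← h4]
    exact I.add_mem (I.add_mem (ht0 hfI C1) (ht0 hgI C2)) (ht0 hhI C3)
  have hFS : degPart (Ideal.span {f', g', h'}) (n + 1) ≤ Hd K 1 * degPart I n := by
    intro x hx
    obtain ⟨h1, h2⟩ := mem_degPart.mp hx
    obtain ⟨α, β, γ, h3⟩ := mem_span3.mp h1
    have h4 := decomp3 hf' hg' hh' h2 h3
    rw [← h4]
    exact Submodule.add_mem _ (Submodule.add_mem _ (ht1 hfI hf C1) (ht1 hgI hg C2)) (ht1 hhI hh C3)
  have h3 := growth_all hf' hg' hh' hreg' ha' hab' hbc' n (degPart I n) inf_le_right hFV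
  rw [sup_eq_left.mpr hFS, hdim_F hreg' hf' hg' hh' (by omega) (by omega),
    hdim_F hreg' hf' hg' hh' (by omega) (by omega), hi] at h3
  have h4 := mul_JQ_le (K := K) (a, b, c) (a', b', c') n (qE (a, b, c) I n) ho hi
  rw [JE_eq_JQ]
  refine h4.trans ?_
  rw [qE, Fam.finrank_Pd]
  exact h3

/-- The second inequality: the socle of the lex-plus-powers ideal is at least that of `I`. -/
theorem socle_ineq (hf : f ∈ Hd K a) (hg : g ∈ Hd K b) (hh : h ∈ Hd K c)
    (hreg : RegSeq f g h) (ha : 2 ≤ a) (hab : a ≤ b) (hbc : b ≤ c)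
    {I : Ideal (MvPolynomial (Fin 3) K)} (hfI : f ∈ I) (hgI : g ∈ I) (hhI : h ∈ I) (n : ℕ) :
    finrank K (colon (degPart I (n + 1)) n) ≤ finrank K (colon (JE (a, b, c) I (n + 1)) n) := by
  set T := colon (degPart I (n + 1)) n with hT
  have hTle : T ≤ Hd K n := colon_le _ _
  have hspan := span3_le hfI hgI hhI
  have hFI : degPart (Ideal.span {f, g, h}) n ≤ degPart I n :=
    fun x hx => mem_degPart.mpr ⟨hspan (mem_degPart.mp hx).1, (mem_degPart.mp hx).2⟩
  have hFV : degPart (Ideal.span {f, g, h}) n ≤ T := hFI.trans (degPart_le_colon le_rfl)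
  have h3 := growth_all hf hg hh hreg ha hab hbc n T hTle hFV
  have hdF := hdim_F hreg hf hg hh (a := a) (b := b) (c := c) (by omega) (by omega)
  rw [hdF, hdF] at h3
  have h4 : Hd K 1 * T ⊔ degPart (Ideal.span {f, g, h}) (n + 1) ≤ degPart I (n + 1) := by
    refine sup_le ?_ (inf_le_inf_right _ hspan)
    refine Submodule.mul_le.mpr fun m hm v hv => ?_
    exact lin_mul_mem hv.2 hm
  have h5 := finrank_mono_Hd h4 (inf_le_right : degPart I (n + 1) ≤ Hd K (n + 1))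
  have hstep : GS (a, b, c) n (finrank K T - (Fam.inP (a, b, c) n).card)
      ≤ qE (a, b, c) I (n + 1) := by
    rw [qE, Fam.finrank_Pd]
    omega
  have h6 : JQ K (a, b, c) n (finrank K T - (Fam.inP (a, b, c) n).card)
      ≤ colon (JE (a, b, c) I (n + 1)) n := by
    intro x hx
    refine ⟨?_, fun i => X_mul_JQ _ I i n _ hstep x hx⟩
    rw [JQ_eq] at hx
    refine (Submodule.span_le.mpr ?_ : _ ≤ Hd K n) hx
    rintro _ ⟨t, ht, rfl⟩
    rw [Finset.coe_union, Set.mem_union] at ht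
    rcases ht with ht | ht
    · exact mon_mem_Hd (Fam.mem_inP.mp ht).1
    · exact mon_mem_Hd (mem_out.mp (Fam.mem_topSet.mp ht).1).2
  have h7 := finrank_mono_Hd h6 (colon_le _ _)
  rw [finrank_JQ] at h7
  have h8 := Fam.card_inP (a, b, c) n
  have h9 : finrank K T ≤ (n + 2).choose 2 := by
    rw [← finrank_Hd (K := K) n]
    exact finrank_mono_Hd hTle le_rfl
  have h10 : (Fam.inP (a, b, c) n).card ≤ finrank K T := by
    rw [← hdF]
    exact finrank_mono_Hd hFV hTle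
  omega

/-- The lex-plus-powers statement for three forms in three variables. -/
theorem lpp_all (a b c : ℕ) (ha : 2 ≤ a) (hab : a ≤ b) (hbc : b ≤ c)
    (f : Fin 3 → MvPolynomial (Fin 3) K)
    (hf : ∀ i, (f i).IsHomogeneous (![a, b, c] i))
    (hreg : ∀ (i : Fin 3) (u : MvPolynomial (Fin 3) K),
      f i * u ∈ Ideal.span (f '' {j | j < i}) → u ∈ Ideal.span (f '' {j | j < i}))
    (I : Ideal (MvPolynomial (Fin 3) K)) (hI : ∀ i, f i ∈ I) :
    ∃ 𝔍 : Ideal (MvPolynomial (Fin 3) K), (∀ g, g ∈ 𝔍 ↔ g ∈ ⨆ d, JE (a, b, c) I d) ∧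
      (∀ d, finrank K (JE (a, b, c) I d) = finrank K (degPart I d)) ∧
      ∀ p j, kb I p j ≤ kb 𝔍 p j := by
  obtain ⟨⟨𝔍, h𝔍⟩, hdimJ⟩ := egh_all a b c ha hab hbc f hf hreg I hI
  have hr := regSeq_of f hreg
  have h0 : f 0 ∈ Hd K a := hf 0
  have h1 : f 1 ∈ Hd K b := hf 1
  have h2 : f 2 ∈ Hd K c := hf 2
  have hdeg := degPart_J (a, b, c) h𝔍
  have hhil : ∀ d, finrank K (degPart I d) = finrank K (degPart 𝔍 d) := by
    intro d
    rw [hdeg, hdimJ]
  have hpc := finrank_pc_eq hhil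
  refine ⟨𝔍, h𝔍, hdimJ, ?_⟩
  have hb0 : ∀ j, kb I 0 j = kb 𝔍 0 j := by
    intro j
    cases j with
    | zero => rw [kb0_zero, kb0_zero, hpc]
    | succ n => rw [kb0_succ, kb0_succ]
  have hb1 : ∀ j, kb I 1 j ≤ kb 𝔍 1 j := by
    intro j
    cases j with
    | zero => rw [kb1_zero, kb1_zero]
    | succ n =>
      have h3 := kb1_formula I n
      have h4 := kb1_formula 𝔍 n
      have h5 := raise_ineq h0 h1 h2 hr ha hab hbc (hI 0) (hI 1) (hI 2) n
      rw [← hdeg] at h5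
      have h6 := hhil (n + 1)
      omega
  have hb3 : ∀ j, kb I 3 j ≤ kb 𝔍 3 j := by
    intro j
    by_cases hj : j < 3
    · rw [kb3_low _ hj, kb3_low _ hj]
    · obtain ⟨n, rfl⟩ : ∃ n, j = n + 3 := ⟨j - 3, by omega⟩
      have h3 := kb3_formula I n
      have h4 := kb3_formula 𝔍 n
      have h5 := socle_ineq h0 h1 h2 hr ha hab hbc (hI 0) (hI 1) (hI 2) n
      rw [← hdeg] at h5
      have h6 := hhil n
      omega
  intro p j
  match p with
  | 0 => exact (hb0 j).le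
  | 1 => exact hb1 j
  | 3 => exact hb3 j
  | 2 =>
    have h3 := euler_kb (I := I) j
    have h4 := euler_kb (I := 𝔍) j
    have h5 := hpc j 1
    have h6 := hpc j 3
    have h7 := hpc j 0
    have h8 := hpc j 2
    have h9 := hb0 j
    have h10 := hb1 j
    have h11 := hb3 j
    -- a priori the alternating sums agree, the difference of the second Betti numbers is that of the
    -- first and third
    omega
  | n + 4 =>
    have h3 : ∀ J : Ideal (MvPolynomial (Fin 3) K), kb J (n + 4) j = 0 := fun J => by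
      simp [kb]
    rw [h3, h3]

end Lpp

end Vale.Agent.Lib.P200.All
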