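import Vale.Agent.Lib.P200.All.Val

namespace Vale.Agent.Lib.P200.All

open MvPolynomial Module Fam Gen

variable {K : Type*} [Field K] {f g h : MvPolynomial (Fin 3) K} {a b c : ℕ}

namespace CI

section Pairing

variable (cI : CI f g h a b c) {l : MvPolynomial (Fin 3) K →ₗ[K] K} {s : ℕ}
  (hs : a + b + c = s + 3)
  (hl : ∀ g' ∈ Hd K s, l g' = 0 ↔ g' ∈ degPart (II f g h) s)

include cI hs hl

/-- Growth under the Koszul property. -/
theorem EE_of_QP [Infinite K] {P : Fin 3 → K} (hP : P 0 ≠ 0) (hfP : eval P f ≠ 0) {n : ℕ}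
    (hn1 : a ≤ n + 2) (hn2 : n + 2 < a + b) {V : Submodule K (MvPolynomial (Fin 3) K)}
    (hV : V ≤ Hd K (n + 1)) (hIV : degPart (II f g h) (n + 1) ≤ V)
    (hQ : QP (II f g h) V n P) : EE (II f g h) (a, b, c) V (n + 1) := by
  have h1 := tower cI hs hl hP hfP n hn1 hn2 V hV hIV hQ
  have hU : up (II f g h) V (n + 1) ≤ Hd K (n + 1 + 1) := up_le hV
  have hIU : degPart (II f g h) (n + 1 + 1) ≤ up (II f g h) V (n + 1) := degPart_le_up V (n + 1)
  have h2 := rank_of_QP (P := P) hV hIV hU hIU (fun v hv =>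
    ⟨mul_mem_up _ (L1_mem P) hv, mul_mem_up _ (L2_mem P) hv⟩) hQ
  have h3 := finrank_mono_Hd hIU hU
  unfold EE
  set x := finrank K V - finrank K (degPart (II f g h) (n + 1)) with hx
  set t := finrank K (colon V n) - finrank K (degPart (II f g h) n) with ht
  set w := finrank K (up (II f g h) V (n + 1)) - finrank K (degPart (II f g h) (n + 1 + 1)) with hw
  have h4 := th_succ_of_le (a := a) (n := n) (t := x - t + 1) (by omega) (by omega)
  simp only [Nat.add_sub_cancel] at h4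
  have h5 : x ≤ th a (n + 1) (x - t + 1) := by
    rw [h4]
    omega
  have h6 := N_B (a := a) (b := b) (c := c) (d := n + 1) (q := x) (ρ := x - t) cI.hab cI.hbc cI.a_pos
    (by omega) h5
  by_cases h7 : t ≤ x
  · omega
  · have h8 : x - t = 0 := by omega
    rw [h8, th_one] at h1
    omega

/-- Growth for the colon under the Koszul property. -/
theorem EE_of_QP_dual [Infinite K] {P : Fin 3 → K} (hP : P 0 ≠ 0) (hfP : eval P f ≠ 0) {n : ℕ}
    (hn1 : a ≤ n + 2) (hn2 : n + 2 < a + b) {U : Submodule K (MvPolynomial (Fin 3) K)}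
    (hU : U ≤ Hd K (n + 1)) (hIU : degPart (II f g h) (n + 1) ≤ U)
    (hQ : QP (II f g h) U n P) (hup : up (II f g h) (colon U n) n = U) :
    EE (II f g h) (a, b, c) (colon U n) n := by
  have h1 := tower cI hs hl hP hfP n hn1 hn2 U hU hIU hQ
  unfold EE
  rw [hup]
  have h3 := finrank_mono_Hd hIU hU
  set t := finrank K (colon U n) - finrank K (degPart (II f g h) n) with ht
  set u := finrank K U - finrank K (degPart (II f g h) (n + 1)) with hu
  have h6 := N_B (a := a) (b := b) (c := c) (d := n) (q := t) (ρ := u - t) cI.hab cI.hbc cI.a_pos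
    (by omega) h1
  by_cases h7 : t ≤ u
  · omega
  · have h8 : u - t = 0 := by omega
    rw [h8, th_one] at h1
    omega

/-- If the values of the relations among elements of `V` fill everything, the orthogonal has the
Koszul property. -/
theorem QP_of_values [Infinite K]
    {D : Fin 3 → MvPolynomial (Fin 3) K →ₗ[K] MvPolynomial (Fin 3) K} {n : ℕ}
    (hD : IsDec D f g h a b c (n + 2)) {P : Fin 3 → K} (hP : P 0 ≠ 0) (hfP : eval P f ≠ 0)
    {V : Submodule K (MvPolynomial (Fin 3) K)} (hV : V ≤ Hd K (n + 1)) {e : ℕ}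
    (hde : n + 1 + 1 + e = s)
    (hpV : ∀ t ∈ up (II f g h) V (n + 1), ∃ v₁ ∈ V, ∃ v₂ ∈ V, t - (L1 P * v₁ + L2 P * v₂) ∈ II f g h)
    {r₁₁ r₁₂ r₂₁ r₂₂ : MvPolynomial (Fin 3) K} (h11 : r₁₁ ∈ V) (h12 : r₁₂ ∈ V) (h21 : r₂₁ ∈ V)
    (h22 : r₂₂ ∈ V) (hι₁ : L1 P * r₁₁ + L2 P * r₁₂ ∈ II f g h)
    (hι₂ : L1 P * r₂₁ + L2 P * r₂₂ ∈ II f g h)
    (hΔ : eval P (D 1 (L1 P * r₁₁ + L2 P * r₁₂)) * eval P (D 2 (L1 P * r₂₁ + L2 P * r₂₂))
      - eval P (D 2 (L1 P * r₁₁ + L2 P * r₁₂)) * eval P (D 1 (L1 P * r₂₁ + L2 P * r₂₂)) ≠ 0) :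
    QP (II f g h) (perp l V (e + 1)) e P := by
  intro x₁ hx₁ x₂ hx₂ hrel
  have hlin : ∀ {m v : MvPolynomial (Fin 3) K}, m ∈ Hd K 1 → v ∈ Hd K (n + 1) →
      m * v ∈ Hd K (n + 2) := by
    intro m v hm hv
    have := Hd_mul_mem hm hv
    rwa [show 1 + (n + 1) = n + 2 by omega] at this
  have hιm : ∀ {x y : MvPolynomial (Fin 3) K}, x ∈ Hd K (n + 1) → y ∈ Hd K (n + 1) →
      L1 P * x + L2 P * y ∈ II f g h → L1 P * x + L2 P * y ∈ degPart (II f g h) (n + 2) := by
    intro x y hx hy hmem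
    exact mem_degPart.mpr ⟨hmem, Submodule.add_mem _ (hlin (L1_mem P) hx) (hlin (L2_mem P) hy)⟩
  have hev0 : ∀ x y : MvPolynomial (Fin 3) K, eval P (L1 P * x + L2 P * y) = 0 := by
    intro x y
    simp
  -- the functional
  let A := Hd K (n + 1)
  let Φ : (A × A) →ₗ[K] (MvPolynomial (Fin 3) K ⧸ II f g h) :=
    (qm (II f g h)) ∘ₗ (((LinearMap.mulLeft K (L1 P)) ∘ₗ A.subtype).coprod
      ((LinearMap.mulLeft K (L2 P)) ∘ₗ A.subtype))
  have hΦ : ∀ p : A × A, Φ p = qm (II f g h) (L1 P * p.1.1 + L2 P * p.2.1) := fun p => by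
    simp [Φ]
  let ψ : (A × A) →ₗ[K] K :=
    (l ∘ₗ (LinearMap.mulRight K x₂) ∘ₗ A.subtype).coprod
      (-(l ∘ₗ (LinearMap.mulRight K x₁) ∘ₗ A.subtype))
  have hψ : ∀ p : A × A, ψ p = l (p.1.1 * x₂) - l (p.2.1 * x₁) := fun p => by
    simp [ψ, sub_eq_add_neg]
  have hker : LinearMap.ker Φ ≤ LinearMap.ker ψ := by
    rintro ⟨⟨x, hx⟩, ⟨y, hy⟩⟩ hk
    rw [LinearMap.mem_ker, hΦ, qm_eq_zero] at hk
    change L1 P * x + L2 P * y ∈ II f g h at hk
    rw [LinearMap.mem_ker, hψ]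
    change l (x * x₂) - l (y * x₁) = 0
    -- the scalars
    set ι := L1 P * x + L2 P * y with hιdef
    set ι₁ := L1 P * r₁₁ + L2 P * r₁₂ with hι₁def
    set ι₂ := L1 P * r₂₁ + L2 P * r₂₂ with hι₂def
    have o0 := cI.val_orth hD (P := P) (hιm hx hy hk)
    have o1 := cI.val_orth hD (P := P) (hιm (hV h11) (hV h12) hι₁)
    have o2 := cI.val_orth hD (P := P) (hιm (hV h21) (hV h22) hι₂)
    rw [hev0] at o0 o1 o2
    rw [← hι₁def] at o1
    rw [← hι₂def] at o2
    rw [← hιdef] at o0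
    set Δ := eval P (D 1 ι₁) * eval P (D 2 ι₂) - eval P (D 2 ι₁) * eval P (D 1 ι₂) with hΔdef
    set α := (eval P (D 1 ι) * eval P (D 2 ι₂) - eval P (D 2 ι) * eval P (D 1 ι₂)) / Δ with hα
    set β := (eval P (D 1 ι₁) * eval P (D 2 ι) - eval P (D 2 ι₁) * eval P (D 1 ι)) / Δ with hβ
    have e1 : eval P (D 1 ι) = α * eval P (D 1 ι₁) + β * eval P (D 1 ι₂) := by
      rw [hα, hβ]
      field_simp
      rw [hΔdef]
      ring
    have e2 : eval P (D 2 ι) = α * eval P (D 2 ι₁) + β * eval P (D 2 ι₂) := by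
      rw [hα, hβ]
      field_simp
      rw [hΔdef]
      ring
    have e0 : eval P (D 0 ι) = α * eval P (D 0 ι₁) + β * eval P (D 0 ι₂) := by
      apply mul_right_cancel₀ hfP
      linear_combination o0 - α * o1 - β * o2 - eval P g * e1 - eval P h * e2
    have hu₁ : α • r₁₁ + β • r₂₁ ∈ V :=
      Submodule.add_mem _ (Submodule.smul_mem _ _ h11) (Submodule.smul_mem _ _ h21)
    have hu₂ : α • r₁₂ + β • r₂₂ ∈ V :=
      Submodule.add_mem _ (Submodule.smul_mem _ _ h12) (Submodule.smul_mem _ _ h22)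
    set u₁ := α • r₁₁ + β • r₂₁ with hu₁def
    set u₂ := α • r₁₂ + β • r₂₂ with hu₂def
    have hι' : L1 P * (x - u₁) + L2 P * (y - u₂) = ι - (α • ι₁ + β • ι₂) := by
      rw [hιdef, hι₁def, hι₂def, hu₁def, hu₂def]
      simp only [smul_eq_C_mul]
      ring
    have hmem' : L1 P * (x - u₁) + L2 P * (y - u₂) ∈ II f g h := by
      rw [hι']
      refine Ideal.sub_mem _ hk (Ideal.add_mem _ ?_ ?_)
      · rw [smul_eq_C_mul]
        exact Ideal.mul_mem_left _ _ hι₁
      · rw [smul_eq_C_mul]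
        exact Ideal.mul_mem_left _ _ hι₂
    obtain ⟨y₀, hy₀, k1, k2⟩ := cI.rel_koszul hD hP (Submodule.sub_mem _ hx (hV hu₁))
      (Submodule.sub_mem _ hy (hV hu₂)) hmem' (by
        intro i
        rw [hι']
        simp only [map_sub, map_add, map_smul, smul_eval]
        fin_cases i
        · simpa using sub_eq_zero.mpr e0
        · simpa using sub_eq_zero.mpr e1
        · simpa using sub_eq_zero.mpr e2)
    -- the computation of the functional
    have hx₁H := hx₁.1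
    have hx₂H := hx₂.1
    have hlI : ∀ {u v : MvPolynomial (Fin 3) K}, u ∈ II f g h → u ∈ Hd K (n + 1) → v ∈ Hd K (e + 1) →
        l (u * v) = 0 := by
      intro u v hu huH hv
      exact cI.l_mul_I hs hl (by omega) (mem_degPart.mpr ⟨hu, huH⟩) hv
    have hL2y₀ : L2 P * y₀ ∈ Hd K (n + 1) := by
      have := Hd_mul_mem (L2_mem P) hy₀
      rwa [add_comm] at this
    have hL1y₀ : L1 P * y₀ ∈ Hd K (n + 1) := by
      have := Hd_mul_mem (L1_mem P) hy₀
      rwa [add_comm] at this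
    have s1 : l ((x - u₁ - L2 P * y₀) * x₂) = 0 :=
      hlI k1 (Submodule.sub_mem _ (Submodule.sub_mem _ hx (hV hu₁)) hL2y₀) hx₂H
    have s2 : l ((y - u₂ + L1 P * y₀) * x₁) = 0 :=
      hlI k2 (Submodule.add_mem _ (Submodule.sub_mem _ hy (hV hu₂)) hL1y₀) hx₁H
    have s3 : l (u₁ * x₂) = 0 := hx₂.2 u₁ hu₁
    have s4 : l (u₂ * x₁) = 0 := hx₁.2 u₂ hu₂
    have s5 : l (y₀ * (L1 P * x₁ + L2 P * x₂)) = 0 := by
      rw [mul_comm]
      refine cI.l_mul_I hs hl (d := e + 2) (e := n) (by omega) (mem_degPart.mpr ⟨hrel, ?_⟩) hy₀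
      have h1 := Hd_mul_mem (L1_mem P) hx₁H
      have h2 := Hd_mul_mem (L2_mem P) hx₂H
      rw [show 1 + (e + 1) = e + 2 by omega] at h1 h2
      exact Submodule.add_mem _ h1 h2
    have e5 : x * x₂ = (x - u₁ - L2 P * y₀) * x₂ + u₁ * x₂ + y₀ * (L2 P * x₂) := by ring
    have e6 : y * x₁ = (y - u₂ + L1 P * y₀) * x₁ + u₂ * x₁ - y₀ * (L1 P * x₁) := by ring
    have e7 : y₀ * (L1 P * x₁ + L2 P * x₂) = y₀ * (L1 P * x₁) + y₀ * (L2 P * x₂) := by ring
    rw [e7, map_add] at s5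
    rw [e5, e6, map_add, map_add, map_sub, map_add, s1, s2, s3, s4]
    linear_combination s5
  have hmemψ : ψ ∈ LinearMap.range Φ.dualMap := by
    rw [LinearMap.range_dualMap_eq_dualAnnihilator_ker, Submodule.mem_dualAnnihilator]
    intro p hp
    exact hker hp
  obtain ⟨h', hh'⟩ := hmemψ
  have hh'' : ∀ p : A × A, h' (qm (II f g h) (L1 P * p.1.1 + L2 P * p.2.1)) = ψ p := by
    intro p
    rw [← hΦ, ← hh']
    rfl
  obtain ⟨y', hy', hrep⟩ := cI.rep_functional hs hl (d := n + 2) (e := e) (by omega)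
    (h' ∘ₗ qm (II f g h)) (fun x hx => by
      show h' (qm (II f g h) x) = 0
      rw [qm_eq_zero.mpr (mem_degPart.mp hx).1, map_zero])
  have k1 : L1 P * y' - x₂ ∈ II f g h := by
    refine left_kernelG cI.reg cI.hf cI.hg cI.hh hs hl (n + 1) (e + 1) (by omega) _
      (Submodule.sub_mem _ ?_ hx₂.1) fun v hv => ?_
    · have := Hd_mul_mem (L1_mem P) hy'
      rwa [add_comm] at this
    · have h1 := hh'' (⟨v, hv⟩, 0)
      simp only [hψ] at h1
      have h2 := hrep (L1 P * v) (hlin (L1_mem P) hv)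
      have h3 : h' (qm (II f g h) (L1 P * v)) = l (L1 P * v * y') := h2
      simp only [Submodule.coe_zero, mul_zero, add_zero, zero_mul, map_zero, sub_zero] at h1
      rw [h3] at h1
      rw [show (L1 P * y' - x₂) * v = L1 P * v * y' - v * x₂ by ring, map_sub, h1, sub_self]
  have k2 : L2 P * y' + x₁ ∈ II f g h := by
    refine left_kernelG cI.reg cI.hf cI.hg cI.hh hs hl (n + 1) (e + 1) (by omega) _
      (Submodule.add_mem _ ?_ hx₁.1) fun v hv => ?_
    · have := Hd_mul_mem (L2_mem P) hy'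
      rwa [add_comm] at this
    · have h1 := hh'' (0, ⟨v, hv⟩)
      simp only [hψ] at h1
      have h2 := hrep (L2 P * v) (hlin (L2_mem P) hv)
      have h3 : h' (qm (II f g h) (L2 P * v)) = l (L2 P * v * y') := h2
      simp only [Submodule.coe_zero, mul_zero, zero_add, zero_mul, map_zero, zero_sub] at h1
      rw [h3] at h1
      rw [show (L2 P * y' + x₁) * v = L2 P * v * y' + v * x₁ by ring, map_add, h1]
      ring
  have hIp : degPart (II f g h) (e + 1) ≤ perp l V (e + 1) :=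
    cI.degPart_le_perp hs hl (by omega) hV
  have hL1 : L1 P * y' ∈ perp l V (e + 1) := by
    have h1 : L1 P * y' - x₂ ∈ degPart (II f g h) (e + 1) := by
      refine mem_degPart.mpr ⟨k1, Submodule.sub_mem _ ?_ hx₂.1⟩
      have := Hd_mul_mem (L1_mem P) hy'
      rwa [add_comm] at this
    have := Submodule.add_mem _ (hIp h1) hx₂
    rwa [sub_add_cancel] at this
  have hL2 : L2 P * y' ∈ perp l V (e + 1) := by
    have h1 : L2 P * y' + x₁ ∈ degPart (II f g h) (e + 1) := by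
      refine mem_degPart.mpr ⟨k2, Submodule.add_mem _ ?_ hx₁.1⟩
      have := Hd_mul_mem (L2_mem P) hy'
      rwa [add_comm] at this
    have := Submodule.sub_mem _ (hIp h1) hx₁
    rwa [add_sub_cancel_right] at this
  have hZ := cI.colon_star hs hl hde hV hpV hy' hL1 hL2
  rw [cI.perp_up hs hl hde] at hZ
  refine ⟨-y', Submodule.neg_mem _ hZ, ?_, ?_⟩
  · have : x₁ - L2 P * -y' = L2 P * y' + x₁ := by ring
    rw [this]
    exact k2
  · have : x₂ + L1 P * -y' = -(L1 P * y' - x₂) := by ring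
    rw [this]
    exact Ideal.neg_mem_iff _ |>.mpr k1

end Pairing

end CI

end Vale.Agent.Lib.P200.All
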