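import Vale.Agent.Lib.P200.All.Kron

namespace Vale.Agent.Lib.P200.All

open MvPolynomial Module Fam Gen

variable {K : Type*} [Field K] {f g h : MvPolynomial (Fin 3) K} {a b c : ℕ}

section Line

variable {D : Fin 3 → MvPolynomial (Fin 3) K →ₗ[K] MvPolynomial (Fin 3) K} {n : ℕ}

/-- The restriction of the values of a polynomial family of elements. -/
noncomputable def Vl (α β γ : K) (D : Fin 3 → MvPolynomial (Fin 3) K →ₗ[K] MvPolynomial (Fin 3) K)
    (ι : ℕ → MvPolynomial (Fin 3) K) (N : ℕ) (i : Fin 3) : Polynomial K :=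
  ∑ k ∈ Finset.range (N + 1), Polynomial.X ^ k * piC α β γ (D i (ι k))

lemma eval_Vl (α β γ : K) (ι : ℕ → MvPolynomial (Fin 3) K) (N : ℕ) (i : Fin 3) (τ : K) :
    (Vl α β γ D ι N i).eval τ
      = eval (Pτ α β γ τ) (D i (∑ k ∈ Finset.range (N + 1), τ ^ k • ι k)) := by
  rw [Vl, Polynomial.eval_finset_sum, map_sum, map_sum]
  refine Finset.sum_congr rfl fun k _ => ?_
  rw [map_smul, MvPolynomial.smul_eval, Polynomial.eval_mul, Polynomial.eval_pow,
    Polynomial.eval_X, eval_piC]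

lemma Vl_deg (hD : IsDec D f g h a b c (n + 2)) (α β γ : K) (ι : ℕ → MvPolynomial (Fin 3) K)
    (N : ℕ) (i : Fin 3) (h0 : Vl α β γ D ι N i ≠ 0) :
    (Vl α β γ D ι N i).natDegree + ![a, b, c] i ≤ N + n + 2 := by
  by_cases he : ![a, b, c] i ≤ n + 2
  · have h1 : (Vl α β γ D ι N i).natDegree ≤ N + (n + 2 - ![a, b, c] i) := by
      refine Polynomial.natDegree_sum_le_of_forall_le _ _ fun k hk => ?_
      refine Polynomial.natDegree_mul_le.trans ?_
      have h2 := hD.mem i (ι k)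
      rw [Pt_of_le he] at h2
      have h3 := (piC_deg α β γ _ h2).1
      rw [Polynomial.natDegree_X_pow]
      have := Finset.mem_range.mp hk
      omega
    omega
  · exfalso
    apply h0
    refine Finset.sum_eq_zero fun k _ => ?_
    have h2 := hD.mem i (ι k)
    rw [Pt_of_lt (by omega), Submodule.mem_bot] at h2
    rw [h2, map_zero, mul_zero]

theorem line_main [Infinite K] (hD : IsDec D f g h a b c (n + 2))
    {V : Submodule K (MvPolynomial (Fin 3) K)}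
    {Γ : MvPolynomial (Fin 3) K} {W : Fin 3 → MvPolynomial (Fin 3) K}
    (hcross : ∀ P : Fin 3 → K, eval P Γ ≠ 0 → P 0 ≠ 0 → ∀ v₁ ∈ V, ∀ v₂ ∈ V,
      L1 P * v₁ + L2 P * v₂ ∈ II f g h → ∀ i k,
        eval P (D i (L1 P * v₁ + L2 P * v₂)) * eval P (W k)
          = eval P (D k (L1 P * v₁ + L2 P * v₂)) * eval P (W i))
    {α β γ : K} (hΓ : piC α β γ Γ ≠ 0) {i₀ : Fin 3} (hW0 : piC α β γ (W i₀) ≠ 0)
    {p : Fin 3 → Polynomial K} {ρ₀ : K} (hρ₀ : ρ₀ ≠ 0)
    (hB : p 0 * piC α β γ (W 0) + p 1 * piC α β γ (W 1) + p 2 * piC α β γ (W 2) = Polynomial.C ρ₀)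
    (N : ℕ) (ι : ℕ → MvPolynomial (Fin 3) K)
    (hι : ∀ k, ι k ∈ degPart (II f g h) (n + 2))
    (H : ∀ τ, τ ≠ 0 → (piC α β γ Γ).eval τ ≠ 0 → ∃ x ∈ V, ∃ y ∈ V,
      ∑ k ∈ Finset.range (N + 1), τ ^ k • ι k = lF α β γ * x + (X 0 - C τ * tF β) * y) :
    (piC α β γ (W i₀)).natDegree + ![a, b, c] i₀ ≤ N + n + 2 ∨ ∀ i, Vl α β γ D ι N i = 0 := by
  have hG : (Polynomial.X * piC α β γ Γ) ≠ 0 := mul_ne_zero Polynomial.X_ne_zero hΓ
  have hcr : ∀ i k, Vl α β γ D ι N i * piC α β γ (W k) = Vl α β γ D ι N k * piC α β γ (W i) := by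
    intro i k
    rw [← sub_eq_zero]
    refine poly_zero_of_good hG fun τ hτ => ?_
    rw [Polynomial.eval_mul, Polynomial.eval_X] at hτ
    have hτ0 : τ ≠ 0 := left_ne_zero_of_mul hτ
    have hτΓ := right_ne_zero_of_mul hτ
    obtain ⟨x, hx, y, hy, hrel⟩ := H τ hτ0 hτΓ
    rw [line_rel α β γ hτ0] at hrel
    have hmem : ∑ k ∈ Finset.range (N + 1), τ ^ k • ι k ∈ II f g h :=
      Submodule.sum_mem _ fun k _ => Submodule.smul_of_tower_mem _ _ (mem_degPart.mp (hι k)).1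
    rw [eval_piC] at hτΓ
    have hv₁ : C τ⁻¹ * x ∈ V := by
      rw [← smul_eq_C_mul]
      exact V.smul_mem _ hx
    have hv₂ : -(C (τ⁻¹ * γ) * x) - y ∈ V := by
      refine Submodule.sub_mem _ (Submodule.neg_mem _ ?_) hy
      rw [← smul_eq_C_mul]
      exact V.smul_mem _ hx
    rw [hrel] at hmem
    have h1 := hcross (Pτ α β γ τ) hτΓ hτ0 _ hv₁ _ hv₂ hmem i k
    rw [← hrel] at h1
    rw [Polynomial.eval_sub, Polynomial.eval_mul, Polynomial.eval_mul, eval_Vl, eval_Vl, eval_piC,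
      eval_piC, h1, sub_self]
  by_cases h0 : Vl α β γ D ι N i₀ = 0
  · right
    intro i
    have h1 := hcr i i₀
    rw [h0, zero_mul] at h1
    exact (mul_eq_zero.mp h1).resolve_right hW0
  · left
    have hdvd : piC α β γ (W i₀) ∣ Polynomial.C ρ₀ * Vl α β γ D ι N i₀ := by
      refine ⟨p 0 * Vl α β γ D ι N 0 + p 1 * Vl α β γ D ι N 1 + p 2 * Vl α β γ D ι N 2, ?_⟩
      rw [← hB]
      linear_combination (p 0) * (hcr i₀ 0) + (p 1) * (hcr i₀ 1) + (p 2) * (hcr i₀ 2)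
    have h2 := Polynomial.natDegree_le_of_dvd hdvd
      (mul_ne_zero (Polynomial.C_ne_zero.mpr hρ₀) h0)
    rw [Polynomial.natDegree_C_mul hρ₀] at h2
    have h3 := Vl_deg hD α β γ ι N i₀ h0
    omega

/-- A form restricting to zero on a line is divisible by the linear form. -/
lemma lF_dvd_Pt [Infinite K] {α β γ : K} {m e : ℕ} {x : MvPolynomial (Fin 3) K} (hx : x ∈ Pt K m e)
    (h0 : piC α β γ x = 0) : lF α β γ ∣ x := by
  by_cases he : e ≤ m
  · rw [Pt_of_le he] at hx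
    exact lF_dvd_of_piC α β γ hx h0
  · rw [Pt_of_lt (by omega), Submodule.mem_bot] at hx
    rw [hx]
    exact dvd_zero _

theorem lF_inj [Infinite K] (hD : IsDec D f g h a b c (n + 2))
    {V : Submodule K (MvPolynomial (Fin 3) K)} (hV : V ≤ Hd K (n + 1))
    {Γ : MvPolynomial (Fin 3) K} {W : Fin 3 → MvPolynomial (Fin 3) K}
    (hcross : ∀ P : Fin 3 → K, eval P Γ ≠ 0 → P 0 ≠ 0 → ∀ v₁ ∈ V, ∀ v₂ ∈ V,
      L1 P * v₁ + L2 P * v₂ ∈ II f g h → ∀ i k,
        eval P (D i (L1 P * v₁ + L2 P * v₂)) * eval P (W k)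
          = eval P (D k (L1 P * v₁ + L2 P * v₂)) * eval P (W i))
    {α β γ : K} (hΓ : piC α β γ Γ ≠ 0) {i₀ : Fin 3} (hW0 : piC α β γ (W i₀) ≠ 0)
    {p : Fin 3 → Polynomial K} {ρ₀ : K} (hρ₀ : ρ₀ ≠ 0)
    (hB : p 0 * piC α β γ (W 0) + p 1 * piC α β γ (W 1) + p 2 * piC α β γ (W 2) = Polynomial.C ρ₀)
    (hlow : n + 2 < (piC α β γ (W i₀)).natDegree + ![a, b, c] i₀)
    {x : MvPolynomial (Fin 3) K} (hx : x ∈ V) (hlx : lF α β γ * x ∈ II f g h) : x ∈ II f g h := by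
  have hm : lF α β γ * x ∈ degPart (II f g h) (n + 2) := by
    refine mem_degPart.mpr ⟨hlx, ?_⟩
    have := Hd_mul_mem (lF_mem α β γ) (hV hx)
    rwa [show 1 + (n + 1) = n + 2 by omega] at this
  have h1 := line_main hD hcross hΓ hW0 hρ₀ hB 0 (fun _ => lF α β γ * x) (fun _ => hm)
    (fun τ _ _ => ⟨x, hx, 0, Submodule.zero_mem _, by simp⟩)
  rcases h1 with h1 | h1
  · omega
  · have h2 : ∀ i, lF α β γ ∣ D i (lF α β γ * x) := by
      intro i
      refine lF_dvd_Pt (hD.mem i _) ?_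
      have h3 := h1 i
      simpa [Vl] using h3
    obtain ⟨e0, he0⟩ := h2 0
    obtain ⟨e1, he1⟩ := h2 1
    obtain ⟨e2, he2⟩ := h2 2
    have h3 := hD.dec _ hm
    rw [he0, he1, he2] at h3
    have h4 : x = e0 * f + e1 * g + e2 * h := by
      refine mul_left_cancel₀ (lF_ne_zero α β γ) ?_
      rw [← h3]
      ring
    rw [h4]
    exact Ideal.add_mem _ (Ideal.add_mem _
      (Ideal.mul_mem_left _ _ (Ideal.subset_span (by simp)))
      (Ideal.mul_mem_left _ _ (Ideal.subset_span (by simp))))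
      (Ideal.mul_mem_left _ _ (Ideal.subset_span (by simp)))

/-- The sum identity for a chain of lifts. -/
lemma chain_sum (τ : K) (A B : MvPolynomial (Fin 3) K) (y x : ℕ → MvPolynomial (Fin 3) K)
    (yp : ℕ → MvPolynomial (Fin 3) K) (hy0 : yp 0 = 0) (hys : ∀ k, yp (k + 1) = y k)
    (L : MvPolynomial (Fin 3) K) (N : ℕ) :
    ∑ k ∈ Finset.range (N + 1), τ ^ k • (A * y k - B * yp k - L * x k)
      = (A - C τ * B) * (∑ k ∈ Finset.range (N + 1), τ ^ k • y k)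
        - L * (∑ k ∈ Finset.range (N + 1), τ ^ k • x k) + τ ^ (N + 1) • (B * y N) := by
  induction N with
  | zero =>
    simp only [zero_add, Finset.sum_range_one, pow_zero, one_smul, pow_one, hy0, smul_eq_C_mul, mul_zero,
      sub_zero, C_1, one_mul]
    ring
  | succ N ih =>
    rw [Finset.sum_range_succ, ih, Finset.sum_range_succ _ (N + 1), Finset.sum_range_succ _ (N + 1), hys]
    simp only [smul_eq_C_mul, map_pow]
    ring

theorem colon_inj [Infinite K] (cI : CI f g h a b c) (hD : IsDec D f g h a b c (n + 2))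
    {V : Submodule K (MvPolynomial (Fin 3) K)} (hV : V ≤ Hd K (n + 1))
    {Γ : MvPolynomial (Fin 3) K} {W : Fin 3 → MvPolynomial (Fin 3) K}
    (hcross : ∀ P : Fin 3 → K, eval P Γ ≠ 0 → P 0 ≠ 0 → ∀ v₁ ∈ V, ∀ v₂ ∈ V,
      L1 P * v₁ + L2 P * v₂ ∈ II f g h → ∀ i k,
        eval P (D i (L1 P * v₁ + L2 P * v₂)) * eval P (W k)
          = eval P (D k (L1 P * v₁ + L2 P * v₂)) * eval P (W i))
    {α β γ : K} (hΓ : piC α β γ Γ ≠ 0) {i₀ : Fin 3} (hW0 : piC α β γ (W i₀) ≠ 0)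
    {p : Fin 3 → Polynomial K} {ρ₀ : K} (hρ₀ : ρ₀ ≠ 0)
    (hB : p 0 * piC α β γ (W 0) + p 1 * piC α β γ (W 1) + p 2 * piC α β γ (W 2) = Polynomial.C ρ₀)
    (hlow : n + 2 < (piC α β γ (W i₀)).natDegree + ![a, b, c] i₀) (hn : n + 2 < a + b)
    {y : MvPolynomial (Fin 3) K} (hy : y ∈ colon V n) (hly : lF α β γ * y ∈ II f g h) :
    y ∈ II f g h := by
  refine socle_freeG cI.reg cI.hf cI.hg cI.hh hy.1 ?_ fun i => ?_
  · have := cI.hab
    have := cI.hbc
    have := cI.ha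
    omega
  · refine lF_inj hD hV hcross hΓ hW0 hρ₀ hB hlow (hy.2 i) ?_
    rw [mul_left_comm]
    exact Ideal.mul_mem_left _ _ hly

/-- Main estimate along a line. -/
theorem pencil_main [Infinite K] (cI : CI f g h a b c) (hD : IsDec D f g h a b c (n + 2))
    {V : Submodule K (MvPolynomial (Fin 3) K)} (hV : V ≤ Hd K (n + 1))
    (hIV : degPart (II f g h) (n + 1) ≤ V)
    {Γ : MvPolynomial (Fin 3) K} {W : Fin 3 → MvPolynomial (Fin 3) K}
    (hcross : ∀ P : Fin 3 → K, eval P Γ ≠ 0 → P 0 ≠ 0 → ∀ v₁ ∈ V, ∀ v₂ ∈ V,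
      L1 P * v₁ + L2 P * v₂ ∈ II f g h → ∀ i k,
        eval P (D i (L1 P * v₁ + L2 P * v₂)) * eval P (W k)
          = eval P (D k (L1 P * v₁ + L2 P * v₂)) * eval P (W i))
    (hcolon : ∀ P : Fin 3 → K, eval P Γ ≠ 0 → P 0 ≠ 0 → ∀ y ∈ Hd K n, L1 P * y ∈ V → L2 P * y ∈ V →
      y ∈ colon V n)
    {α β γ : K} (hΓ : piC α β γ Γ ≠ 0) {i₀ : Fin 3} (hW0 : piC α β γ (W i₀) ≠ 0)
    {p : Fin 3 → Polynomial K} {ρ₀ : K} (hρ₀ : ρ₀ ≠ 0)
    (hB : p 0 * piC α β γ (W 0) + p 1 * piC α β γ (W 1) + p 2 * piC α β γ (W 2) = Polynomial.C ρ₀)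
    (hn : n + 2 < a + b)
    (hcount : (finrank K (up (II f g h) V (n + 1)) - finrank K (degPart (II f g h) (n + 2)))
      + (finrank K (colon V n) - finrank K (degPart (II f g h) n)) + 1
        ≤ 2 * (finrank K V - finrank K (degPart (II f g h) (n + 1)))) :
    (piC α β γ (W i₀)).natDegree + ![a, b, c] i₀
      ≤ (finrank K V - finrank K (degPart (II f g h) (n + 1)))
        - (finrank K (colon V n) - finrank K (degPart (II f g h) n)) + n + 2 := by
  classical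
  by_contra hcon
  have hlow : n + 2 < (piC α β γ (W i₀)).natDegree + ![a, b, c] i₀ := by omega
  have hinj := fun {x : MvPolynomial (Fin 3) K} => lF_inj (x := x) hD hV hcross hΓ hW0 hρ₀ hB hlow
  have hinj' := fun {y : MvPolynomial (Fin 3) K} =>
    colon_inj (y := y) cI hD hV hcross hΓ hW0 hρ₀ hB hlow hn
  apply hcon
  -- the quotient
  set I := II f g h with hI
  let q := qm I
  set L := lF α β γ with hL
  have hLm : L ∈ Hd K 1 := lF_mem α β γ
  let ℓ := LinearMap.mulLeft K (q L)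
  have hℓ : ∀ z, ℓ (q z) = q (L * z) := fun z => (qm_mul L z).symm
  let XX := V.map q
  let YY := (colon V n).map q
  let WW := (up I V (n + 1)).map q
  have hVf := fin_of_le hV
  have hTf := fin_of_le (colon_le V n)
  have hUf := fin_of_le (up_le (I := I) hV)
  have hx1 : finrank K XX + finrank K (degPart I (n + 1)) = finrank K V := finrank_map_qm hV hIV
  have hy1 : finrank K YY + finrank K (degPart I n) = finrank K (colon V n) :=
    finrank_map_qm (colon_le V n) (degPart_le_colon hIV)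
  have hw1 : finrank K WW + finrank K (degPart I (n + 2)) = finrank K (up I V (n + 1)) :=
    finrank_map_qm (up_le hV) (degPart_le_up V (n + 1))
  let lX := XX.map ℓ
  let lY := YY.map ℓ
  have hlX : finrank K lX = finrank K XX := by
    have h1 := finrank_map_add_inf_ker ℓ XX
    have h2 : XX ⊓ LinearMap.ker ℓ = ⊥ := by
      rw [eq_bot_iff]
      rintro u ⟨hu1, hu2⟩
      obtain ⟨v, hv, rfl⟩ := Submodule.mem_map.mp hu1
      rw [SetLike.mem_coe, LinearMap.mem_ker, hℓ, qm_eq_zero] at hu2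
      rw [Submodule.mem_bot, qm_eq_zero]
      exact hinj hv hu2
    rw [h2, finrank_bot] at h1
    omega
  have hlY : finrank K lY = finrank K YY := by
    have h1 := finrank_map_add_inf_ker ℓ YY
    have h2 : YY ⊓ LinearMap.ker ℓ = ⊥ := by
      rw [eq_bot_iff]
      rintro u ⟨hu1, hu2⟩
      obtain ⟨v, hv, rfl⟩ := Submodule.mem_map.mp hu1
      rw [SetLike.mem_coe, LinearMap.mem_ker, hℓ, qm_eq_zero] at hu2
      rw [Submodule.mem_bot, qm_eq_zero]
      exact hinj' hv hu2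
    rw [h2, finrank_bot] at h1
    omega
  have hlYX : lY ≤ XX := by
    rintro _ ⟨u, ⟨y, hy, rfl⟩, rfl⟩
    exact ⟨L * y, lin_mul_mem hy.2 hLm, (hℓ y).symm⟩
  have hlXW : lX ≤ WW := by
    rintro _ ⟨u, ⟨y, hy, rfl⟩, rfl⟩
    exact ⟨L * y, mul_mem_up _ hLm hy, (hℓ y).symm⟩
  -- a complement
  obtain ⟨Cc, hCc⟩ := Submodule.exists_isCompl lY
  let X₂ := Cc ⊓ XX
  have hX₂ : X₂ ≤ XX := inf_le_right
  have hX₂Y : ∀ u, u ∈ X₂ → u ∈ lY → u = 0 := by
    intro u h1 h2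
    have := hCc.disjoint.le_bot ⟨h2, h1.1⟩
    simpa using this
  have hXf : Module.Finite K XX := inferInstance
  have hX₂f : Module.Finite K X₂ := Submodule.finiteDimensional_of_le hX₂
  have hX₂d : finrank K X₂ + finrank K lY = finrank K XX := by
    have h1 := Submodule.finrank_sup_add_finrank_inf_eq lY X₂
    have h2 : lY ⊔ X₂ = XX := by
      have h3 : (lY ⊔ Cc) ⊓ XX = lY ⊔ (Cc ⊓ XX) := sup_inf_assoc_of_le _ hlYX
      rw [hCc.sup_eq_top, top_inf_eq] at h3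
      exact h3.symm
    have h3 : lY ⊓ X₂ = ⊥ := by
      rw [eq_bot_iff]
      rintro u ⟨h4, h5⟩
      exact (Submodule.mem_bot K).mpr (hX₂Y u h5 h4)
    rw [h2, h3, finrank_bot] at h1
    omega
  let mk0 := lX.mkQ
  let FF := WW.map mk0
  have hFf : Module.Finite K FF := inferInstance
  have hFd : finrank K FF + finrank K lX = finrank K WW := by
    have h1 := finrank_map_add_inf_ker mk0 WW
    have h2 : WW ⊓ LinearMap.ker mk0 = lX := by
      rw [Submodule.ker_mkQ]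
      exact inf_eq_right.mpr hlXW
    rw [h2] at h1
    exact h1
  let B₀ : X₂ →ₗ[K] (_ ⧸ lX) := mk0 ∘ₗ LinearMap.mulLeft K (q (X 0)) ∘ₗ X₂.subtype
  let B₁ : X₂ →ₗ[K] (_ ⧸ lX) := mk0 ∘ₗ LinearMap.mulLeft K (q (-tF β)) ∘ₗ X₂.subtype
  have hB₀ : ∀ u, B₀ u ∈ FF := by
    rintro ⟨u, hu⟩
    obtain ⟨v, hv, rfl⟩ := hX₂ hu
    refine ⟨q (X 0) * q v, ⟨X 0 * v, mul_mem_up _ (X_mem_Hd 0) hv, qm_mul _ _⟩, rfl⟩
  have hB₁ : ∀ u, B₁ u ∈ FF := by
    rintro ⟨u, hu⟩
    obtain ⟨v, hv, rfl⟩ := hX₂ hu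
    refine ⟨q (-tF β) * q v, ⟨-tF β * v, mul_mem_up _ (Submodule.neg_mem _ (tF_mem β)) hv, qm_mul _ _⟩, rfl⟩
  have hdim : finrank K FF + 1 ≤ finrank K X₂ := by
    omega
  obtain ⟨ub, ⟨k₁, hk₁⟩, hub0, hB0, hB1⟩ := kronecker FF B₀ B₁ hB₀ hB₁ hdim
  -- lifting the solution
  have hlift : ∀ k, ∃ y ∈ V, q y = (ub k : _ ⧸ I) ∧ (ub k = 0 → y = 0) := by
    intro k
    by_cases h0 : ub k = 0
    · exact ⟨0, Submodule.zero_mem _, by rw [h0]; simp, fun _ => rfl⟩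
    · obtain ⟨v, hv, hv'⟩ := hX₂ (ub k).2
      exact ⟨v, hv, hv', fun h1 => absurd h1 h0⟩
  choose y hyV hyq hy0 using hlift
  let yp : ℕ → MvPolynomial (Fin 3) K := fun k => Nat.casesOn k 0 y
  have hyp0 : yp 0 = 0 := rfl
  have hyps : ∀ k, yp (k + 1) = y k := fun _ => rfl
  have hypV : ∀ k, yp k ∈ V := by
    intro k
    cases k with
    | zero => exact Submodule.zero_mem _
    | succ k => exact hyV k
  have hlX' : ∀ z : MvPolynomial (Fin 3) K, mk0 (q z) = 0 → ∃ x ∈ V, q (L * x) = q z := by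
    intro z hz
    have h1 : q z ∈ lX := by
      have : mk0 (q z) = 0 := hz
      simpa [mk0] using this
    obtain ⟨u, ⟨x, hx, rfl⟩, hu⟩ := h1
    exact ⟨x, hx, by rw [← hℓ]; exact hu⟩
  have hrel : ∀ k, ∃ x ∈ V, q (L * x) = q (X 0 * y k - tF β * yp k) := by
    intro k
    cases k with
    | zero =>
      refine hlX' _ ?_
      have h1 : B₀ (ub 0) = mk0 (q (X 0 * y 0 - tF β * yp 0)) := by
        show mk0 (q (X 0) * ((ub 0 : _) : _ ⧸ I)) = _
        rw [hyp0, mul_zero, sub_zero, qm_mul, ← hyq 0]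
      rw [← h1]
      exact hB0
    | succ k =>
      refine hlX' _ ?_
      have h1 : B₀ (ub (k + 1)) + B₁ (ub k) = mk0 (q (X 0 * y (k + 1) - tF β * yp (k + 1))) := by
        show mk0 (q (X 0) * ((ub (k + 1) : _) : _ ⧸ I)) + mk0 (q (-tF β) * ((ub k : _) : _ ⧸ I)) = _
        rw [hyps, ← hyq (k + 1), ← hyq k, ← map_add, ← qm_mul, ← qm_mul, ← map_add]
        congr 2
        ring
      rw [← h1]
      exact hB1 k
  choose xx hxxV hxxq using hrel
  let ι : ℕ → MvPolynomial (Fin 3) K := fun k => X 0 * y k - tF β * yp k - L * xx k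
  have hlin : ∀ {m v : MvPolynomial (Fin 3) K}, m ∈ Hd K 1 → v ∈ V → m * v ∈ Hd K (n + 2) := by
    intro m v hm hv
    have := Hd_mul_mem hm (hV hv)
    rwa [show 1 + (n + 1) = n + 2 by omega] at this
  have hι : ∀ k, ι k ∈ degPart I (n + 2) := by
    intro k
    refine mem_degPart.mpr ⟨?_, Submodule.sub_mem _ (Submodule.sub_mem _ (hlin (X_mem_Hd 0) (hyV k))
      (hlin (tF_mem β) (hypV k))) (hlin hLm (hxxV k))⟩
    rw [← qm_eq_zero (I := I)]
    show q (X 0 * y k - tF β * yp k - L * xx k) = 0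
    rw [map_sub, hxxq, sub_self]
  set N := finrank K X₂ with hN
  have hyN : y N = 0 := hy0 N (hub0 N le_rfl)
  have hsum : ∀ τ : K, ∑ k ∈ Finset.range (N + 1), τ ^ k • ι k
      = (X 0 - C τ * tF β) * (∑ k ∈ Finset.range (N + 1), τ ^ k • y k)
        - L * (∑ k ∈ Finset.range (N + 1), τ ^ k • xx k) := by
    intro τ
    have := chain_sum τ (X 0) (tF β) y xx yp hyp0 hyps L N
    rw [hyN, mul_zero, smul_zero, add_zero] at this
    exact this
  have hSy : ∀ τ : K, ∑ k ∈ Finset.range (N + 1), τ ^ k • y k ∈ V := fun τ =>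
    Submodule.sum_mem _ fun k _ => V.smul_mem _ (hyV k)
  have hSx : ∀ τ : K, ∑ k ∈ Finset.range (N + 1), τ ^ k • xx k ∈ V := fun τ =>
    Submodule.sum_mem _ fun k _ => V.smul_mem _ (hxxV k)
  have hmain := line_main hD hcross hΓ hW0 hρ₀ hB N ι hι (fun τ _ _ =>
    ⟨-(∑ k ∈ Finset.range (N + 1), τ ^ k • xx k), Submodule.neg_mem _ (hSx τ), _, hSy τ, by
      rw [hsum]
      ring⟩)
  have hN2 : N = (finrank K V - finrank K (degPart I (n + 1)))
      - (finrank K (colon V n) - finrank K (degPart I n)) := by omega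
  rw [← hN2]
  rcases hmain with hmain | hmain
  · exact hmain
  exfalso
  have hzero : ∀ τ : K, τ ≠ 0 → (piC α β γ Γ).eval τ ≠ 0 →
      ∑ k ∈ Finset.range (N + 1), τ ^ k • ((ub k : _) : _ ⧸ I) = 0 := by
    intro τ hτ0 hτΓ
    rw [eval_piC] at hτΓ
    set Sy := ∑ k ∈ Finset.range (N + 1), τ ^ k • y k with hSydef
    set Sx := ∑ k ∈ Finset.range (N + 1), τ ^ k • xx k with hSxdef
    have h1 : ∑ k ∈ Finset.range (N + 1), τ ^ k • ι k = L1 (Pτ α β γ τ) * (C τ⁻¹ * (-Sx))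
        + L2 (Pτ α β γ τ) * (-(C (τ⁻¹ * γ) * (-Sx)) - Sy) := by
      rw [hsum, ← line_rel α β γ hτ0]
      ring
    have hmemS : ∑ k ∈ Finset.range (N + 1), τ ^ k • ι k ∈ I :=
      Submodule.sum_mem _ fun k _ => Submodule.smul_of_tower_mem _ _ (mem_degPart.mp (hι k)).1
    have hv₁ : C τ⁻¹ * (-Sx) ∈ V := by
      rw [← smul_eq_C_mul]
      exact V.smul_mem _ (Submodule.neg_mem _ (hSx τ))
    have hv₂ : -(C (τ⁻¹ * γ) * (-Sx)) - Sy ∈ V := by
      refine Submodule.sub_mem _ (Submodule.neg_mem _ ?_) (hSy τ)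
      rw [← smul_eq_C_mul]
      exact V.smul_mem _ (Submodule.neg_mem _ (hSx τ))
    set v₁ := C τ⁻¹ * (-Sx) with hv₁def
    set v₂ := -(C (τ⁻¹ * γ) * (-Sx)) - Sy with hv₂def
    set P := Pτ α β γ τ with hP
    have hP0 : P 0 ≠ 0 := hτ0
    have hval : ∀ i, eval P (D i (L1 P * v₁ + L2 P * v₂)) = 0 := by
      intro i
      rw [← h1, hP, ← eval_Vl, hmain i, Polynomial.eval_zero]
    rw [h1] at hmemS
    obtain ⟨y₀, hy₀, h2, h3⟩ := cI.rel_koszul hD hP0 (hV hv₁) (hV hv₂) hmemS hval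
    have hlinP : ∀ {m : MvPolynomial (Fin 3) K}, m ∈ Hd K 1 → m * y₀ ∈ Hd K (n + 1) := by
      intro m hm
      have := Hd_mul_mem hm hy₀
      rwa [add_comm] at this
    have h4 : L2 P * y₀ ∈ V := by
      have h5 : v₁ - L2 P * y₀ ∈ V := hIV (mem_degPart.mpr ⟨h2,
        Submodule.sub_mem _ (hV hv₁) (hlinP (L2_mem P))⟩)
      have h6 := Submodule.sub_mem _ hv₁ h5
      rwa [sub_sub_cancel] at h6
    have h5 : L1 P * y₀ ∈ V := by
      have h6 : v₂ + L1 P * y₀ ∈ V := hIV (mem_degPart.mpr ⟨h3,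
        Submodule.add_mem _ (hV hv₂) (hlinP (L1_mem P))⟩)
      have h7 := Submodule.sub_mem _ h6 hv₂
      rwa [add_sub_cancel_left] at h7
    have hy₀T := hcolon P hτΓ hP0 y₀ hy₀ h5 h4
    have h6 : Sy - L * (C τ * y₀) ∈ I := by
      have h7 : Sy - L * (C τ * y₀) = -(C γ * (v₁ - L2 P * y₀)) - (v₂ + L1 P * y₀) := by
        have h8 : C τ * L = L1 P - C γ * L2 P := line_lF α β γ τ
        have h9 : L * (C τ * y₀) = (L1 P - C γ * L2 P) * y₀ := by
          rw [← h8]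
          ring
        rw [h9, hv₁def, hv₂def, C_mul]
        have h10 : (C γ * (C τ⁻¹ * -Sx) : MvPolynomial (Fin 3) K) = C τ⁻¹ * C γ * -Sx := by ring
        linear_combination h10
      rw [h7]
      exact Ideal.sub_mem _ (Ideal.neg_mem_iff _ |>.mpr (Ideal.mul_mem_left _ _ h2)) h3
    have h7 : q Sy = ℓ (q (C τ * y₀)) := by
      rw [hℓ]
      have h8 : q (Sy - L * (C τ * y₀)) = 0 := qm_eq_zero.mpr h6
      rwa [map_sub, sub_eq_zero] at h8
    have h8 : q Sy = ∑ k ∈ Finset.range (N + 1), τ ^ k • ((ub k : _) : _ ⧸ I) := by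
      rw [hSydef, map_sum]
      refine Finset.sum_congr rfl fun k _ => ?_
      rw [map_smul, hyq]
    rw [← h8]
    refine hX₂Y _ ?_ ?_
    · rw [h8]
      exact Submodule.sum_mem _ fun k _ => X₂.smul_mem _ (ub k).2
    · rw [h7]
      refine ⟨q (C τ * y₀), ⟨C τ * y₀, ?_, rfl⟩, rfl⟩
      rw [← smul_eq_C_mul]
      exact (colon V n).smul_mem _ hy₀T
  have hk₁' : ((ub k₁ : _) : _ ⧸ I) ≠ 0 := fun h => hk₁ (Subtype.ext h)
  obtain ⟨η, hη⟩ : ∃ η : Module.Dual K (MvPolynomial (Fin 3) K ⧸ I), η (ub k₁ : _ ⧸ I) ≠ 0 := by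
    by_contra hc
    push Not at hc
    exact hk₁' ((Module.forall_dual_apply_eq_zero_iff K _).mp hc)
  have hkN : k₁ < N := by
    by_contra hc
    exact hk₁ (hub0 k₁ (by omega))
  let R : Polynomial K := ∑ k ∈ Finset.range (N + 1), Polynomial.C (η (ub k : _ ⧸ I)) * Polynomial.X ^ k
  have hR : R = 0 := by
    refine poly_zero_of_good (G := Polynomial.X * piC α β γ Γ)
      (mul_ne_zero Polynomial.X_ne_zero hΓ) fun τ hτ => ?_
    rw [Polynomial.eval_mul, Polynomial.eval_X] at hτ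
    have h1 := hzero τ (left_ne_zero_of_mul hτ) (right_ne_zero_of_mul hτ)
    have h2 := congrArg η h1
    rw [map_sum, map_zero] at h2
    rw [← h2, Polynomial.eval_finset_sum]
    refine Finset.sum_congr rfl fun k _ => ?_
    rw [map_smul, smul_eq_mul, Polynomial.eval_mul, Polynomial.eval_C, Polynomial.eval_pow,
      Polynomial.eval_X, mul_comm]
  have h1 := congrArg (fun r => Polynomial.coeff r k₁) hR
  simp only [R, Polynomial.finset_sum_coeff, Polynomial.coeff_C_mul_X_pow, Polynomial.coeff_zero] at h1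
  rw [Finset.sum_ite_eq, if_pos (Finset.mem_range.mpr (by omega))] at h1
  exact hη h1

/-- The estimate for the degree of a primitive syzygy. -/
theorem chern [Infinite K] (cI : CI f g h a b c) (hD : IsDec D f g h a b c (n + 2))
    {V : Submodule K (MvPolynomial (Fin 3) K)} (hV : V ≤ Hd K (n + 1))
    (hIV : degPart (II f g h) (n + 1) ≤ V)
    {Γ : MvPolynomial (Fin 3) K} (hΓ0 : Γ ≠ 0) {E : ℕ} (hΓm : Γ ∈ Hd K E)
    {W : Fin 3 → MvPolynomial (Fin 3) K} {D' : ℕ} (hW0 : ∃ i, W i ≠ 0)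
    (hWm : ∀ i, W i ∈ Pt K D' (![a, b, c] i)) (hsyz : W 0 * f + W 1 * g + W 2 * h = 0)
    (hprim : ∀ d, (∀ i, d ∣ W i) → IsUnit d)
    (hcross : ∀ P : Fin 3 → K, eval P Γ ≠ 0 → P 0 ≠ 0 → ∀ v₁ ∈ V, ∀ v₂ ∈ V,
      L1 P * v₁ + L2 P * v₂ ∈ II f g h → ∀ i k,
        eval P (D i (L1 P * v₁ + L2 P * v₂)) * eval P (W k)
          = eval P (D k (L1 P * v₁ + L2 P * v₂)) * eval P (W i))
    (hcolon : ∀ P : Fin 3 → K, eval P Γ ≠ 0 → P 0 ≠ 0 → ∀ y ∈ Hd K n, L1 P * y ∈ V → L2 P * y ∈ V →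
      y ∈ colon V n)
    (hn : n + 2 < a + b)
    (hcount : (finrank K (up (II f g h) V (n + 1)) - finrank K (degPart (II f g h) (n + 2)))
      + (finrank K (colon V n) - finrank K (degPart (II f g h) n)) + 1
        ≤ 2 * (finrank K V - finrank K (degPart (II f g h) (n + 1)))) :
    a + b ≤ (finrank K V - finrank K (degPart (II f g h) (n + 1)))
        - (finrank K (colon V n) - finrank K (degPart (II f g h) n)) + n + 2 := by
  obtain ⟨i₀, hi₀⟩ := hW0
  have hD' : a + b ≤ D' := by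
    by_contra hc
    obtain ⟨z0, z1, z2⟩ := cI.low_syz (hWm 0) (hWm 1) (hWm 2) (by omega) hsyz
    fin_cases i₀
    · exact hi₀ z0
    · exact hi₀ z1
    · exact hi₀ z2
  have hWd : ∀ i, W i ∈ Hd K (D' - ![a, b, c] i) := by
    intro i
    by_cases hi : ![a, b, c] i ≤ D'
    · have := hWm i
      rwa [Pt_of_le hi] at this
    · have := hWm i
      rw [Pt_of_lt (by omega), Submodule.mem_bot] at this
      rw [this]
      exact Submodule.zero_mem _
  have he : ![a, b, c] i₀ ≤ D' := by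
    by_contra hc
    have := hWm i₀
    rw [Pt_of_lt (by omega), Submodule.mem_bot] at this
    exact hi₀ this
  obtain ⟨α, β, hpt⟩ := exists_point (hWd i₀) hi₀
  obtain ⟨c₀, ρ, e', hρ0, hρm, hsum, hconst⟩ := bezout_line α β W _ hWd hprim hpt
  have hprod : Γ * tF β * ρ ≠ 0 := mul_ne_zero (mul_ne_zero hΓ0 (tF_ne_zero β)) hρ0
  obtain ⟨P₁, hP₁⟩ := exists_eval_ne hprod
  rw [map_mul, map_mul] at hP₁
  have hr : eval P₁ (tF β) ≠ 0 := right_ne_zero_of_mul (left_ne_zero_of_mul hP₁)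
  have hP₁Γ : eval P₁ Γ ≠ 0 := left_ne_zero_of_mul (left_ne_zero_of_mul hP₁)
  have hP₁ρ : eval P₁ ρ ≠ 0 := right_ne_zero_of_mul hP₁
  set r := eval P₁ (tF β) with hrdef
  let P₂ : Fin 3 → K := fun i => r⁻¹ * P₁ i
  have hP₂Γ : eval P₂ Γ ≠ 0 := by
    rw [eval_scale hΓm]
    exact mul_ne_zero (pow_ne_zero _ (inv_ne_zero hr)) hP₁Γ
  have hP₂ρ : eval P₂ ρ ≠ 0 := by
    rw [eval_scale hρm]
    exact mul_ne_zero (pow_ne_zero _ (inv_ne_zero hr)) hP₁ρ
  have hP₂t : eval P₂ (tF β) = 1 := by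
    rw [eval_scale (tF_mem β), pow_one, ← hrdef, inv_mul_cancel₀ hr]
  have hP₂t' : P₂ 2 - β * P₂ 0 = 1 := by
    have := hP₂t
    simpa [tF] using this
  set γ := P₂ 1 - α * P₂ 0 with hγ
  have hP₂eq : P₂ = ![P₂ 0, α * P₂ 0 + γ, β * P₂ 0 + 1] := by
    funext i
    fin_cases i
    · rfl
    · simp only [Fin.mk_one, Matrix.cons_val_one, Matrix.cons_val_zero, hγ]
      ring
    · simp only [Fin.reduceFinMk, Matrix.cons_val]
      linear_combination hP₂t'
  have hevalP : ∀ u : MvPolynomial (Fin 3) K, (piC α β γ u).eval (P₂ 0) = eval P₂ u := by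
    intro u
    rw [eval_piC, ← hP₂eq]
  have hΓ' : piC α β γ Γ ≠ 0 := by
    intro h0
    apply hP₂Γ
    rw [← hevalP, h0, Polynomial.eval_zero]
  have hdeg := natDegree_pi γ (hWd i₀) hpt
  have hW0' : piC α β γ (W i₀) ≠ 0 := by
    intro h0
    have h1 := (piC_deg α β γ _ (hWd i₀)).2
    rw [h0, Polynomial.coeff_zero] at h1
    exact hpt h1.symm
  obtain ⟨ρ₀, hρ₀⟩ := hconst γ
  have hρ₀0 : ρ₀ ≠ 0 := by
    intro h0
    apply hP₂ρ
    rw [← hevalP, hρ₀, h0, map_zero, Polynomial.eval_zero]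
  have hB : piC α β γ (c₀ 0) * piC α β γ (W 0) + piC α β γ (c₀ 1) * piC α β γ (W 1)
      + piC α β γ (c₀ 2) * piC α β γ (W 2) = Polynomial.C ρ₀ := by
    rw [← hρ₀, ← hsum]
    simp only [map_add, map_mul]
  have hfin := pencil_main (p := fun k => piC α β γ (c₀ k)) cI hD hV hIV hcross hcolon hΓ' hW0' hρ₀0 hB hn hcount
  rw [hdeg] at hfin
  omega

end Line

end Vale.Agent.Lib.P200.All
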