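import Vale.Agent.Lib.P200.All.Fam

namespace Vale.Agent.Lib.P200.All

open MvPolynomial Module Fam Gen

variable {K : Type*} [Field K] {f g h : MvPolynomial (Fin 3) K} {a b c : ℕ}

/-- The growth statement for one subspace. -/
def EE (I : Ideal (MvPolynomial (Fin 3) K)) (e : T3) (V : Submodule K (MvPolynomial (Fin 3) K))
    (d : ℕ) : Prop :=
  finrank K (degPart I (d + 1)) + GS e d (finrank K V - finrank K (degPart I d))
    ≤ finrank K (up I V d)

/-- The measure for the induction. -/
noncomputable def MS (I : Ideal (MvPolynomial (Fin 3) K)) (e : T3)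
    (V : Submodule K (MvPolynomial (Fin 3) K)) (d : ℕ) : ℕ :=
  (finrank K (up I V d) - finrank K (degPart I (d + 1)))
    + ((outE e d).card - (finrank K V - finrank K (degPart I d)))

/-- A subspace is closed if it is the colon of the subspace it generates. -/
def Closed (I : Ideal (MvPolynomial (Fin 3) K)) (V : Submodule K (MvPolynomial (Fin 3) K))
    (d : ℕ) : Prop := colon (up I V d) d ≤ V

namespace CI

section Base

variable (cI : CI f g h a b c)

include cI

lemma hdim (n : ℕ) : finrank K (degPart (II f g h) n) + (outE (a, b, c) n).card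
    = finrank K (Hd K n) := by
  rw [outsideP_eq, finrank_Hd]
  exact (finrank_all cI.reg cI.hf cI.hg cI.hh cI.a_pos cI.b_pos n).2.2

lemma le_colon_up {V : Submodule K (MvPolynomial (Fin 3) K)} {d : ℕ} (hV : V ≤ Hd K d) :
    V ≤ colon (up (II f g h) V d) d :=
  fun v hv => ⟨hV hv, fun i => mul_mem_up d (X_mem_Hd i) hv⟩

lemma up_colon_up {V : Submodule K (MvPolynomial (Fin 3) K)} {d : ℕ} (hV : V ≤ Hd K d) :
    up (II f g h) (colon (up (II f g h) V d) d) d = up (II f g h) V d := by
  refine le_antisymm (sup_le (Submodule.mul_le.mpr fun m hm v hv => lin_mul_mem hv.2 hm)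
    le_sup_right) (up_mono (cI.le_colon_up hV) d)

lemma degPart_le_colon_up {V : Submodule K (MvPolynomial (Fin 3) K)} {d : ℕ}
    (hIV : degPart (II f g h) d ≤ V) (hV : V ≤ Hd K d) :
    degPart (II f g h) d ≤ colon (up (II f g h) V d) d :=
  hIV.trans (cI.le_colon_up hV)

/-- Growth for a subspace follows from growth for its closure. -/
lemma EE_of_clo {V : Submodule K (MvPolynomial (Fin 3) K)} {d : ℕ} (hV : V ≤ Hd K d)
    (hIV : degPart (II f g h) d ≤ V)
    (hE : EE (II f g h) (a, b, c) (colon (up (II f g h) V d) d) d) :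
    EE (II f g h) (a, b, c) V d := by
  unfold EE at *
  rw [cI.up_colon_up hV] at hE
  have h1 : finrank K V ≤ finrank K (colon (up (II f g h) V d) d) :=
    finrank_mono_Hd (cI.le_colon_up hV) (colon_le _ _)
  have h2 := GS_mono (a, b, c) d (q := finrank K V - finrank K (degPart (II f g h) d))
    (q' := finrank K (colon (up (II f g h) V d) d) - finrank K (degPart (II f g h) d)) (by omega)
  omega

/-- The closure has smaller measure. -/
lemma MS_clo_lt {V : Submodule K (MvPolynomial (Fin 3) K)} {d : ℕ} (hV : V ≤ Hd K d)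
    (hIV : degPart (II f g h) d ≤ V) (hc : ¬ Closed (II f g h) V d) :
    MS (II f g h) (a, b, c) (colon (up (II f g h) V d) d) d < MS (II f g h) (a, b, c) V d := by
  unfold MS
  rw [cI.up_colon_up hV]
  have h1 : V < colon (up (II f g h) V d) d := lt_of_le_of_ne (cI.le_colon_up hV) fun he =>
    hc (by unfold Closed; rw [← he])
  have := fin_of_le (colon_le (up (II f g h) V d) d)
  have h2 := Submodule.finrank_lt_finrank_of_lt h1
  have h3 := finrank_mono_Hd hIV hV
  have h4 := finrank_mono_Hd (colon_le (up (II f g h) V d) d) (le_refl _)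
  have h5 := cI.hdim d
  omega

/-- The step given by a polynomial functional. -/
theorem move1 [Infinite K] {d E : ℕ} {V : Submodule K (MvPolynomial (Fin 3) K)} (hV : V ≤ Hd K d)
    (hIV : degPart (II f g h) d ≤ V)
    (Ξ Z : MvPolynomial (Fin 3) K →ₗ[K] MvPolynomial (Fin 3) K) (hZ : ∀ v ∈ V, Z v ∈ Hd K E)
    (hΞ : ∀ s ∈ Hd K 1, ∀ v ∈ V, Ξ (s * v) = s * Z v)
    (hI : ∀ x ∈ degPart (II f g h) (d + 1), Ξ x = 0) (hne : ∃ v ∈ V, Z v ≠ 0) :
    V ⊓ LinearMap.ker Z ≤ Hd K d ∧ degPart (II f g h) d ≤ V ⊓ LinearMap.ker Z ∧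
      MS (II f g h) (a, b, c) (V ⊓ LinearMap.ker Z) d < MS (II f g h) (a, b, c) V d ∧
      (EE (II f g h) (a, b, c) (V ⊓ LinearMap.ker Z) d → EE (II f g h) (a, b, c) V d) := by
  have hfV := fin_of_le hV
  have hUle : up (II f g h) V d ≤ Hd K (d + 1) := up_le hV
  have hfU := fin_of_le hUle
  have hV₁ : V ⊓ LinearMap.ker Z ≤ Hd K d := inf_le_left.trans hV
  have hIV₁ : degPart (II f g h) d ≤ V ⊓ LinearMap.ker Z := by
    intro x hx
    refine ⟨hIV hx, ?_⟩
    rw [SetLike.mem_coe, LinearMap.mem_ker]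
    have h1 := hΞ (X 0) (X_mem_Hd 0) x (hIV hx)
    rw [hI _ (lin_mul_degPart (X_mem_Hd 0) hx)] at h1
    exact (mul_eq_zero.mp h1.symm).resolve_left (X_ne_zero _)
  have h1 := finrank_map_add_inf_ker Z V
  have h2 := finrank_map_add_inf_ker Ξ (up (II f g h) V d)
  have hX₀ : V.map Z ≤ Hd K E := by
    rintro _ ⟨v, hv, rfl⟩
    exact hZ v hv
  have h3 : Hd K 1 * V.map Z ≤ (up (II f g h) V d).map Ξ := by
    refine Submodule.mul_le.mpr ?_
    rintro s hs _ ⟨v, hv, rfl⟩
    exact ⟨s * v, mul_mem_up d hs hv, hΞ s hs v hv⟩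
  have h4 : up (II f g h) (V ⊓ LinearMap.ker Z) d ≤ up (II f g h) V d ⊓ LinearMap.ker Ξ := by
    refine le_inf (up_mono inf_le_left d) (sup_le (Submodule.mul_le.mpr fun s hs v hv => ?_)
      fun x hx => hI x hx)
    rw [LinearMap.mem_ker, hΞ s hs v hv.1, show Z v = 0 from hv.2, mul_zero]
  have h5 : 1 ≤ finrank K (V.map Z) := by
    obtain ⟨v, hv, hv0⟩ := hne
    rw [Submodule.one_le_finrank_iff]
    intro h0
    have h1 : Z v ∈ V.map Z := Submodule.mem_map_of_mem hv
    rw [h0, Submodule.mem_bot] at h1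
    exact hv0 h1
  obtain ⟨k, hk1, hk2, hk3⟩ := exists_kappa h5
  have h6 := macaulay_all hX₀ hk1 hk2
  have h7 : finrank K ↥(Hd K 1 * V.map Z) ≤ finrank K ((up (II f g h) V d).map Ξ) :=
    Submodule.finrank_mono h3
  have h8 : finrank K ↥(up (II f g h) (V ⊓ LinearMap.ker Z) d)
      ≤ finrank K ↥(up (II f g h) V d ⊓ LinearMap.ker Ξ) :=
    finrank_mono_Hd h4 (inf_le_left.trans hUle)
  have h9 := finrank_mono_Hd hIV₁ hV₁
  have h10 := finrank_mono_Hd (degPart_le_up (I := II f g h) (V ⊓ LinearMap.ker Z) d)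
    (up_le hV₁)
  have h11 := finrank_mono_Hd hV (le_refl _)
  have h12 := cI.hdim d
  have hN := N_1 (a := a) (b := b) (c := c) (d := d)
    (q := finrank K ↥(V ⊓ LinearMap.ker Z) - finrank K (degPart (II f g h) d))
    (x := finrank K (V.map Z)) (k := k) cI.hab cI.hbc hk3
  refine ⟨hV₁, hIV₁, ?_, fun hE => ?_⟩
  · unfold MS
    omega
  · unfold EE at hE ⊢
    have h13 : finrank K V - finrank K (degPart (II f g h) d)
        = (finrank K ↥(V ⊓ LinearMap.ker Z) - finrank K (degPart (II f g h) d))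
          + finrank K (V.map Z) := by omega
    rw [h13]
    omega

end Base

section Pairing

variable (cI : CI f g h a b c) {l : MvPolynomial (Fin 3) K →ₗ[K] K} {s : ℕ}
  (hs : a + b + c = s + 3)
  (hl : ∀ g' ∈ Hd K s, l g' = 0 ↔ g' ∈ degPart (II f g h) s)

lemma perp_le' (V : Submodule K (MvPolynomial (Fin 3) K)) (e : ℕ) : perp l V e ≤ Hd K e :=
  fun _ hx => hx.1

include cI hs hl

lemma l_of_mem {x : MvPolynomial (Fin 3) K} (hx : x ∈ degPart (II f g h) s) : l x = 0 :=
  (hl x (mem_degPart.mp hx).2).mpr hx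

lemma l_mul_I {d e : ℕ} (hde : d + e = s) {x y : MvPolynomial (Fin 3) K}
    (hx : x ∈ degPart (II f g h) d) (hy : y ∈ Hd K e) : l (x * y) = 0 :=
  cI.l_of_mem hs hl (degPart_mul hde hx hy)

lemma degPart_le_perp {d e : ℕ} (hde : d + e = s) {V : Submodule K (MvPolynomial (Fin 3) K)}
    (hV : V ≤ Hd K d) : degPart (II f g h) e ≤ perp l V e := by
  intro w hw
  refine ⟨(mem_degPart.mp hw).2, fun u hu => ?_⟩
  rw [mul_comm]
  exact cI.l_mul_I hs hl (by omega) hw (hV hu)

lemma finrank_perp' {d e : ℕ} (hde : d + e = s) {V : Submodule K (MvPolynomial (Fin 3) K)}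
    (hV : V ≤ Hd K d) (hIV : degPart (II f g h) d ≤ V) :
    finrank K (perp l V e) + finrank K V
      = finrank K (Hd K e) + finrank K (degPart (II f g h) d) :=
  finrank_perpG cI.reg cI.hf cI.hg cI.hh hs hl hde hV hIV

lemma card_sym {d e : ℕ} (hde : d + e = s) : (outE (a, b, c) d).card = (outE (a, b, c) e).card :=
  card_symm (by simpa using hs) hde

/-- The double orthogonal. -/
lemma perp_perp {d e : ℕ} (hde : d + e = s) {V : Submodule K (MvPolynomial (Fin 3) K)}
    (hV : V ≤ Hd K d) (hIV : degPart (II f g h) d ≤ V) : perp l (perp l V e) d = V := by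
  symm
  refine eq_of_le_finrank (perp_le' _ _) (fun v hv => ⟨hV hv, fun u hu => ?_⟩) ?_
  · rw [mul_comm]
    exact hu.2 v hv
  · have h1 := cI.finrank_perp' hs hl hde hV hIV
    have h2 := cI.finrank_perp' hs hl (l := l) (d := e) (e := d) (by omega) (perp_le' V e)
      (cI.degPart_le_perp hs hl hde hV)
    have h3 := cI.hdim d
    have h4 := cI.hdim e
    have h5 := cI.card_sym hs hl hde
    omega

/-- The orthogonal of the generated subspace is the colon of the orthogonal. -/
lemma perp_up {d e : ℕ} (hde : d + 1 + e = s) {V : Submodule K (MvPolynomial (Fin 3) K)} :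
    perp l (up (II f g h) V d) e = colon (perp l V (e + 1)) e := by
  ext t
  constructor
  · rintro ⟨h1, h2⟩
    refine ⟨h1, fun i => ⟨?_, fun u hu => ?_⟩⟩
    · have := Hd_mul_mem (X_mem_Hd (K := K) i) h1
      rwa [add_comm] at this
    · have h3 := h2 _ (mul_mem_up d (X_mem_Hd i) hu)
      rwa [show X i * u * t = u * (X i * t) by ring] at h3
  · rintro ⟨h1, h2⟩
    refine ⟨h1, fun u hu => ?_⟩
    obtain ⟨u₁, hu₁, u₂, hu₂, rfl⟩ := Submodule.mem_sup.mp hu
    rw [add_mul, map_add, cI.l_mul_I hs hl (by omega) hu₂ h1, add_zero]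
    clear hu
    induction hu₁ using Submodule.mul_induction_on' with
    | mem_mul_mem m hm v hv =>
      have h3 := (lin_mul_mem h2 hm).2 v hv
      rwa [show v * (m * t) = m * v * t by ring] at h3
    | add x _ y _ hx hy =>
      rw [add_mul, map_add, hx, hy, add_zero]

lemma degPart_le_perp_up {d e : ℕ} (hde : d + 1 + e = s) {V : Submodule K (MvPolynomial (Fin 3) K)}
    (hV : V ≤ Hd K d) : degPart (II f g h) e ≤ perp l (up (II f g h) V d) e :=
  cI.degPart_le_perp hs hl (by omega) (up_le hV)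

/-- The subspace generated by the dual of a closed subspace. -/
theorem up_dual {d e : ℕ} (hde : d + 1 + e = s) {V : Submodule K (MvPolynomial (Fin 3) K)}
    (hV : V ≤ Hd K d) (hIV : degPart (II f g h) d ≤ V) (hc : Closed (II f g h) V d) :
    up (II f g h) (perp l (up (II f g h) V d) e) e = perp l V (e + 1) := by
  set Z := perp l (up (II f g h) V d) e with hZ
  have hZle : Z ≤ Hd K e := perp_le' _ _
  have hIZ : degPart (II f g h) e ≤ Z := cI.degPart_le_perp_up hs hl hde hV
  have h1 : perp l (up (II f g h) Z e) d = colon (perp l Z (d + 1)) d :=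
    cI.perp_up hs hl (by omega)
  have h2 : perp l Z (d + 1) = up (II f g h) V d :=
    cI.perp_perp hs hl (by omega) (up_le hV) (degPart_le_up V d)
  have h3 : perp l (up (II f g h) Z e) d = V := by
    rw [h1, h2]
    exact le_antisymm hc (cI.le_colon_up hV)
  have h4 := cI.perp_perp hs hl (l := l) (d := e + 1) (e := d) (by omega)
    (V := up (II f g h) Z e) (up_le hZle) (degPart_le_up Z e)
  rw [h3] at h4
  exact h4.symm

/-- The dual of a closed subspace is closed. -/
theorem closed_dual {d e : ℕ} (hde : d + 1 + e = s) {V : Submodule K (MvPolynomial (Fin 3) K)}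
    (hV : V ≤ Hd K d) (hIV : degPart (II f g h) d ≤ V) (hc : Closed (II f g h) V d) :
    Closed (II f g h) (perp l (up (II f g h) V d) e) e := by
  unfold Closed
  rw [cI.up_dual hs hl hde hV hIV hc, cI.perp_up hs hl hde]

/-- Growth for the dual subspace gives growth for a closed subspace. -/
theorem EE_dual {d e : ℕ} (hde : d + 1 + e = s) {V : Submodule K (MvPolynomial (Fin 3) K)}
    (hV : V ≤ Hd K d) (hIV : degPart (II f g h) d ≤ V) (hc : Closed (II f g h) V d)
    (hE : EE (II f g h) (a, b, c) (perp l (up (II f g h) V d) e) e) :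
    EE (II f g h) (a, b, c) V d := by
  unfold EE at hE ⊢
  rw [cI.up_dual hs hl hde hV hIV hc] at hE
  set Z := perp l (up (II f g h) V d) e with hZ
  have hZle : Z ≤ Hd K e := perp_le' _ _
  have hIZ : degPart (II f g h) e ≤ Z := cI.degPart_le_perp_up hs hl hde hV
  have h1 : finrank K Z + finrank K (up (II f g h) V d)
      = finrank K (Hd K e) + finrank K (degPart (II f g h) (d + 1)) :=
    cI.finrank_perp' hs hl (by omega) (up_le hV) (degPart_le_up V d)
  have h2 := cI.finrank_perp' hs hl (l := l) (e := e + 1) (by omega : d + (e + 1) = s) hV hIV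
  have h3 := finrank_mono_Hd hIV hV
  have h4 := finrank_mono_Hd hIZ hZle
  have h5 := finrank_mono_Hd hZle (le_refl _)
  have h6 := cI.hdim e
  have h7 := cI.hdim (e + 1)
  have hD := GS_dual (e := (a, b, c)) (s := s) (by simpa using hs) hde
    (v := finrank K V - finrank K (degPart (II f g h) d))
    (t := finrank K Z - finrank K (degPart (II f g h) e)) (by omega) (by omega)
  omega

/-- The measure of the dual of a closed subspace. -/
theorem MS_dual {d e : ℕ} (hde : d + 1 + e = s) {V : Submodule K (MvPolynomial (Fin 3) K)}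
    (hV : V ≤ Hd K d) (hIV : degPart (II f g h) d ≤ V) (hc : Closed (II f g h) V d) :
    MS (II f g h) (a, b, c) (perp l (up (II f g h) V d) e) e = MS (II f g h) (a, b, c) V d := by
  unfold MS
  rw [cI.up_dual hs hl hde hV hIV hc]
  set Z := perp l (up (II f g h) V d) e with hZ
  have hZle : Z ≤ Hd K e := perp_le' _ _
  have hIZ : degPart (II f g h) e ≤ Z := cI.degPart_le_perp_up hs hl hde hV
  have h1 : finrank K Z + finrank K (up (II f g h) V d)
      = finrank K (Hd K e) + finrank K (degPart (II f g h) (d + 1)) :=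
    cI.finrank_perp' hs hl (by omega) (up_le hV) (degPart_le_up V d)
  have h2 := cI.finrank_perp' hs hl (l := l) (e := e + 1) (by omega : d + (e + 1) = s) hV hIV
  have h3 := finrank_mono_Hd hIV hV
  have h4 := finrank_mono_Hd hIZ hZle
  have h5 := finrank_mono_Hd hZle (le_refl _)
  have h6 := cI.hdim e
  have h7 := cI.hdim (e + 1)
  have h8 := cI.hdim d
  have h9 := cI.card_sym hs hl (by omega : d + (e + 1) = s)
  have h10 := finrank_mono_Hd (degPart_le_up (I := II f g h) V d) (up_le hV)
  have h11 := finrank_mono_Hd (up_le (I := II f g h) hV) (le_refl _)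
  have h12 := cI.hdim (d + 1)
  have h13 := cI.card_sym hs hl (by omega : d + 1 + e = s)
  omega

end Pairing

end CI

end Vale.Agent.Lib.P200.All
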