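import Vale.Agent.Lib.P200.All.Tower

namespace Vale.Agent.Lib.P200.All

open MvPolynomial Module Fam Gen

variable {K : Type*} [Field K]

/-- A vector valued functional cutting out a subspace of a finite dimensional subspace. -/
lemma exists_functional {A B : Submodule K (MvPolynomial (Fin 3) K)} (hAB : A ≤ B)
    [Module.Finite K B] :
    ∃ (w : ℕ) (φ : MvPolynomial (Fin 3) K →ₗ[K] (Fin w → K)), w + finrank K A = finrank K B ∧
      (∀ x ∈ A, φ x = 0) ∧ (∀ x ∈ B, φ x = 0 → x ∈ A) ∧ ∀ y, ∃ x ∈ B, φ x = y := by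
  set A' := A.comap B.subtype with hA'
  have h1 := Submodule.finrank_quotient_add_finrank A'
  have h2 : finrank K A' = finrank K A := (Submodule.comapSubtypeEquivOfLe hAB).finrank_eq
  set w := finrank K (B ⧸ A') with hw
  let bb := Module.finBasisOfFinrankEq K (B ⧸ A') hw.symm
  let ψ : B →ₗ[K] (Fin w → K) := bb.equivFun.toLinearMap ∘ₗ A'.mkQ
  obtain ⟨φ, hφ⟩ := LinearMap.exists_extend ψ
  have hφ' : ∀ x : B, φ x.1 = ψ x := fun x => LinearMap.congr_fun hφ x
  refine ⟨w, φ, by omega, ?_, ?_, ?_⟩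
  · intro x hx
    rw [hφ' ⟨x, hAB hx⟩]
    show bb.equivFun (A'.mkQ ⟨x, hAB hx⟩) = 0
    have : A'.mkQ ⟨x, hAB hx⟩ = 0 := by
      rw [Submodule.mkQ_apply, Submodule.Quotient.mk_eq_zero]
      exact hx
    rw [this, map_zero]
  · intro x hx h0
    rw [hφ' ⟨x, hx⟩] at h0
    have h3 : bb.equivFun (A'.mkQ ⟨x, hx⟩) = 0 := h0
    have h4 : A'.mkQ ⟨x, hx⟩ = 0 := by
      rwa [LinearEquiv.map_eq_zero_iff] at h3
    rw [Submodule.mkQ_apply, Submodule.Quotient.mk_eq_zero] at h4
    exact h4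
  · intro y
    obtain ⟨q, rfl⟩ := bb.equivFun.surjective y
    obtain ⟨x, rfl⟩ := Submodule.mkQ_surjective A' q
    exact ⟨x.1, x.2, hφ' x⟩

section Mat

variable {w n : ℕ} (φ : MvPolynomial (Fin 3) K →ₗ[K] (Fin w → K))
  (bs : Fin n → MvPolynomial (Fin 3) K)

/-- The matrix of linear forms attached to a family of elements. -/
noncomputable def MM : Matrix (Fin w) (Fin n ⊕ Fin n) (MvPolynomial (Fin 3) K) :=
  fun r j => match j with
  | Sum.inl l => C (φ (X 1 * bs l) r) * X 0 - C (φ (X 0 * bs l) r) * X 1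
  | Sum.inr l => C (φ (X 2 * bs l) r) * X 0 - C (φ (X 0 * bs l) r) * X 2

lemma MM_mem (r : Fin w) (j : Fin n ⊕ Fin n) : MM φ bs r j ∈ Hd K 1 := by
  rcases j with l | l
  · exact Submodule.sub_mem _ (C_mul_X_mem _ _) (C_mul_X_mem _ _)
  · exact Submodule.sub_mem _ (C_mul_X_mem _ _) (C_mul_X_mem _ _)

/-- The element of the next degree indexed by `j` at a point. -/
noncomputable def elt (P : Fin 3 → K) : Fin n ⊕ Fin n → MvPolynomial (Fin 3) K :=
  fun j => match j with
  | Sum.inl l => L1 P * bs l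
  | Sum.inr l => L2 P * bs l

lemma L1_mul (P : Fin 3 → K) (v : MvPolynomial (Fin 3) K) :
    L1 P * v = P 0 • (X 1 * v) - P 1 • (X 0 * v) := by
  rw [smul_eq_C_mul, smul_eq_C_mul, L1]
  ring

lemma L2_mul (P : Fin 3 → K) (v : MvPolynomial (Fin 3) K) :
    L2 P * v = P 0 • (X 2 * v) - P 2 • (X 0 * v) := by
  rw [smul_eq_C_mul, smul_eq_C_mul, L2]
  ring

lemma eval_MM (P : Fin 3 → K) (r : Fin w) (j : Fin n ⊕ Fin n) :
    eval P (MM φ bs r j) = φ (elt bs P j) r := by
  rcases j with l | l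
  · show eval P (C _ * X 0 - C _ * X 1) = φ (L1 P * bs l) r
    rw [L1_mul]
    simp only [map_sub, map_smul, map_mul, eval_C, eval_X, Pi.sub_apply, Pi.smul_apply, smul_eq_mul]
    ring
  · show eval P (C _ * X 0 - C _ * X 2) = φ (L2 P * bs l) r
    rw [L2_mul]
    simp only [map_sub, map_smul, map_mul, eval_C, eval_X, Pi.sub_apply, Pi.smul_apply, smul_eq_mul]
    ring

/-- The pair of elements attached to a vector of coefficients. -/
noncomputable def vv (u : Fin n ⊕ Fin n → K) : MvPolynomial (Fin 3) K × MvPolynomial (Fin 3) K :=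
  (∑ l, u (Sum.inl l) • bs l, ∑ l, u (Sum.inr l) • bs l)

lemma sum_elt (P : Fin 3 → K) (u : Fin n ⊕ Fin n → K) :
    ∑ j, u j • elt bs P j = L1 P * (vv bs u).1 + L2 P * (vv bs u).2 := by
  rw [Fintype.sum_sum_type]
  simp only [elt, vv, Finset.mul_sum, mul_smul_comm]

lemma mulVec_eq (P : Fin 3 → K) (u : Fin n ⊕ Fin n → K) (r : Fin w) :
    ∑ j, eval P (MM φ bs r j) * u j = φ (L1 P * (vv bs u).1 + L2 P * (vv bs u).2) r := by
  rw [← sum_elt, map_sum, Finset.sum_apply]
  refine Finset.sum_congr rfl fun j _ => ?_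
  rw [eval_MM, map_smul, Pi.smul_apply, smul_eq_mul, mul_comm]

end Mat

section Main

variable {I : Ideal (MvPolynomial (Fin 3) K)}

lemma elt_mem {V : Submodule K (MvPolynomial (Fin 3) K)} {n d : ℕ}
    {bs : Fin n → MvPolynomial (Fin 3) K} (hb : ∀ l, bs l ∈ V) (P : Fin 3 → K)
    (j : Fin n ⊕ Fin n) : elt bs P j ∈ up I V d := by
  rcases j with l | l
  · exact mul_mem_up d (L1_mem P) (hb l)
  · exact mul_mem_up d (L2_mem P) (hb l)

lemma vv_mem {V : Submodule K (MvPolynomial (Fin 3) K)} {n : ℕ}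
    {bs : Fin n → MvPolynomial (Fin 3) K} (hb : ∀ l, bs l ∈ V) (u : Fin n ⊕ Fin n → K) :
    (vv bs u).1 ∈ V ∧ (vv bs u).2 ∈ V := by
  constructor
  · show ∑ l, u (Sum.inl l) • bs l ∈ V
    exact Submodule.sum_mem _ fun l _ => Submodule.smul_mem _ _ (hb l)
  · show ∑ l, u (Sum.inr l) • bs l ∈ V
    exact Submodule.sum_mem _ fun l _ => Submodule.smul_mem _ _ (hb l)

lemma X0_not_dvd (i : Fin 3) (hi : i ≠ 0) : ¬ (X 0 : MvPolynomial (Fin 3) K) ∣ X i := by
  intro h
  obtain ⟨κ, hκ⟩ := lin_dvd (X_mem_Hd 0) (X_mem_Hd i) h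
  have := congrArg (eval (fun j => if j = 0 then (0 : K) else 1)) hκ
  simp [hi] at this

lemma expand_basis {V : Submodule K (MvPolynomial (Fin 3) K)} [Module.Finite K V] (v : V) :
    (v : MvPolynomial (Fin 3) K)
      = ∑ l, (Module.finBasis K V).repr v l • ((Module.finBasis K V l : V) : MvPolynomial (Fin 3) K) := by
  conv_lhs => rw [← (Module.finBasis K V).sum_repr v]
  rw [Submodule.coe_sum]
  rfl

/-- The generic surjectivity of the two linear forms, or a polynomial functional. -/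
theorem dich {V : Submodule K (MvPolynomial (Fin 3) K)} {d : ℕ} (hV : V ≤ Hd K d) :
    (∃ (E : ℕ) (c : MvPolynomial (Fin 3) K), c ≠ 0 ∧ c ∈ Hd K (E + 1) ∧
      ∀ P, eval P c ≠ 0 → ∀ t ∈ up I V d, ∃ v₁ ∈ V, ∃ v₂ ∈ V, t - (L1 P * v₁ + L2 P * v₂) ∈ I) ∨
    (∃ (E : ℕ) (Ξ Z : MvPolynomial (Fin 3) K →ₗ[K] MvPolynomial (Fin 3) K),
      (∀ v ∈ V, Z v ∈ Hd K E) ∧ (∀ s ∈ Hd K 1, ∀ v ∈ V, Ξ (s * v) = s * Z v) ∧
      (∀ x ∈ degPart I (d + 1), Ξ x = 0) ∧ ∃ v ∈ V, Z v ≠ 0) := by
  have hfV := fin_of_le hV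
  have hU : up I V d ≤ Hd K (d + 1) := up_le hV
  have hfU := fin_of_le hU
  obtain ⟨w, φ, -, hφ1, hφ2, hφ3⟩ := exists_functional (degPart_le_up (I := I) V d)
  let bV := Module.finBasis K V
  let bs : Fin (finrank K V) → MvPolynomial (Fin 3) K := fun l => (bV l : V)
  have hbs : ∀ l, bs l ∈ V := fun l => (bV l).2
  rcases dichotomy (MM φ bs) (MM_mem φ bs) with ⟨E, c, R, hc, hcE, hR⟩ | ⟨E, ξ, hξ, hξE, hξ0⟩
  · left
    refine ⟨E, c, hc, hcE, fun P hP t ht => ?_⟩
    -- the solution of the linear system at the point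
    let u : Fin (finrank K V) ⊕ Fin (finrank K V) → K :=
      fun j => (eval P c)⁻¹ * ∑ r, eval P (R j r) * φ t r
    have hsol : φ (L1 P * (vv bs u).1 + L2 P * (vv bs u).2) = φ t := by
      funext r
      rw [← mulVec_eq]
      have h1 : ∀ r s, ∑ j, eval P (MM φ bs r j) * eval P (R j s)
          = eval P c * (if r = s then 1 else 0) := by
        intro r s
        have h2 := congrFun (congrFun hR r) s
        rw [Matrix.mul_apply] at h2
        have h3 := congrArg (eval P) h2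
        rw [map_sum] at h3
        simp only [map_mul] at h3
        rw [h3]
        simp only [Matrix.smul_apply, Matrix.one_apply, smul_eq_mul, map_mul]
        split_ifs <;> simp
      have h4 : ∑ j, eval P (MM φ bs r j) * u j
          = (eval P c)⁻¹ * ∑ s, (∑ j, eval P (MM φ bs r j) * eval P (R j s)) * φ t s := by
        simp only [u, Finset.mul_sum, Finset.sum_mul]
        rw [Finset.sum_comm]
        refine Finset.sum_congr rfl fun s _ => Finset.sum_congr rfl fun j _ => ?_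
        ring
      rw [h4]
      simp only [h1, mul_ite, mul_one, mul_zero, ite_mul, zero_mul]
      rw [Finset.sum_ite_eq]
      simp only [Finset.mem_univ, if_true]
      field_simp
    obtain ⟨hv1, hv2⟩ := vv_mem hbs u
    refine ⟨_, hv1, _, hv2, ?_⟩
    have h5 : t - (L1 P * (vv bs u).1 + L2 P * (vv bs u).2) ∈ up I V d :=
      Submodule.sub_mem _ ht (Submodule.add_mem _ (mul_mem_up d (L1_mem P) hv1)
        (mul_mem_up d (L2_mem P) hv2))
    have h6 := hφ2 _ h5 (by rw [map_sub, hsol, sub_self])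
    exact (mem_degPart.mp h6).1
  · right
    -- the functional
    let Ξ : MvPolynomial (Fin 3) K →ₗ[K] MvPolynomial (Fin 3) K :=
      ∑ r, (LinearMap.toSpanSingleton K _ (ξ r)) ∘ₗ (LinearMap.proj r) ∘ₗ φ
    have hΞ : ∀ u, Ξ u = ∑ r, φ u r • ξ r := by
      intro u
      simp [Ξ, LinearMap.sum_apply]
    have hΞE : ∀ u, Ξ u ∈ Hd K E := fun u => by
      rw [hΞ]
      exact Submodule.sum_mem _ fun r _ => Submodule.smul_mem _ _ (hξE r)
    have hrel1 : ∀ l, X 0 * Ξ (X 1 * bs l) = X 1 * Ξ (X 0 * bs l) := by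
      intro l
      have h1 := hξ0 (Sum.inl l)
      rw [hΞ, hΞ, Finset.mul_sum, Finset.mul_sum, ← sub_eq_zero, ← Finset.sum_sub_distrib, ← h1]
      refine Finset.sum_congr rfl fun r _ => ?_
      show _ = ξ r * (C _ * X 0 - C _ * X 1)
      rw [smul_eq_C_mul, smul_eq_C_mul]
      ring
    have hrel2 : ∀ l, X 0 * Ξ (X 2 * bs l) = X 2 * Ξ (X 0 * bs l) := by
      intro l
      have h1 := hξ0 (Sum.inr l)
      rw [hΞ, hΞ, Finset.mul_sum, Finset.mul_sum, ← sub_eq_zero, ← Finset.sum_sub_distrib, ← h1]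
      refine Finset.sum_congr rfl fun r _ => ?_
      show _ = ξ r * (C _ * X 0 - C _ * X 2)
      rw [smul_eq_C_mul, smul_eq_C_mul]
      ring
    have hrelV1 : ∀ v ∈ V, X 0 * Ξ (X 1 * v) = X 1 * Ξ (X 0 * v) := by
      intro v hv
      obtain ⟨cc, hcc⟩ : ∃ cc : Fin (finrank K V) → K, v = ∑ l, cc l • bs l :=
        ⟨_, expand_basis ⟨v, hv⟩⟩
      rw [hcc]
      simp only [Finset.mul_sum, mul_smul_comm, map_sum, map_smul]
      exact Finset.sum_congr rfl fun l _ => congrArg _ (hrel1 l)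
    have hrelV2 : ∀ v ∈ V, X 0 * Ξ (X 2 * v) = X 2 * Ξ (X 0 * v) := by
      intro v hv
      obtain ⟨cc, hcc⟩ : ∃ cc : Fin (finrank K V) → K, v = ∑ l, cc l • bs l :=
        ⟨_, expand_basis ⟨v, hv⟩⟩
      rw [hcc]
      simp only [Finset.mul_sum, mul_smul_comm, map_sum, map_smul]
      exact Finset.sum_congr rfl fun l _ => congrArg _ (hrel2 l)
    have hX0 : (X 0 : MvPolynomial (Fin 3) K) ≠ 0 := X_ne_zero _
    have hprime := lin_prime (X_mem_Hd (K := K) 0) hX0
    have hdvd : ∀ v ∈ V, (X 0 : MvPolynomial (Fin 3) K) ∣ Ξ (X 0 * v) := by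
      intro v hv
      have h1 : (X 0 : MvPolynomial (Fin 3) K) ∣ X 1 * Ξ (X 0 * v) := ⟨_, (hrelV1 v hv).symm⟩
      rcases hprime.dvd_or_dvd h1 with h2 | h2
      · exact absurd h2 (X0_not_dvd 1 (by decide))
      · exact h2
    obtain ⟨T, hT⟩ := LinearMap.exists_leftInverse_of_injective
      (LinearMap.mulLeft K (X 0 : MvPolynomial (Fin 3) K)) (by
        rw [LinearMap.ker_eq_bot]
        intro x y hxy
        exact mul_left_cancel₀ hX0 hxy)
    have hT' : ∀ p, T (X 0 * p) = p := fun p => LinearMap.congr_fun hT p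
    let Z : MvPolynomial (Fin 3) K →ₗ[K] MvPolynomial (Fin 3) K :=
      T ∘ₗ Ξ ∘ₗ LinearMap.mulLeft K (X 0)
    have hZ0 : ∀ v ∈ V, Ξ (X 0 * v) = X 0 * Z v := by
      intro v hv
      obtain ⟨p, hp⟩ := hdvd v hv
      show _ = X 0 * T (Ξ (X 0 * v))
      rw [hp, hT']
    have hZ1 : ∀ v ∈ V, Ξ (X 1 * v) = X 1 * Z v := by
      intro v hv
      apply mul_left_cancel₀ hX0
      rw [hrelV1 v hv, hZ0 v hv]
      ring
    have hZ2 : ∀ v ∈ V, Ξ (X 2 * v) = X 2 * Z v := by
      intro v hv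
      apply mul_left_cancel₀ hX0
      rw [hrelV2 v hv, hZ0 v hv]
      ring
    have hZs : ∀ s ∈ Hd K 1, ∀ v ∈ V, Ξ (s * v) = s * Z v := by
      intro s hs v hv
      have e : Hd K 1 = Submodule.span K (Set.range X) := homogeneousSubmodule_one_eq_span_X
      rw [e] at hs
      induction hs using Submodule.span_induction with
      | mem x hx =>
        obtain ⟨i, rfl⟩ := hx
        fin_cases i
        · exact hZ0 v hv
        · exact hZ1 v hv
        · exact hZ2 v hv
      | zero => simp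
      | add x y _ _ h1 h2 =>
        rw [add_mul, add_mul, map_add, h1, h2]
      | smul r x _ h1 =>
        rw [smul_mul_assoc, smul_mul_assoc, map_smul, h1]
    have hΞI : ∀ x ∈ degPart I (d + 1), Ξ x = 0 := by
      intro x hx
      rw [hΞ, hφ1 x hx]
      simp
    have hne : ∃ v ∈ V, Z v ≠ 0 := by
      by_contra hno
      push Not at hno
      have hker : up I V d ≤ LinearMap.ker Ξ := by
        refine sup_le (Submodule.mul_le.mpr fun s hs v hv => ?_) (fun x hx => hΞI x hx)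
        rw [LinearMap.mem_ker, hZs s hs v hv, hno v hv, mul_zero]
      obtain ⟨r₀, hr₀⟩ : ∃ r, ξ r ≠ 0 := by
        by_contra h0
        push Not at h0
        exact hξ (funext h0)
      obtain ⟨t, ht, hφt⟩ := hφ3 (Pi.single r₀ 1)
      have h1 : Ξ t = 0 := hker ht
      rw [hΞ, hφt, Finset.sum_eq_single r₀] at h1
      · simp at h1
        exact hr₀ h1
      · intro r _ hr
        simp [hr]
      · simp
    have hZE : ∀ v ∈ V, Z v ∈ Pt K E 1 := by
      intro v hv
      have h1 : Z v * X 0 = Ξ (X 0 * v) := by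
        rw [hZ0 v hv, mul_comm]
      have h2 := decomp1 (X_mem_Hd 0) (hΞE (X 0 * v)) h1
      rw [← h1] at h2
      have h3 := mul_right_cancel₀ hX0 h2
      rw [← h3]
      exact cp_mem _ _ _
    obtain ⟨v₀, hv₀, hv₀0⟩ := hne
    have hE : 1 ≤ E := by
      by_contra h0
      have h1 := hZE v₀ hv₀
      rw [Pt_of_lt (by omega)] at h1
      exact hv₀0 ((Submodule.mem_bot K).mp h1)
    obtain ⟨E', rfl⟩ : ∃ E', E = E' + 1 := ⟨E - 1, by omega⟩
    refine ⟨E', Ξ, Z, fun v hv => ?_, hZs, hΞI, v₀, hv₀, hv₀0⟩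
    have h1 := hZE v hv
    rw [Pt_of_le (by omega)] at h1
    simpa using h1

/-- The relations at a generic point come from polynomial families. -/
theorem families {V : Submodule K (MvPolynomial (Fin 3) K)} {d : ℕ} (hV : V ≤ Hd K d)
    (ee : Fin 3 → ℕ) (D : Fin 3 → MvPolynomial (Fin 3) K →ₗ[K] MvPolynomial (Fin 3) K)
    (hD : ∀ i u, D i u ∈ Pt K (d + 1) (ee i)) :
    ∃ (E : ℕ) (c : MvPolynomial (Fin 3) K) (ι : Type) (_ : Fintype ι)
      (W : ι → Fin 3 → MvPolynomial (Fin 3) K),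
      c ≠ 0 ∧ c ∈ Hd K (E + 1) ∧
      (∀ s i, W s i ∈ Pt K (E + d + 3) (ee i)) ∧
      (∀ (P : Fin 3 → K) (s : ι), ∃ v₁ ∈ V, ∃ v₂ ∈ V, L1 P * v₁ + L2 P * v₂ ∈ I ∧
        ∀ i, eval P (W s i) = eval P (D i (L1 P * v₁ + L2 P * v₂))) ∧
      (∀ P : Fin 3 → K, ∀ v₁ ∈ V, ∀ v₂ ∈ V, L1 P * v₁ + L2 P * v₂ ∈ I →
        ∃ α : ι → K, ∀ i, eval P c * eval P (D i (L1 P * v₁ + L2 P * v₂))
          = ∑ s, α s * eval P (W s i)) := by
  classical
  have hfV := fin_of_le hV
  have hU : up I V d ≤ Hd K (d + 1) := up_le hV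
  have hfU := fin_of_le hU
  obtain ⟨w, φ, -, hφ1, hφ2, hφ3⟩ := exists_functional (degPart_le_up (I := I) V d)
  let bV := Module.finBasis K V
  let bs : Fin (finrank K V) → MvPolynomial (Fin 3) K := fun l => (bV l : V)
  have hbs : ∀ l, bs l ∈ V := fun l => (bV l).2
  obtain ⟨E, c, Q, G, hc, hcE, hQE, hMQ, hQ⟩ := kernel_families (MM φ bs) (MM_mem φ bs)
  -- the entries of the values
  let ent : Fin (finrank K V) ⊕ Fin (finrank K V) → Fin 3 → MvPolynomial (Fin 3) K :=
    fun j i => match j with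
    | Sum.inl l => X 0 * D i (X 1 * bs l) - X 1 * D i (X 0 * bs l)
    | Sum.inr l => X 0 * D i (X 2 * bs l) - X 2 * D i (X 0 * bs l)
  have hent : ∀ j i, ent j i ∈ Pt K (d + 2) (ee i) := by
    intro j i
    rcases j with l | l
    · exact Submodule.sub_mem _ (lin_Pt (X_mem_Hd _) (hD _ _)) (lin_Pt (X_mem_Hd _) (hD _ _))
    · exact Submodule.sub_mem _ (lin_Pt (X_mem_Hd _) (hD _ _)) (lin_Pt (X_mem_Hd _) (hD _ _))
  have hentP : ∀ (P : Fin 3 → K) j i, eval P (ent j i) = eval P (D i (elt bs P j)) := by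
    intro P j i
    rcases j with l | l
    · show eval P (X 0 * D i (X 1 * bs l) - X 1 * D i (X 0 * bs l)) = eval P (D i (L1 P * bs l))
      rw [L1_mul]
      simp only [map_sub, map_smul, map_mul, eval_X, smul_eval]
    · show eval P (X 0 * D i (X 2 * bs l) - X 2 * D i (X 0 * bs l)) = eval P (D i (L2 P * bs l))
      rw [L2_mul]
      simp only [map_sub, map_smul, map_mul, eval_X, smul_eval]
  have hsumD : ∀ (P : Fin 3 → K) (u : Fin (finrank K V) ⊕ Fin (finrank K V) → K) i,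
      ∑ j, u j * eval P (ent j i) = eval P (D i (L1 P * (vv bs u).1 + L2 P * (vv bs u).2)) := by
    intro P u i
    rw [← sum_elt, map_sum, map_sum]
    refine Finset.sum_congr rfl fun j _ => ?_
    rw [hentP, map_smul, smul_eval]
  refine ⟨E, c, Fin (finrank K V) ⊕ Fin (finrank K V), inferInstance,
    fun s i => ∑ j, Q j s * ent j i, hc, hcE, ?_, ?_, ?_⟩
  · intro s i
    refine Submodule.sum_mem _ fun j _ => ?_
    have h1 := hent j i
    by_cases h2 : ee i ≤ d + 2
    · rw [Pt_of_le h2] at h1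
      rw [Pt_of_le (by omega)]
      have := Hd_mul_mem (hQE j s) h1
      rwa [show E + 1 + (d + 2 - ee i) = E + d + 3 - ee i by omega] at this
    · by_cases h3 : ee i ≤ E + d + 3
      · rw [Pt_of_lt (by omega)] at h1
        rw [(Submodule.mem_bot K).mp h1, mul_zero]
        exact Submodule.zero_mem _
      · rw [Pt_of_lt (by omega)] at h1
        rw [(Submodule.mem_bot K).mp h1, mul_zero]
        exact Submodule.zero_mem _
  · intro P s
    let u : Fin (finrank K V) ⊕ Fin (finrank K V) → K := fun j => eval P (Q j s)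
    obtain ⟨hv1, hv2⟩ := vv_mem hbs u
    refine ⟨_, hv1, _, hv2, ?_, fun i => ?_⟩
    · have h1 : φ (L1 P * (vv bs u).1 + L2 P * (vv bs u).2) = 0 := by
        funext r
        rw [← mulVec_eq]
        have h2 := congrFun (congrFun hMQ r) s
        rw [Matrix.mul_apply] at h2
        have h3 := congrArg (eval P) h2
        rw [map_sum] at h3
        simp only [map_mul, Matrix.zero_apply, map_zero] at h3
        exact h3
      have h4 : L1 P * (vv bs u).1 + L2 P * (vv bs u).2 ∈ up I V d :=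
        Submodule.add_mem _ (mul_mem_up d (L1_mem P) hv1) (mul_mem_up d (L2_mem P) hv2)
      exact (mem_degPart.mp (hφ2 _ h4 h1)).1
    · rw [map_sum, ← hsumD]
      refine Finset.sum_congr rfl fun j _ => ?_
      rw [map_mul]
  · intro P v₁ hv₁ v₂ hv₂ hι
    let u : Fin (finrank K V) ⊕ Fin (finrank K V) → K :=
      Sum.elim (bV.repr ⟨v₁, hv₁⟩) (bV.repr ⟨v₂, hv₂⟩)
    have hu1 : (vv bs u).1 = v₁ := (expand_basis ⟨v₁, hv₁⟩).symm
    have hu2 : (vv bs u).2 = v₂ := (expand_basis ⟨v₂, hv₂⟩).symm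
    have hdeg : L1 P * v₁ + L2 P * v₂ ∈ Hd K (d + 1) := by
      have h1 := Hd_mul_mem (L1_mem P) (hV hv₁)
      have h2 := Hd_mul_mem (L2_mem P) (hV hv₂)
      rw [add_comm] at h1 h2
      exact Submodule.add_mem _ h1 h2
    have hM0 : ∀ r, ∑ j, eval P (MM φ bs r j) * u j = 0 := by
      intro r
      rw [mulVec_eq, hu1, hu2, hφ1 _ (mem_degPart.mpr ⟨hι, hdeg⟩)]
      rfl
    have hQu : ∀ j, ∑ s, eval P (Q j s) * u s = eval P c * u j := by
      intro j
      have h1 : ∀ s, eval P (Q j s) = eval P c * (if j = s then 1 else 0)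
          - ∑ r, eval P (G j r) * eval P (MM φ bs r s) := by
        intro s
        rw [hQ, Matrix.sub_apply, Matrix.mul_apply, map_sub, map_sum]
        simp only [map_mul, Matrix.smul_apply, Matrix.one_apply, smul_eq_mul]
        split_ifs <;> simp
      simp only [h1, sub_mul, Finset.sum_sub_distrib, Finset.sum_mul, mul_assoc, ite_mul, one_mul,
        zero_mul, mul_ite, mul_zero]
      rw [Finset.sum_ite_eq]
      simp only [Finset.mem_univ, if_true]
      rw [Finset.sum_comm]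
      have h2 : ∑ r, ∑ s, eval P (G j r) * (eval P (MM φ bs r s) * u s) = 0 := by
        refine Finset.sum_eq_zero fun r _ => ?_
        rw [← Finset.mul_sum, hM0, mul_zero]
      rw [h2, sub_zero]
    refine ⟨u, fun i => ?_⟩
    have h1 : eval P (D i (L1 P * v₁ + L2 P * v₂)) = ∑ j, u j * eval P (ent j i) := by
      rw [hsumD, hu1, hu2]
    rw [h1, Finset.mul_sum]
    have h2 : ∀ j, eval P c * (u j * eval P (ent j i))
        = (∑ s, eval P (Q j s) * u s) * eval P (ent j i) := by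
      intro j
      rw [hQu]
      ring
    simp only [h2, map_sum, map_mul, Finset.sum_mul, Finset.mul_sum]
    rw [Finset.sum_comm]
    refine Finset.sum_congr rfl fun s _ => Finset.sum_congr rfl fun j _ => ?_
    ring

end Main

end Vale.Agent.Lib.P200.All
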