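import Vale.Agent.Lib.P200.All.Prim

namespace Vale.Agent.Lib.P200.All

open MvPolynomial Module Fam Gen

variable {K : Type*} [Field K]

section Kron

variable {E M : Type*} [AddCommGroup E] [Module K E] [FiniteDimensional K E] [AddCommGroup M]
  [Module K M]

/-- A polynomial solution of low degree for a pencil of maps into a smaller space. -/
theorem kronecker (F : Submodule K M) [FiniteDimensional K F] (B₀ B₁ : E →ₗ[K] M)
    (h0 : ∀ u, B₀ u ∈ F) (h1 : ∀ u, B₁ u ∈ F) (hdim : finrank K F + 1 ≤ finrank K E) :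
    ∃ ub : ℕ → E, (∃ k, ub k ≠ 0) ∧ (∀ k, finrank K E ≤ k → ub k = 0) ∧ B₀ (ub 0) = 0 ∧
      ∀ k, B₀ (ub (k + 1)) + B₁ (ub k) = 0 := by
  classical
  set q := finrank K E with hq
  let ev : ℕ → (Fin q → E) →ₗ[K] E := fun k =>
    if h : k < q then LinearMap.proj ⟨k, h⟩ else 0
  have hev1 : ∀ (k : ℕ) (h : k < q) (u : Fin q → E), ev k u = u ⟨k, h⟩ := by
    intro k h u
    simp [ev, h]
  have hev2 : ∀ (k : ℕ) (_ : q ≤ k) (u : Fin q → E), ev k u = 0 := by
    intro k h u
    simp [ev, not_lt.mpr h]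
  let B₀' : E →ₗ[K] F := B₀.codRestrict F h0
  let B₁' : E →ₗ[K] F := B₁.codRestrict F h1
  let T : (Fin q → E) →ₗ[K] (Fin (q + 1) → F) := LinearMap.pi fun j =>
    B₀' ∘ₗ ev j.1 + (if j.1 = 0 then 0 else B₁' ∘ₗ ev (j.1 - 1))
  have hT : ∀ (u : Fin q → E) (j : Fin (q + 1)), ((T u j : F) : M)
      = B₀ (ev j.1 u) + (if j.1 = 0 then 0 else B₁ (ev (j.1 - 1) u)) := by
    intro u j
    have h2 : T u j = B₀' (ev j.1 u)
        + (if j.1 = 0 then (0 : (Fin q → E) →ₗ[K] F) else B₁' ∘ₗ ev (j.1 - 1)) u := rfl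
    rw [h2]
    by_cases hj : j.1 = 0
    · rw [if_pos hj, if_pos hj]
      simp [B₀']
    · rw [if_neg hj, if_neg hj]
      rfl
  have hrank : finrank K (Fin (q + 1) → F) < finrank K (Fin q → E) := by
    rw [Module.finrank_pi_fintype, Module.finrank_pi_fintype]
    simp only [Finset.sum_const, Finset.card_univ, Fintype.card_fin, smul_eq_mul]
    rw [← hq]
    set r := finrank K F
    have h2 : r + 1 ≤ q := hdim
    nlinarith
  have hker := LinearMap.ker_ne_bot_of_finrank_lt (f := T) hrank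
  obtain ⟨u, hu, hu0⟩ := (Submodule.ne_bot_iff _).mp hker
  rw [LinearMap.mem_ker] at hu
  refine ⟨fun k => ev k u, ?_, fun k hk => hev2 k hk u, ?_, fun k => ?_⟩
  · obtain ⟨i, hi⟩ := Function.ne_iff.mp hu0
    refine ⟨i.1, ?_⟩
    show ev i.1 u ≠ 0
    rw [hev1 i.1 i.2]
    exact hi
  · have h2 := hT u 0
    rw [hu] at h2
    simpa using h2.symm
  · show B₀ (ev (k + 1) u) + B₁ (ev k u) = 0
    by_cases hk : k < q
    · have h2 := hT u ⟨k + 1, by omega⟩
      rw [hu] at h2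
      simpa using h2.symm
    · rw [hev2 k (by omega), hev2 (k + 1) (by omega), map_zero, map_zero, add_zero]

end Kron

/-- A polynomial vanishing wherever another polynomial does not vanish is zero. -/
lemma poly_zero_of_good [Infinite K] {G R : Polynomial K} (hG : G ≠ 0)
    (h : ∀ τ, G.eval τ ≠ 0 → R.eval τ = 0) : R = 0 := by
  have h1 : G * R = 0 := by
    refine Polynomial.funext fun τ => ?_
    rw [Polynomial.eval_mul, Polynomial.eval_zero]
    by_cases h2 : G.eval τ = 0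
    · rw [h2, zero_mul]
    · rw [h τ h2, mul_zero]
  exact (mul_eq_zero.mp h1).resolve_left hG

section LineIds

variable (α β c : K)

/-- The points of a line of the pencil. -/
abbrev Pτ (τ : K) : Fin 3 → K := ![τ, α * τ + c, β * τ + 1]

lemma line_rel {τ : K} (hτ : τ ≠ 0) (x y : MvPolynomial (Fin 3) K) :
    lF α β c * x + (X 0 - C τ * tF β) * y
      = L1 (Pτ α β c τ) * (C τ⁻¹ * x) + L2 (Pτ α β c τ) * (-(C (τ⁻¹ * c) * x) - y) := by
  have h1 : (C τ * C τ⁻¹ : MvPolynomial (Fin 3) K) = 1 := by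
    rw [← C_mul, mul_inv_cancel₀ hτ, C_1]
  simp only [L1, L2, lF, tF, Pτ, Matrix.cons_val_zero, Matrix.cons_val_one, Matrix.cons_val, C_add, C_mul, C_1]
  linear_combination (-(X 1 - C α * X 0 - C c * X 2 + C c * C β * X 0) * x) * h1

lemma line_lF (τ : K) : C τ * lF α β c = L1 (Pτ α β c τ) - C c * L2 (Pτ α β c τ) := by
  simp only [L1, L2, lF, tF, Pτ, Matrix.cons_val_zero, Matrix.cons_val_one, Matrix.cons_val, C_add, C_mul, C_1]
  ring

end LineIds

end Vale.Agent.Lib.P200.All
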