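import Vale.Agent.Lib.P200.All.Setup

namespace Vale.Agent.Lib.P200.All

open MvPolynomial Module Fam Gen

variable {K : Type*} [Field K]

/-- The good line for a pair of powers of variables. -/
lemma goodLine_pow (A : ℕ) (hA : 3 ≤ A) :
    GoodLine (X 0 ^ A : MvPolynomial (Fin 3) K) (X 1 ^ A) A A 1 0 1 := by
  have h1 : piC (1 : K) 0 1 (X 0 ^ A) = Polynomial.X ^ A := by
    rw [map_pow, piC_X0]
  have h2 : piC (1 : K) 0 1 (X 1 ^ A) = (Polynomial.X + 1) ^ A := by
    rw [map_pow, piC_X1]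
    simp
  refine ⟨?_, ?_, hA, le_rfl, ?_, ?_, ?_⟩
  · have := IsHomogeneous.pow (X_mem_Hd (K := K) 0) A
    rwa [one_mul] at this
  · have := IsHomogeneous.pow (X_mem_Hd (K := K) 1) A
    rwa [one_mul] at this
  · rw [h1, Polynomial.natDegree_X_pow]
  · rw [h2]
    have h3 : (Polynomial.X + 1 : Polynomial K).Monic := Polynomial.monic_X_add_C (1 : K)
    rw [h3.natDegree_pow]
    have : (Polynomial.X + 1 : Polynomial K).natDegree = 1 := Polynomial.natDegree_X_add_C (1 : K)
    rw [this, mul_one]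
  · rw [h1, h2]
    apply IsCoprime.pow
    exact ⟨-1, 1, by ring⟩

/-- The Macaulay bound in the polynomial ring in three variables. -/
theorem macaulay_all [Infinite K] {d k : ℕ} {V : Submodule K (MvPolynomial (Fin 3) K)}
    (hV : V ≤ Hd K d) (hk : 1 ≤ k) (h : (k - 1).choose 2 < finrank K V) :
    finrank K V + k ≤ finrank K ↥(Hd K 1 * V) := by
  set A := d + k + 3 with hA
  have G := goodLine_pow (K := K) A (by omega)
  have hf : (X 0 ^ A : MvPolynomial (Fin 3) K) ∈ Hd K A := G.hf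
  have hg : (X 1 ^ A : MvPolynomial (Fin 3) K) ∈ Hd K A := G.hg
  have h0 : FF (X 0 ^ A : MvPolynomial (Fin 3) K) (X 1 ^ A) d = ⊥ :=
    FF_low hf hg le_rfl (by omega)
  have h1 : FF (X 0 ^ A : MvPolynomial (Fin 3) K) (X 1 ^ A) (d + 1) = ⊥ :=
    FF_low hf hg le_rfl (by omega)
  have h2 := P1 G d V hV (by rw [h0]; exact bot_le) (finrank K V) k
    (by rw [h0, finrank_bot, zero_add]) hk (by omega) (by omega) (by
      unfold th
      rw [if_neg (by omega)]
      exact h)
  rw [h1, finrank_bot, zero_add] at h2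
  have h3 : UpG (X 0 ^ A : MvPolynomial (Fin 3) K) (X 1 ^ A) V d = Hd K 1 * V := by
    rw [UpG, h1, sup_bot_eq]
  rwa [h3] at h2

end Vale.Agent.Lib.P200.All
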