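import Vale.Agent.Lib.P200.All.Zone

namespace Vale.Agent.Lib.P200.All

open MvPolynomial Module Fam Gen

variable {K : Type*} [Field K]

/-- Growth for all subspaces over an algebraically closed field. -/
theorem EE_all [IsAlgClosed K] {f g h : MvPolynomial (Fin 3) K} {a b c : ℕ}
    (cI : CI f g h a b c) :
    ∀ (m d : ℕ) (V : Submodule K (MvPolynomial (Fin 3) K)), V ≤ Hd K d →
      degPart (II f g h) d ≤ V → MS (II f g h) (a, b, c) V d = m →
      EE (II f g h) (a, b, c) V d := by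
  have ha := cI.ha
  have hab := cI.hab
  have hbc := cI.hbc
  obtain ⟨s, hs⟩ : ∃ s, a + b + c = s + 3 := ⟨a + b + c - 3, by omega⟩
  obtain ⟨l, hl⟩ := exists_lamG cI.reg cI.hf cI.hg cI.hh (by omega) (by omega) (by omega) hs
  obtain ⟨α, β, γ, G⟩ := exists_goodL cI.reg cI.hf cI.hg cI.hh cI.a_pos cI.hab
  have hnzd : ∀ (x : MvPolynomial (Fin 3) K) (n : ℕ), x ∈ Hd K n → lF α β γ * x ∈ Ideal.span {f, g} →
      x ∈ Ideal.span {f, g} := fun x n hx hm => G.nzd hx hm
  intro m
  induction m using Nat.strong_induction_on with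
  | _ m ih =>
    intro d V hV hIV hm
    have IH : ∀ (e : ℕ) (V' : Submodule K (MvPolynomial (Fin 3) K)), V' ≤ Hd K e →
        degPart (II f g h) e ≤ V' →
        MS (II f g h) (a, b, c) V' e < MS (II f g h) (a, b, c) V d →
        EE (II f g h) (a, b, c) V' e :=
      fun e V' h1 h2 h3 => ih _ (by omega) e V' h1 h2 rfl
    by_cases hcl : Closed (II f g h) V d
    swap
    · exact cI.EE_of_clo hV hIV (IH _ _ (colon_le _ _) (cI.degPart_le_colon_up hIV hV)
        (cI.MS_clo_lt hV hIV hcl))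
    by_cases h1 : d + 2 ≤ a
    · exact EE_low cI h1 hV
    by_cases h2 : d + 2 ≤ a + b
    · obtain ⟨n, rfl⟩ : ∃ n, d = n + 1 := ⟨d - 1, by omega⟩
      exact analysis cI hs hl (by omega) (by omega) hV hIV hcl IH
    by_cases h3 : d + 2 ≤ c
    · exact EE_zone cI (lF_mem α β γ) hnzd (by omega) h3 hV hIV
    by_cases h4 : s ≤ d
    · exact EE_top cI hs h4 hV
    obtain ⟨e, hde⟩ : ∃ e, d + 1 + e = s := ⟨s - (d + 1), by omega⟩
    have hZle : perp l (up (II f g h) V d) e ≤ Hd K e := CI.perp_le' _ _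
    have hIZ : degPart (II f g h) e ≤ perp l (up (II f g h) V d) e :=
      cI.degPart_le_perp_up hs hl hde hV
    have hMS := cI.MS_dual hs hl hde hV hIV hcl
    have hclZ := cI.closed_dual hs hl hde hV hIV hcl
    apply cI.EE_dual hs hl hde hV hIV hcl
    by_cases h5 : e + 2 ≤ a
    · exact EE_low cI h5 hZle
    obtain ⟨n, rfl⟩ : ∃ n, e = n + 1 := ⟨e - 1, by omega⟩
    exact analysis cI hs hl (by omega) (by omega) hZle hIZ hclZ
      fun e' V' h6 h7 h8 => IH e' V' h6 h7 (by rwa [hMS] at h8)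

/-- Growth in all degrees, over every field. -/
theorem growth_all {f g h : MvPolynomial (Fin 3) K} {a b c : ℕ} (hf : f ∈ Hd K a)
    (hg : g ∈ Hd K b) (hh : h ∈ Hd K c) (hreg : RegSeq f g h) (ha : 2 ≤ a) (hab : a ≤ b)
    (hbc : b ≤ c) (d : ℕ) : GrowthG (GS (a, b, c)) f g h d := by
  let L := AlgebraicClosure K
  have cI : CI (phi K L f) (phi K L g) (phi K L h) a b c :=
    ⟨IsHomogeneous.map hf _, IsHomogeneous.map hg _, IsHomogeneous.map hh _, regSeq_map hreg,
      ha, hab, hbc⟩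
  have h1 : GrowthG (GS (a, b, c)) (phi K L f) (phi K L g) (phi K L h) d := fun V hV hIV =>
    EE_all cI _ d V hV hIV rfl
  exact growth_descent hreg hf hg hh (by omega) (by omega) h1

/-- The Eisenbud-Green-Harris statement for regular sequences of three forms in three variables. -/
theorem egh_all (a b c : ℕ) (ha : 2 ≤ a) (hab : a ≤ b) (hbc : b ≤ c)
    (f : Fin 3 → MvPolynomial (Fin 3) K)
    (hf : ∀ i, (f i).IsHomogeneous (![a, b, c] i))
    (hreg : ∀ (i : Fin 3) (u : MvPolynomial (Fin 3) K),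
      f i * u ∈ Ideal.span (f '' {j | j < i}) → u ∈ Ideal.span (f '' {j | j < i}))
    (I : Ideal (MvPolynomial (Fin 3) K)) (hI : ∀ i, f i ∈ I) :
    (∃ 𝔍 : Ideal (MvPolynomial (Fin 3) K), ∀ g, g ∈ 𝔍 ↔ g ∈ ⨆ d, JE (a, b, c) I d) ∧
      ∀ d, finrank K (JE (a, b, c) I d) = finrank K (degPart I d) := by
  have h := regSeq_of f hreg
  have h0 : f 0 ∈ Hd K a := hf 0
  have h1 : f 1 ∈ Hd K b := hf 1
  have h2 : f 2 ∈ Hd K c := hf 2
  have hspan : Ideal.span {f 0, f 1, f 2} ≤ I := by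
    rw [Ideal.span_le]
    rintro x (rfl | rfl | rfl)
    · exact hI 0
    · exact hI 1
    · exact hI 2
  have hdim : ∀ d, finrank K (degPart (Ideal.span {f 0, f 1, f 2}) d)
      = (Fam.inP (a, b, c) d).card := by
    intro d
    have h3 := (finrank_all h h0 h1 h2 (by omega) (by omega) d).2.2
    have h4 := Fam.card_inP (a, b, c) d
    rw [outsideP_eq] at h4
    omega
  have hF : ∀ d, (Fam.inP (a, b, c) d).card ≤ finrank K (degPart I d) := by
    intro d
    rw [← hdim]
    exact finrank_mono_Hd (inf_le_inf_right _ hspan) (inf_le_right : degPart I d ≤ Hd K d)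
  refine ⟨Fam.ideal_of_step _ I ?_, fun d => Fam.finrank_Jd _ (hF d)⟩
  intro d
  have hV : degPart I d ≤ Hd K d := inf_le_right
  have hFV : degPart (Ideal.span {f 0, f 1, f 2}) d ≤ degPart I d := inf_le_inf_right _ hspan
  have h3 := growth_all h0 h1 h2 h ha hab hbc d (degPart I d) hV hFV
  have h4 : Hd K 1 * degPart I d ⊔ degPart (Ideal.span {f 0, f 1, f 2}) (d + 1) ≤ degPart I (d + 1) := by
    refine sup_le ?_ (inf_le_inf_right _ hspan)
    refine Submodule.mul_le.mpr fun m hm g hg => ?_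
    obtain ⟨h5, h6⟩ := mem_degPart.mp hg
    rw [mem_degPart]
    refine ⟨I.mul_mem_left m h5, ?_⟩
    have := Hd_mul_mem hm h6
    rwa [add_comm] at this
  have h5 := finrank_mono_Hd h4 (inf_le_right : degPart I (d + 1) ≤ Hd K (d + 1))
  rw [hdim, hdim] at h3
  rw [qE, qE, Fam.finrank_Pd, Fam.finrank_Pd]
  have h6 := hF (d + 1)
  omega

end Vale.Agent.Lib.P200.All
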