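import Vale.Agent.Lib.P200.All.Num

namespace Vale.Agent.Lib.P200.All

open MvPolynomial Module Matrix

section Field

variable {F : Type*} [Field F] {m n : Type*} [Fintype m] [Fintype n] [DecidableEq m] [DecidableEq n]

/-- Every matrix over a field has an inner inverse. -/
lemma exists_inner_field (M : Matrix m n F) : ∃ G : Matrix n m F, M * G * M = M := by
  obtain ⟨C, hC⟩ := Submodule.exists_isCompl (LinearMap.ker M.mulVecLin)
  have hker : LinearMap.ker (M.mulVecLin.domRestrict C) = ⊥ := by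
    rw [eq_bot_iff]
    rintro ⟨v, hv⟩ h
    have h1 : v ∈ LinearMap.ker M.mulVecLin := by
      rw [LinearMap.mem_ker] at h ⊢
      simpa using h
    have h2 : v ∈ LinearMap.ker M.mulVecLin ⊓ C := ⟨h1, hv⟩
    rw [hC.inf_eq_bot, Submodule.mem_bot] at h2
    subst h2
    exact Submodule.zero_mem _
  obtain ⟨g, hg⟩ := LinearMap.exists_leftInverse_of_injective _ hker
  refine ⟨LinearMap.toMatrix' (C.subtype ∘ₗ g), Matrix.mulVec_injective (funext fun v => ?_)⟩
  have hv : v ∈ LinearMap.ker M.mulVecLin ⊔ C := by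
    rw [hC.sup_eq_top]
    exact Submodule.mem_top
  obtain ⟨u, hu, c, hc, rfl⟩ := Submodule.mem_sup.mp hv
  have hu0 : M *ᵥ u = 0 := by
    simpa using hu
  have h1 : g (M *ᵥ c) = ⟨c, hc⟩ := by
    have := LinearMap.congr_fun hg ⟨c, hc⟩
    simpa using this
  rw [← Matrix.mulVec_mulVec, ← Matrix.mulVec_mulVec, Matrix.mulVec_add, hu0, zero_add,
    LinearMap.toMatrix'_mulVec, LinearMap.comp_apply, h1]
  rfl

end Field

variable {K : Type*} [Field K] {m n : Type*} [Fintype m] [Fintype n] [DecidableEq m] [DecidableEq n]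

/-- Every matrix over the polynomial ring has an inner inverse up to a nonzero multiple. -/
lemma exists_inner (M : Matrix m n (MvPolynomial (Fin 3) K)) :
    ∃ (c : MvPolynomial (Fin 3) K) (G : Matrix n m (MvPolynomial (Fin 3) K)),
      c ≠ 0 ∧ M * G * M = c • M := by
  let T := MvPolynomial (Fin 3) K
  let F := FractionRing T
  let alg : T →+* F := algebraMap T F
  have hinj : Function.Injective alg := IsFractionRing.injective T F
  obtain ⟨G₀, hG₀⟩ := exists_inner_field (M.map alg)
  obtain ⟨b, hb⟩ := IsLocalization.exist_integer_multiples_of_finite (nonZeroDivisors T)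
    (fun p : n × m => G₀ p.1 p.2)
  choose G hG using hb
  refine ⟨b.1, Matrix.of fun i j => G (i, j), nonZeroDivisors.ne_zero b.2, ?_⟩
  have h1 : (Matrix.of fun i j => G (i, j) : Matrix n m T).map alg = alg b.1 • G₀ := by
    ext i j
    change alg (G (i, j)) = alg b.1 * G₀ i j
    have h2 : alg (G (i, j)) = _ := hG (i, j)
    rw [h2]
    exact Algebra.smul_def _ _
  apply Matrix.map_injective hinj
  show (M * (Matrix.of fun i j => G (i, j)) * M).map alg = (b.1 • M).map alg
  rw [Matrix.map_mul, Matrix.map_mul, h1, Matrix.mul_smul, Matrix.smul_mul, hG₀]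
  refine Matrix.ext fun i j => ?_
  simp [Matrix.map_apply, Matrix.smul_apply]

lemma comp_two {u v g : MvPolynomial (Fin 3) K} {e : ℕ} (hu : u ∈ Hd K 1) (hv : v ∈ Hd K 1) :
    homogeneousComponent (e + 2) (u * g * v) = u * homogeneousComponent e g * v := by
  have h1 : u * g * v = u * (v * g) := by ring
  rw [h1, show e + 2 = 1 + (1 + e) by omega, comp_mul hu, comp_mul hv]
  ring

/-- The inner inverse for a matrix of linear forms can be taken homogeneous. -/
lemma exists_inner_homog (M : Matrix m n (MvPolynomial (Fin 3) K))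
    (hM : ∀ i j, M i j ∈ Hd K 1) :
    ∃ (e : ℕ) (c : MvPolynomial (Fin 3) K) (G : Matrix n m (MvPolynomial (Fin 3) K)),
      c ≠ 0 ∧ c ∈ Hd K (e + 1) ∧ (∀ i j, G i j ∈ Hd K e) ∧ M * G * M = c • M := by
  obtain ⟨c, G, hc, hG⟩ := exists_inner M
  set c' : MvPolynomial (Fin 3) K := X 0 * c with hc'
  have hc'0 : c' ≠ 0 := mul_ne_zero (X_ne_zero _) hc
  have hG' : M * ((X 0 : MvPolynomial (Fin 3) K) • G) * M = c' • M := by
    rw [Matrix.mul_smul, Matrix.smul_mul, hG, smul_smul]
  obtain ⟨d, hd⟩ : ∃ d, homogeneousComponent d c' ≠ 0 := by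
    by_contra hno
    push Not at hno
    apply hc'0
    rw [← sum_homogeneousComponent c']
    exact Finset.sum_eq_zero fun i _ => hno i
  have hd0 : d ≠ 0 := by
    rintro rfl
    apply hd
    rw [hc']
    exact comp_mul_low (X_mem_Hd 0) (by omega) c
  obtain ⟨e, rfl⟩ : ∃ e, d = e + 1 := ⟨d - 1, by omega⟩
  refine ⟨e, homogeneousComponent (e + 1) c',
    Matrix.of fun i j => homogeneousComponent e (((X 0 : MvPolynomial (Fin 3) K) • G) i j), hd,
    homogeneousComponent_mem _ _, fun i j => homogeneousComponent_mem _ _, ?_⟩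
  refine Matrix.ext fun i j => ?_
  have h1 := congrArg (fun A => homogeneousComponent (e + 2) (A i j)) hG'
  simp only [Matrix.smul_apply, smul_eq_mul] at h1 ⊢
  have h2 : homogeneousComponent (e + 1) c' * M i j = homogeneousComponent (e + 2) (c' * M i j) := by
    rw [mul_comm c', show e + 2 = 1 + (e + 1) by omega, comp_mul (hM i j), mul_comm]
  rw [h2, ← h1, Matrix.mul_apply, Matrix.mul_apply, map_sum]
  refine Finset.sum_congr rfl fun k _ => ?_
  rw [Matrix.mul_apply, Matrix.mul_apply, Finset.sum_mul, Finset.sum_mul, map_sum]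
  refine Finset.sum_congr rfl fun l _ => ?_
  rw [comp_two (hM i l) (hM k j)]
  rfl

/-- Either a matrix of linear forms has a right inverse up to a multiple or it has a nonzero
homogeneous left kernel vector. -/
theorem dichotomy (M : Matrix m n (MvPolynomial (Fin 3) K)) (hM : ∀ i j, M i j ∈ Hd K 1) :
    (∃ (e : ℕ) (c : MvPolynomial (Fin 3) K) (R : Matrix n m (MvPolynomial (Fin 3) K)),
      c ≠ 0 ∧ c ∈ Hd K (e + 1) ∧ M * R = c • 1) ∨
    (∃ (e : ℕ) (ξ : m → MvPolynomial (Fin 3) K), ξ ≠ 0 ∧ (∀ i, ξ i ∈ Hd K e) ∧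
      ∀ j, ∑ i, ξ i * M i j = 0) := by
  obtain ⟨e, c, G, hc, hce, hGe, hG⟩ := exists_inner_homog Mᵀ (fun i j => hM j i)
  by_cases hP : G * Mᵀ = c • 1
  · refine Or.inl ⟨e, c, Gᵀ, hc, hce, ?_⟩
    have := congrArg Matrix.transpose hP
    rw [Matrix.transpose_mul, Matrix.transpose_transpose, Matrix.transpose_smul,
      Matrix.transpose_one] at this
    exact this
  · right
    have hne : c • 1 - G * Mᵀ ≠ 0 := fun h => hP (sub_eq_zero.mp h).symm
    obtain ⟨a, b, hab⟩ : ∃ a b, (c • 1 - G * Mᵀ : Matrix m m _) a b ≠ 0 := by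
      by_contra hno
      push Not at hno
      exact hne (Matrix.ext hno)
    refine ⟨e + 1, fun i => (c • 1 - G * Mᵀ : Matrix m m _) i b, ?_, ?_, ?_⟩
    · intro h
      exact hab (congrFun h a)
    · intro i
      refine Submodule.sub_mem _ ?_ ?_
      · simp only [Matrix.smul_apply, smul_eq_mul, Matrix.one_apply]
        split_ifs
        · rwa [mul_one]
        · rw [mul_zero]
          exact Submodule.zero_mem _
      · rw [Matrix.mul_apply]
        exact Submodule.sum_mem _ fun k _ => Hd_mul_mem (hGe i k) (hM b k)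
    · intro j
      have h1 : Mᵀ * (c • 1 - G * Mᵀ) = 0 := by
        rw [Matrix.mul_sub, Matrix.mul_smul, Matrix.mul_one, ← Matrix.mul_assoc, hG, sub_self]
      have h2 := congrFun (congrFun h1 j) b
      rw [Matrix.mul_apply] at h2
      simp only [Matrix.transpose_apply, Matrix.zero_apply] at h2
      rw [← h2]
      exact Finset.sum_congr rfl fun i _ => mul_comm _ _

/-- The kernel of a matrix of linear forms is generically spanned by homogeneous vectors. -/
theorem kernel_families (M : Matrix m n (MvPolynomial (Fin 3) K)) (hM : ∀ i j, M i j ∈ Hd K 1) :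
    ∃ (e : ℕ) (c : MvPolynomial (Fin 3) K) (Pm : Matrix n n (MvPolynomial (Fin 3) K))
      (G : Matrix n m (MvPolynomial (Fin 3) K)),
      c ≠ 0 ∧ c ∈ Hd K (e + 1) ∧ (∀ i j, Pm i j ∈ Hd K (e + 1)) ∧ M * Pm = 0 ∧
        Pm = c • 1 - G * M := by
  obtain ⟨e, c, G, hc, hce, hGe, hG⟩ := exists_inner_homog M hM
  refine ⟨e, c, c • 1 - G * M, G, hc, hce, ?_, ?_, rfl⟩
  · intro i j
    refine Submodule.sub_mem _ ?_ ?_
    · simp only [Matrix.smul_apply, smul_eq_mul, Matrix.one_apply]
      split_ifs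
      · rwa [mul_one]
      · rw [mul_zero]
        exact Submodule.zero_mem _
    · rw [Matrix.mul_apply]
      exact Submodule.sum_mem _ fun k _ => Hd_mul_mem (hGe i k) (hM k j)
  · rw [Matrix.mul_sub, Matrix.mul_smul, Matrix.mul_one, ← Matrix.mul_assoc, hG, sub_self]

/-- Points where a nonzero polynomial does not vanish. -/
lemma exists_eval_ne [Infinite K] {c : MvPolynomial (Fin 3) K} (hc : c ≠ 0) :
    ∃ P : Fin 3 → K, eval P c ≠ 0 := by
  by_contra hno
  push Not at hno
  exact hc (MvPolynomial.funext fun P => by rw [hno P, map_zero])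

end Vale.Agent.Lib.P200.All
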