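import Vale.Agent.Lib.P200.Gen.Bound

namespace Vale.Agent.Lib.P200.All

open Fam Gen

lemma rows_bound' {a b c d T i₀ : ℕ} (hT : T = if a ≤ d + 1 then a else d + 2)
    (hj : d + 1 - i₀ < b) (hbc : b ≤ c) (ha : 1 ≤ a) :
    ∀ s, 1 ≤ s → s + i₀ ≤ T → th a d s ≤ (Aset (a, b, c) d (T - s)).card := by
  have hTa : T ≤ a := by
    split_ifs at hT <;> omega
  have hTd : T ≤ d + 2 := by
    split_ifs at hT <;> omega
  intro s hs
  induction s, hs using Nat.le_induction with
  | base =>
    intro _
    rw [th_one]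
    exact Nat.zero_le _
  | succ s hs ih =>
    intro h1
    have h2 := ih (by omega)
    have h3 := th_rec hT hs
    have h4 : T - s = (T - (s + 1)) + 1 := by omega
    have hsub : rowE d ((T - (s + 1)) + 1) ⊆ outE (a, b, c) d := by
      refine rowE_sub ?_ ?_ ?_
      · show (T - (s + 1)) + 1 < a
        omega
      · show d - ((T - (s + 1)) + 1) < b
        omega
      · show d - ((T - (s + 1)) + 1) < c
        omega
    have h5 := Aset_step hsub
    rw [← h4] at h5
    rw [h3]
    omega

/-- The size of the shadow in all degrees up to `a + b - 2`. -/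
theorem GS_all {a b c d q : ℕ} (hab : a ≤ b) (hbc : b ≤ c) (ha : 1 ≤ a) (hd : d + 2 ≤ a + b) :
    ∃ t, t + d + 2 ≤ a + b ∧ GS (a, b, c) d q ≤ q + t ∧
      (t = 0 ∨ (1 ≤ t ∧ t ≤ a ∧ th a d t < q)) := by
  classical
  set e : T3 := (a, b, c) with he
  have he1 : e.1 = a := rfl
  have he2 : e.2.1 = b := rfl
  have he3 : e.2.2 = c := rfl
  have hsplit := Finset.card_filter_add_card_filter_not (s := SH e d q) (fun u => 0 < u.2.2)
  have h2 : ((SH e d q).filter (fun u => 0 < u.2.2)).card ≤ q := by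
    have h3 : ((SH e d q).filter (fun u => 0 < u.2.2)).card ≤ (Fam.topSet e d q).card := by
      refine Finset.card_le_card_of_injOn Ldiv ?_ ?_
      · intro u hu
        obtain ⟨h4, _⟩ := Finset.mem_filter.mp hu
        obtain ⟨h5, h6⟩ := mem_SH.mp h4
        exact Fam.mem_topSet.mpr ⟨Ldiv_mem h5, h6⟩
      · intro u hu v hv huv
        have h4 := (Finset.mem_filter.mp hu).2
        have h5 := (Finset.mem_filter.mp hv).2
        simp only [Ldiv, if_pos h4, if_pos h5, Prod.mk.injEq] at huv
        ext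
        · exact huv.1
        · exact huv.2.1
        · omega
    rw [Fam.card_topSet] at h3
    omega
  set S₀ := (SH e d q).filter (fun u => ¬ 0 < u.2.2) with hS₀
  have hGS : GS e d q = ((SH e d q).filter (fun u => 0 < u.2.2)).card + S₀.card := hsplit.symm
  by_cases hne : S₀.Nonempty
  swap
  · rw [Finset.not_nonempty_iff_eq_empty] at hne
    rw [hne, Finset.card_empty] at hGS
    exact ⟨0, by omega, by omega, Or.inl rfl⟩
  obtain ⟨u₀, hu₀, hmin⟩ := Finset.exists_min_image S₀ (fun u => u.1) hne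
  obtain ⟨hu₁, hu₂⟩ := Finset.mem_filter.mp hu₀
  obtain ⟨hu₃, hu₄⟩ := mem_SH.mp hu₁
  obtain ⟨⟨hu₅, hu₆, hu₇⟩, hu₈⟩ := mem_out.mp hu₃
  obtain ⟨T, hT⟩ : ∃ T, T = if a ≤ d + 1 then a else d + 2 := ⟨_, rfl⟩
  have hTc : (a ≤ d + 1 ∧ T = a) ∨ (¬ a ≤ d + 1 ∧ T = d + 2) := by
    by_cases h : a ≤ d + 1
    · exact Or.inl ⟨h, by rw [hT, if_pos h]⟩
    · exact Or.inr ⟨h, by rw [hT, if_neg h]⟩
  have hcard : S₀.card ≤ T - u₀.1 := by
    have hsub : S₀ ⊆ (Finset.Ico u₀.1 T).image (fun i => (i, d + 1 - i, 0)) := by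
      intro u hu
      obtain ⟨h3, h4⟩ := Finset.mem_filter.mp hu
      obtain ⟨h5, h6⟩ := mem_SH.mp h3
      obtain ⟨⟨h7, h8, h9⟩, h10⟩ := mem_out.mp h5
      have h11 := hmin u hu
      refine Finset.mem_image.mpr ⟨u.1, Finset.mem_Ico.mpr ⟨h11, ?_⟩, ?_⟩
      · omega
      · ext
        · rfl
        · simp only
          omega
        · simp only
          omega
    have h3 := Finset.card_le_card hsub
    have h4 := Finset.card_image_le (s := Finset.Ico u₀.1 T) (f := fun i => (i, d + 1 - i, 0))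
    rw [Nat.card_Ico] at h4
    omega
  refine ⟨T - u₀.1, by omega, by omega, Or.inr ⟨by omega, by omega, ?_⟩⟩
  by_cases hj0 : u₀.2.1 = 0
  · have h3 : T - u₀.1 = 1 := by omega
    rw [h3, th_one]
    omega
  · have h3 := rows_bound' (a := a) (b := b) (c := c) (d := d) (T := T) (i₀ := u₀.1) hT (by omega)
      hbc ha (T - u₀.1) (by omega) (by omega)
    rw [show T - (T - u₀.1) = u₀.1 by omega] at h3
    have h4 : (Aset (a, b, c) d u₀.1).card ≤ rankE e d (Ldiv u₀) := by
      refine Finset.card_le_card fun s hs => ?_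
      obtain ⟨h5, h6⟩ := Finset.mem_filter.mp hs
      refine Finset.mem_filter.mpr ⟨h5, ?_⟩
      have h7 : Ldiv u₀ = (u₀.1, u₀.2.1 - 1, 0) := by
        rw [Ldiv, if_neg (by omega), if_pos (by omega)]
      rw [h7]
      simp only [lexGT]
      omega
    omega

lemma th_mono_succ (a d t : ℕ) (ht : 1 ≤ t) : th a d t ≤ th a d (t + 1) := by
  unfold th
  obtain ⟨s, rfl⟩ : ∃ s, t = s + 1 := ⟨t - 1, by omega⟩
  split_ifs with h
  · simp only [Nat.add_sub_cancel]
    rw [choose_step (s + 1), Nat.add_mul]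
    have : s * (d + 1 - a) + (s + 1).choose 2 ≤ s * (d + 1 - a) + 1 * (d + 1 - a) + (s + 1 + (s + 1).choose 2) := by
      omega
    exact this
  · simp only [Nat.add_sub_cancel]
    rw [choose_step s]
    omega

lemma th_mono (a d : ℕ) {t t' : ℕ} (ht : 1 ≤ t) (h : t ≤ t') : th a d t ≤ th a d t' := by
  induction t', h using Nat.le_induction with
  | base => exact le_rfl
  | succ n hn ih => exact ih.trans (th_mono_succ a d n (by omega))

/-- The maximal gain. -/
theorem N_A {a b c d q : ℕ} (hab : a ≤ b) (hbc : b ≤ c) (ha : 1 ≤ a) (hd : d + 2 ≤ a + b) :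
    GS (a, b, c) d q ≤ q + (a + b - d - 2) := by
  obtain ⟨t, h1, h2, _⟩ := GS_all (c := c) (q := q) hab hbc ha hd
  omega

/-- The gain for a subspace below a threshold. -/
theorem N_B {a b c d q ρ : ℕ} (hab : a ≤ b) (hbc : b ≤ c) (ha : 1 ≤ a) (hd : d + 2 ≤ a + b)
    (hq : q ≤ th a d (ρ + 1)) : GS (a, b, c) d q ≤ q + ρ := by
  obtain ⟨t, h1, h2, h3⟩ := GS_all (c := c) (q := q) hab hbc ha hd
  rcases h3 with rfl | ⟨h4, h5, h6⟩
  · omega
  · by_cases h7 : t ≤ ρ
    · omega
    · have := th_mono a d (t := ρ + 1) (t' := t) (by omega) (by omega)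
      omega

/-- No gain in high degrees. -/
theorem GS_high {a b c d q : ℕ} (hd : a + b ≤ d + 2) : GS (a, b, c) d q ≤ q := by
  classical
  set e : T3 := (a, b, c) with he
  have hsplit := Finset.card_filter_add_card_filter_not (s := SH e d q) (fun u => 0 < u.2.2)
  have h2 : ((SH e d q).filter (fun u => 0 < u.2.2)).card ≤ q := by
    have h3 : ((SH e d q).filter (fun u => 0 < u.2.2)).card ≤ (Fam.topSet e d q).card := by
      refine Finset.card_le_card_of_injOn Ldiv ?_ ?_
      · intro u hu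
        obtain ⟨h4, _⟩ := Finset.mem_filter.mp hu
        obtain ⟨h5, h6⟩ := mem_SH.mp h4
        exact Fam.mem_topSet.mpr ⟨Ldiv_mem h5, h6⟩
      · intro u hu v hv huv
        have h4 := (Finset.mem_filter.mp hu).2
        have h5 := (Finset.mem_filter.mp hv).2
        simp only [Ldiv, if_pos h4, if_pos h5, Prod.mk.injEq] at huv
        ext
        · exact huv.1
        · exact huv.2.1
        · omega
    rw [Fam.card_topSet] at h3
    omega
  have h3 : (SH e d q).filter (fun u => ¬ 0 < u.2.2) = ∅ := by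
    rw [Finset.filter_eq_empty_iff]
    intro u hu h4
    obtain ⟨h5, _⟩ := mem_SH.mp hu
    obtain ⟨⟨h6, h7, _⟩, h8⟩ := mem_out.mp h5
    have h9 : e.1 = a := rfl
    have h10 : e.2.1 = b := rfl
    omega
  rw [h3, Finset.card_empty] at hsplit
  show (SH e d q).card ≤ q
  omega

lemma Aset_chain {a b c d f i₀ : ℕ} (hf : f ≤ d) (hfa : f < a) (hb : d + 1 - i₀ < b)
    (hbc : b ≤ c) : ∀ n, n + i₀ ≤ f →
      (Aset (a, b, c) d f).card + (n + 1).choose 2 ≤ (Aset (a, b, c) d (f - n)).card := by
  intro n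
  induction n with
  | zero =>
    intro _
    simp
  | succ n ih =>
    intro h
    have h1 := ih (by omega)
    have hsub : rowE d ((f - (n + 1)) + 1) ⊆ outE (a, b, c) d := by
      refine rowE_sub ?_ ?_ ?_
      · show (f - (n + 1)) + 1 < a
        omega
      · show d - ((f - (n + 1)) + 1) < b
        omega
      · show d - ((f - (n + 1)) + 1) < c
        omega
    have h2 := Aset_step hsub
    rw [show (f - (n + 1)) + 1 = f - n by omega] at h2
    rw [choose_step (n + 1)]
    omega

/-- The shadow of a further piece of a lexicographic segment. -/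
theorem N_1 {a b c d q x k : ℕ} (hab : a ≤ b) (hbc : b ≤ c) (hk : x ≤ k.choose 2) :
    GS (a, b, c) d (q + x) ≤ GS (a, b, c) d q + x + k := by
  classical
  set e : T3 := (a, b, c) with he
  have he1 : e.1 = a := rfl
  have he2 : e.2.1 = b := rfl
  have he3 : e.2.2 = c := rfl
  -- the new elements
  set New := (SH e d (q + x)).filter (fun u => q ≤ rankE e d (Ldiv u)) with hNew
  have hsplit0 := Finset.card_filter_add_card_filter_not (s := SH e d (q + x))
    (fun u => q ≤ rankE e d (Ldiv u))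
  have hold : ((SH e d (q + x)).filter (fun u => ¬ q ≤ rankE e d (Ldiv u))).card ≤ GS e d q := by
    refine Finset.card_le_card fun u hu => ?_
    obtain ⟨h1, h2⟩ := Finset.mem_filter.mp hu
    obtain ⟨h3, _⟩ := mem_SH.mp h1
    exact mem_SH.mpr ⟨h3, by omega⟩
  have hsplit1 := Finset.card_filter_add_card_filter_not (s := New) (fun u => 0 < u.2.2)
  have hN1 : (New.filter (fun u => 0 < u.2.2)).card ≤ x := by
    have h3 : (New.filter (fun u => 0 < u.2.2)).card ≤ (Finset.Ico q (q + x)).card := by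
      refine Finset.card_le_card_of_injOn (fun u => rankE e d (Ldiv u)) ?_ ?_
      · intro u hu
        obtain ⟨h4, _⟩ := Finset.mem_filter.mp hu
        obtain ⟨h5, h6⟩ := Finset.mem_filter.mp h4
        obtain ⟨_, h7⟩ := mem_SH.mp h5
        simp only [Finset.coe_Ico, Set.mem_Ico]
        exact ⟨h6, h7⟩
      · intro u hu v hv huv
        obtain ⟨hu1, hu2⟩ := Finset.mem_filter.mp hu
        obtain ⟨hv1, hv2⟩ := Finset.mem_filter.mp hv
        obtain ⟨hu3, _⟩ := Finset.mem_filter.mp hu1
        obtain ⟨hv3, _⟩ := Finset.mem_filter.mp hv1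
        have h7 := rank_inj (Ldiv_mem (mem_SH.mp hu3).1) (Ldiv_mem (mem_SH.mp hv3).1) huv
        simp only [Ldiv, if_pos hu2, if_pos hv2, Prod.mk.injEq] at h7
        ext
        · exact h7.1
        · exact h7.2.1
        · omega
    rw [Nat.card_Ico] at h3
    omega
  have hN0 : (New.filter (fun u => ¬ 0 < u.2.2)).card ≤ k := by
    set S₀ := New.filter (fun u => ¬ 0 < u.2.2) with hS₀
    by_cases hne : S₀.Nonempty
    swap
    · rw [Finset.not_nonempty_iff_eq_empty] at hne
      rw [hne, Finset.card_empty]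
      exact Nat.zero_le _
    have hprop : ∀ u ∈ S₀, u ∈ outE e (d + 1) ∧ q ≤ rankE e d (Ldiv u) ∧
        rankE e d (Ldiv u) < q + x ∧ u.2.2 = 0 := by
      intro u hu
      obtain ⟨h1, h2⟩ := Finset.mem_filter.mp hu
      obtain ⟨h3, h4⟩ := Finset.mem_filter.mp h1
      obtain ⟨h5, h6⟩ := mem_SH.mp h3
      exact ⟨h5, h4, h6, by omega⟩
    obtain ⟨u₀, hu₀, hmin⟩ := Finset.exists_min_image S₀ (fun u => u.1) hne
    obtain ⟨u₁, hu₁, hmax⟩ := Finset.exists_max_image S₀ (fun u => u.1) hne
    obtain ⟨a1, a2, a3, a4⟩ := hprop u₀ hu₀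
    obtain ⟨b1, b2, b3, b4⟩ := hprop u₁ hu₁
    obtain ⟨⟨a5, a6, a7⟩, a8⟩ := mem_out.mp a1
    obtain ⟨⟨b5, b6, b7⟩, b8⟩ := mem_out.mp b1
    have hcard : S₀.card ≤ u₁.1 + 1 - u₀.1 := by
      have hsub : S₀ ⊆ (Finset.Ico u₀.1 (u₁.1 + 1)).image (fun i => (i, d + 1 - i, 0)) := by
        intro u hu
        obtain ⟨h1, _, _, h4⟩ := hprop u hu
        obtain ⟨_, h5⟩ := mem_out.mp h1
        have h6 := hmin u hu
        have h7 := hmax u hu
        refine Finset.mem_image.mpr ⟨u.1, Finset.mem_Ico.mpr ⟨h6, by omega⟩, ?_⟩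
        ext
        · rfl
        · simp only
          omega
        · simp only
          omega
      have h3 := Finset.card_le_card hsub
      have h4 := Finset.card_image_le (s := Finset.Ico u₀.1 (u₁.1 + 1))
        (f := fun i => (i, d + 1 - i, 0))
      rw [Nat.card_Ico] at h4
      omega
    have hx1 : 1 ≤ x := by omega
    have hk1 : 1 ≤ k := by
      by_contra h0
      have : k = 0 := by omega
      rw [this] at hk
      simp at hk
      omega
    by_cases hm : u₀.1 = u₁.1
    · omega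
    have hlt : u₀.1 < u₁.1 := by
      have := hmin u₁ hu₁
      omega
    -- the forms of the two greatest divisors
    obtain ⟨f, hf1, hf2, hf3⟩ : ∃ f, Ldiv u₁ = (f, d - f, 0) ∧ f + 1 ≥ u₁.1 ∧ f ≤ d := by
      by_cases h0 : 0 < u₁.2.1
      · refine ⟨u₁.1, ?_, by omega, by omega⟩
        rw [Ldiv, if_neg (by omega), if_pos h0]
        ext
        · rfl
        · simp only
          omega
        · rfl
      · refine ⟨d, ?_, by omega, le_rfl⟩
        rw [Ldiv, if_neg (by omega), if_neg h0]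
        ext
        · simp only
          omega
        · simp only
          omega
        · rfl
    have hu₀L : Ldiv u₀ = (u₀.1, d - u₀.1, 0) := by
      rw [Ldiv, if_neg (by omega), if_pos (by omega)]
      ext
      · rfl
      · simp only
        omega
      · rfl
    have hfa : f < a := by
      have h1 := Ldiv_mem b1
      rw [hf1] at h1
      obtain ⟨⟨h2, _, _⟩, _⟩ := mem_out.mp h1
      exact h2
    have hrank0 : (Aset (a, b, c) d u₀.1).card ≤ rankE e d (Ldiv u₀) := by
      refine Finset.card_le_card fun s hs => ?_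
      obtain ⟨h5, h6⟩ := Finset.mem_filter.mp hs
      refine Finset.mem_filter.mpr ⟨h5, ?_⟩
      rw [hu₀L]
      simp only [lexGT]
      omega
    have hrank1 : rankE e d (Ldiv u₁) ≤ (Aset (a, b, c) d f).card := by
      refine Finset.card_le_card fun s hs => ?_
      obtain ⟨h5, h6⟩ := Finset.mem_filter.mp hs
      refine Finset.mem_filter.mpr ⟨h5, ?_⟩
      rw [hf1] at h6
      obtain ⟨_, h7⟩ := mem_out.mp h5
      simp only [lexGT] at h6
      omega
    have hchain := Aset_chain (a := a) (b := b) (c := c) (d := d) (f := f) (i₀ := u₀.1) hf3 hfa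
      (by omega) hbc (f - u₀.1) (by omega)
    rw [show f - (f - u₀.1) = u₀.1 by omega] at hchain
    have hm2 : (u₁.1 - u₀.1).choose 2 ≤ (f - u₀.1 + 1).choose 2 :=
      Nat.choose_le_choose 2 (by omega)
    have hlt2 : (u₁.1 - u₀.1).choose 2 < k.choose 2 := by omega
    have hmk : u₁.1 - u₀.1 < k := by
      by_contra hcon
      have := Nat.choose_le_choose 2 (show k ≤ u₁.1 - u₀.1 by omega)
      omega
    omega
  have h1 : GS e d (q + x) = ((SH e d (q + x)).filter (fun u => q ≤ rankE e d (Ldiv u))).card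
      + ((SH e d (q + x)).filter (fun u => ¬ q ≤ rankE e d (Ldiv u))).card := hsplit0.symm
  rw [← hNew] at h1
  omega

/-- An index for a positive number. -/
lemma exists_kappa {x : ℕ} (hx : 1 ≤ x) : ∃ k, 1 ≤ k ∧ (k - 1).choose 2 < x ∧ x ≤ k.choose 2 := by
  have hex : ∃ k : ℕ, x ≤ k.choose 2 := ⟨x + 1, by
    have h1 : (x + 1).choose 2 = x + x.choose 2 := by
      rw [choose_step x]
    omega⟩
  classical
  refine ⟨Nat.find hex, ?_, ?_, Nat.find_spec hex⟩
  · by_contra h0
    have h1 : Nat.find hex = 0 := by omega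
    have h2 := Nat.find_spec hex
    rw [h1] at h2
    simp at h2
    omega
  · by_contra h0
    have h2 : Nat.find hex ≠ 0 := by
      intro h1
      have h2 := Nat.find_spec hex
      rw [h1] at h2
      simp at h2
      omega
    have := Nat.find_min hex (m := Nat.find hex - 1) (by omega)
    omega

end Vale.Agent.Lib.P200.All
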