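import Vale.Agent.Lib.P200.All.Cases

namespace Vale.Agent.Lib.P200.All

open MvPolynomial Module Fam Gen

variable {K : Type*} [Field K]

/-- The grading map of the polynomial ring. -/
noncomputable def Theta : MvPolynomial (Fin 3) K →ₐ[K] Polynomial (MvPolynomial (Fin 3) K) :=
  aeval fun i => Polynomial.C (X i) * Polynomial.X

lemma Theta_monomial (m : Fin 3 →₀ ℕ) (r : K) :
    Theta (monomial m r) = Polynomial.C (monomial m r) * Polynomial.X ^ (m.degree) := by
  have h1 : ∀ (i : Fin 3) (k : ℕ), ((Polynomial.C (X i) * Polynomial.X :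
      Polynomial (MvPolynomial (Fin 3) K))) ^ k = Polynomial.C (X i ^ k) * Polynomial.X ^ k := by
    intro i k
    rw [mul_pow, Polynomial.C_pow]
  rw [Theta, aeval_monomial, Finsupp.prod]
  simp_rw [h1]
  rw [Finset.prod_mul_distrib, Finset.prod_pow_eq_pow_sum, ← map_prod Polynomial.C, ← mul_assoc,
    monomial_eq (s := m) (a := r), Finsupp.prod, Polynomial.C_mul, Finsupp.degree]
  rfl

lemma coeff_Theta (e : ℕ) (q : MvPolynomial (Fin 3) K) :
    (Theta q).coeff e = homogeneousComponent e q := by
  induction q using MvPolynomial.induction_on' with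
  | monomial m r =>
    rw [Theta_monomial, Polynomial.coeff_C_mul, Polynomial.coeff_X_pow,
      homogeneousComponent_of_mem (isHomogeneous_monomial r rfl :
        monomial m r ∈ homogeneousSubmodule (Fin 3) K m.degree)]
    by_cases h : e = m.degree
    · simp [h]
    · simp [h, Ne.symm h]
  | add p q hp hq =>
    rw [map_add, Polynomial.coeff_add, hp, hq, map_add]

lemma Theta_of_mem {h : MvPolynomial (Fin 3) K} {n : ℕ} (hh : h ∈ Hd K n) :
    Theta h = Polynomial.C h * Polynomial.X ^ n := by
  ext1 e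
  rw [coeff_Theta, Polynomial.coeff_C_mul, Polynomial.coeff_X_pow,
    homogeneousComponent_of_mem hh]
  by_cases he : e = n
  · simp [he]
  · simp [he, Ne.symm he]

lemma eq_component {q : MvPolynomial (Fin 3) K} {e : ℕ}
    (h : ∀ k, k ≠ e → homogeneousComponent k q = 0) : q ∈ Hd K e := by
  have h1 := sum_homogeneousComponent q
  by_cases he : e ∈ Finset.range (q.totalDegree + 1)
  · rw [Finset.sum_eq_single_of_mem e he (fun k _ hk => h k hk)] at h1
    rw [← h1]
    exact homogeneousComponent_mem _ _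
  · rw [Finset.sum_eq_zero (fun k hk => h k (by
      rintro rfl
      exact he hk))] at h1
    rw [← h1]
    exact Submodule.zero_mem _

lemma Theta_ne {q : MvPolynomial (Fin 3) K} (hq : q ≠ 0) : Theta q ≠ 0 := by
  intro h
  apply hq
  rw [← sum_homogeneousComponent q]
  exact Finset.sum_eq_zero fun k _ => by rw [← coeff_Theta, h, Polynomial.coeff_zero]

/-- A factor of a nonzero form is a form. -/
lemma homog_of_mul {p q : MvPolynomial (Fin 3) K} {n : ℕ} (hpq : p * q ∈ Hd K n) (hp : p ≠ 0)
    (hq : q ≠ 0) : ∃ e, q ∈ Hd K e := by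
  have h1 := Theta_of_mem hpq
  rw [map_mul] at h1
  have hP : Theta p ≠ 0 := Theta_ne hp
  have hQ : Theta q ≠ 0 := Theta_ne hq
  have hC : Polynomial.C (p * q) ≠ 0 := by
    rw [Ne, Polynomial.C_eq_zero]
    exact mul_ne_zero hp hq
  have h2 : (Theta p * Theta q).natDegree = n := by
    rw [h1, Polynomial.natDegree_C_mul_X_pow _ _ (mul_ne_zero hp hq)]
  have h3 : (Theta p * Theta q).natTrailingDegree = n := by
    rw [h1, Polynomial.C_mul_X_pow_eq_monomial, Polynomial.natTrailingDegree_monomial (mul_ne_zero hp hq)]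
  rw [Polynomial.natDegree_mul hP hQ] at h2
  rw [Polynomial.natTrailingDegree_mul hP hQ] at h3
  have h4 := Polynomial.natTrailingDegree_le_natDegree (Theta p)
  have h5 := Polynomial.natTrailingDegree_le_natDegree (Theta q)
  refine ⟨(Theta q).natDegree, eq_component fun k hk => ?_⟩
  rw [← coeff_Theta]
  rcases lt_or_gt_of_ne hk with h6 | h6
  · exact Polynomial.coeff_eq_zero_of_lt_natTrailingDegree (by omega)
  · exact Polynomial.coeff_eq_zero_of_natDegree_lt h6

/-- Extraction of the common factor of a triple. -/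
lemma prim (V : Fin 3 → MvPolynomial (Fin 3) K) (hV : ∃ i, V i ≠ 0) :
    ∃ (g : MvPolynomial (Fin 3) K) (V' : Fin 3 → MvPolynomial (Fin 3) K),
      g ≠ 0 ∧ (∀ i, V i = g * V' i) ∧ ∀ d, (∀ i, d ∣ V' i) → IsUnit d := by
  classical
  letI : GCDMonoid (MvPolynomial (Fin 3) K) := UniqueFactorizationMonoid.toGCDMonoid _
  set g := gcd (gcd (V 0) (V 1)) (V 2) with hg
  have h0 : g ∣ V 0 := (gcd_dvd_left _ _).trans (gcd_dvd_left _ _)
  have h1 : g ∣ V 1 := (gcd_dvd_left _ _).trans (gcd_dvd_right _ _)
  have h2 : g ∣ V 2 := gcd_dvd_right _ _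
  have hall : ∀ i, g ∣ V i := by
    intro i
    fin_cases i
    · exact h0
    · exact h1
    · exact h2
  have hg0 : g ≠ 0 := by
    intro h
    obtain ⟨i, hi⟩ := hV
    rw [h] at hall
    exact hi (zero_dvd_iff.mp (hall i))
  choose V' hV' using hall
  refine ⟨g, V', hg0, hV', fun d hd => ?_⟩
  have hdvd : ∀ i, g * d ∣ V i := by
    intro i
    rw [hV' i]
    exact mul_dvd_mul_left _ (hd i)
  have h3 : g * d ∣ g := dvd_gcd (dvd_gcd (hdvd 0) (hdvd 1)) (hdvd 2)
  have h4 : d ∣ 1 := by
    have h5 : g * d ∣ g * 1 := by rwa [mul_one]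
    exact (mul_dvd_mul_iff_left hg0).mp h5
  exact isUnit_of_dvd_one h4

section Bez

variable (α β : K)

/-- The two parameters of the lines through a point. -/
abbrev A2 (K : Type*) [Field K] := MvPolynomial (Fin 2) K

/-- Polynomials as polynomials in one variable over the ring of parameters. -/
noncomputable def PhiA : MvPolynomial (Fin 3) K →ₐ[K] Polynomial (A2 K) :=
  aeval ![Polynomial.X, Polynomial.C (X 0) + Polynomial.C (C α) * Polynomial.X,
    Polynomial.C (X 1) + Polynomial.C (C β) * Polynomial.X]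

/-- The parameters as linear forms. -/
noncomputable def EA : A2 K →ₐ[K] MvPolynomial (Fin 3) K :=
  aeval ![X 1 - C α * X 0, X 2 - C β * X 0]

/-- The inverse of `PhiA`. -/
noncomputable def PsiA : Polynomial (A2 K) →+* MvPolynomial (Fin 3) K :=
  Polynomial.eval₂RingHom (EA α β).toRingHom (X 0)

@[simp] lemma PhiA_X0 : PhiA α β (X 0) = Polynomial.X := by simp [PhiA]
@[simp] lemma PhiA_X1 : PhiA α β (X 1)
    = Polynomial.C (X 0) + Polynomial.C (C α) * Polynomial.X := by simp [PhiA]
@[simp] lemma PhiA_X2 : PhiA α β (X 2)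
    = Polynomial.C (X 1) + Polynomial.C (C β) * Polynomial.X := by simp [PhiA]
@[simp] lemma PhiA_C (r : K) : PhiA α β (C r) = Polynomial.C (C r) := by
  rw [← algebraMap_eq, AlgHom.commutes]
  rfl

@[simp] lemma EA_X0 : EA α β (X 0) = X 1 - C α * X 0 := by simp [EA]
@[simp] lemma EA_X1 : EA α β (X 1) = X 2 - C β * X 0 := by simp [EA]

@[simp] lemma PsiA_C (b : A2 K) : PsiA α β (Polynomial.C b) = EA α β b := by
  simp [PsiA]

@[simp] lemma PsiA_X : PsiA α β Polynomial.X = X 0 := by
  simp [PsiA]

lemma PsiA_PhiA (h : MvPolynomial (Fin 3) K) : PsiA α β (PhiA α β h) = h := by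
  have h1 : (PsiA α β).comp (PhiA α β).toRingHom = RingHom.id _ := by
    refine MvPolynomial.ringHom_ext (fun r => ?_) (fun i => ?_)
    · simp
    · fin_cases i <;> simp
  exact RingHom.congr_fun h1 h

lemma PhiA_EA (b : A2 K) : PhiA α β (EA α β b) = Polynomial.C b := by
  have h1 : ((PhiA α β).toRingHom).comp (EA α β).toRingHom = Polynomial.C := by
    refine MvPolynomial.ringHom_ext (fun r => ?_) (fun i => ?_)
    · simp
    · fin_cases i <;> simp
  exact RingHom.congr_fun h1 b

lemma PhiA_PsiA (p : Polynomial (A2 K)) : PhiA α β (PsiA α β p) = p := by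
  induction p using Polynomial.induction_on' with
  | add p q hp hq => rw [map_add, map_add, hp, hq]
  | monomial n b =>
    rw [← Polynomial.C_mul_X_pow_eq_monomial, map_mul, map_mul, map_pow, map_pow, PsiA_C, PsiA_X,
      PhiA_EA, PhiA_X0]

lemma EA_inj : Function.Injective (EA α β : A2 K → MvPolynomial (Fin 3) K) := by
  intro x y hxy
  have := congrArg (PhiA α β) hxy
  rw [PhiA_EA, PhiA_EA] at this
  exact Polynomial.C_injective this

lemma PhiA_lin {m : MvPolynomial (Fin 3) K} (hm : m ∈ Hd K 1) :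
    (PhiA α β m).natDegree ≤ 1 ∧ (PhiA α β m).coeff 1 = C (eval ![1, α, β] m) := by
  rw [mem_Hd] at hm
  have hm' : m ∈ Submodule.span K (Set.range (X : Fin 3 → MvPolynomial (Fin 3) K)) := by
    rw [← homogeneousSubmodule_one_eq_span_X]
    exact hm
  clear hm
  induction hm' using Submodule.span_induction with
  | mem y hy =>
    obtain ⟨i, rfl⟩ := hy
    fin_cases i
    · simp [Polynomial.natDegree_X_le]
    · simp only [Fin.mk_one, PhiA_X1]
      refine ⟨?_, by simp⟩
      rw [add_comm]
      exact Polynomial.natDegree_add_le_of_degree_le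
        ((Polynomial.natDegree_C_mul_le _ _).trans Polynomial.natDegree_X_le) (by simp)
    · simp only [Fin.reduceFinMk, PhiA_X2]
      refine ⟨?_, by simp⟩
      rw [add_comm]
      exact Polynomial.natDegree_add_le_of_degree_le
        ((Polynomial.natDegree_C_mul_le _ _).trans Polynomial.natDegree_X_le) (by simp)
  | zero => simp
  | add a b _ _ iha ihb =>
    rw [map_add, map_add, map_add]
    exact ⟨Polynomial.natDegree_add_le_of_degree_le iha.1 ihb.1, by
      rw [Polynomial.coeff_add, iha.2, ihb.2]⟩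
  | smul r a _ iha =>
    rw [map_smul, MvPolynomial.smul_eval]
    refine ⟨(Polynomial.natDegree_smul_le _ _).trans iha.1, ?_⟩
    rw [Polynomial.coeff_smul, iha.2, smul_eq_C_mul, C_mul]

lemma PhiA_deg (n : ℕ) {h : MvPolynomial (Fin 3) K} (hh : h ∈ Hd K n) :
    (PhiA α β h).natDegree ≤ n ∧ (PhiA α β h).coeff n = C (eval ![1, α, β] h) := by
  induction n generalizing h with
  | zero =>
    have hg' : h = C (coeff 0 h) := by
      by_cases h0 : h = 0
      · simp [h0]
      · have := totalDegree_of_Hd hh h0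
        exact totalDegree_eq_zero_iff_eq_C.mp this
    rw [hg']
    simp
  | succ n ih =>
    have h2 : h ∈ Hd K 1 * Hd K n := by
      rw [Hd_one_mul n]
      exact hh
    clear hh
    induction h2 using Submodule.mul_induction_on' with
    | mem_mul_mem m hm g hg =>
      obtain ⟨h3, h4⟩ := PhiA_lin α β hm
      obtain ⟨h5, h6⟩ := ih hg
      rw [map_mul, map_mul]
      refine ⟨?_, ?_⟩
      · refine Polynomial.natDegree_mul_le.trans ?_
        omega
      · rw [add_comm n 1, Polynomial.coeff_mul_add_eq_of_natDegree_le h3 h5, h4, h6, C_mul]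
    | add a _ b _ iha ihb =>
      rw [map_add, map_add]
      exact ⟨Polynomial.natDegree_add_le_of_degree_le iha.1 ihb.1, by
        rw [Polynomial.coeff_add, iha.2, ihb.2, C_add]⟩

/-- The key step: primitive triples generate a parameter. -/
theorem bezout_A (V : Fin 3 → MvPolynomial (Fin 3) K) {i₀ : Fin 3} {n : ℕ} (hV : V i₀ ∈ Hd K n)
    (hprim : ∀ d, (∀ i, d ∣ V i) → IsUnit d) (h0 : eval ![1, α, β] (V i₀) ≠ 0) :
    ∃ (e : Fin 3 → Polynomial (A2 K)) (b : A2 K), b ≠ 0 ∧
      e 0 * PhiA α β (V 0) + e 1 * PhiA α β (V 1) + e 2 * PhiA α β (V 2) = Polynomial.C b := by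
  classical
  let F := FractionRing (A2 K)
  let alg := algebraMap (A2 K) F
  have halg : Function.Injective alg := IsFractionRing.injective _ _
  set r := eval ![1, α, β] (V i₀) with hr
  obtain ⟨hd1, hd2⟩ := PhiA_deg α β n hV
  -- a monic multiple
  set M : Polynomial (A2 K) := Polynomial.C (C r⁻¹) * PhiA α β (V i₀) with hM
  have hMm : M.Monic := by
    refine Polynomial.monic_of_natDegree_le_of_coeff_eq_one n ?_ ?_
    · exact (Polynomial.natDegree_C_mul_le _ _).trans hd1
    · rw [hM, Polynomial.coeff_C_mul, hd2, ← C_mul, inv_mul_cancel₀ h0, C_1]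
  let J : Ideal (Polynomial F) := Ideal.span (Set.range fun i => (PhiA α β (V i)).map alg)
  let G : Polynomial F := Submodule.IsPrincipal.generator J
  have hGdvd : ∀ i, G ∣ (PhiA α β (V i)).map alg := by
    intro i
    rw [← Submodule.IsPrincipal.mem_iff_generator_dvd]
    exact Ideal.subset_span ⟨i, rfl⟩
  have hGM : G ∣ M.map alg := by
    rw [hM, Polynomial.map_mul]
    exact Dvd.dvd.mul_left (hGdvd i₀) _
  obtain ⟨g', hg'⟩ := IsIntegrallyClosed.eq_map_mul_C_of_dvd F hMm hGM
  have hG0 : G ≠ 0 := ne_zero_of_dvd_ne_zero (hMm.map alg).ne_zero hGM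
  have hmon : g'.Monic := by
    have h1 := congrArg Polynomial.leadingCoeff hg'
    rw [Polynomial.leadingCoeff_mul, Polynomial.leadingCoeff_C, Polynomial.leadingCoeff_map_of_injective halg] at h1
    have h2 : G.leadingCoeff ≠ 0 := Polynomial.leadingCoeff_ne_zero.mpr hG0
    have h3 : alg g'.leadingCoeff = 1 := mul_right_cancel₀ h2 (h1.trans (one_mul _).symm)
    exact halg (h3.trans (map_one alg).symm)
  have hdv : ∀ i, g' ∣ PhiA α β (V i) := by
    intro i
    rw [← Polynomial.map_dvd_map alg halg hmon]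
    exact (Dvd.intro _ hg').trans (hGdvd i)
  have hunit : IsUnit (PsiA α β g') := by
    refine hprim _ fun i => ?_
    have := map_dvd (PsiA α β) (hdv i)
    rwa [PsiA_PhiA] at this
  have hg1 : g' = 1 := by
    refine hmon.eq_one_of_isUnit ?_
    have := hunit.map (PhiA α β)
    rwa [PhiA_PsiA] at this
  have hGunit : IsUnit G := by
    rw [← hg', hg1, Polynomial.map_one, one_mul]
    exact Polynomial.isUnit_C.mpr (isUnit_iff_ne_zero.mpr (Polynomial.leadingCoeff_ne_zero.mpr hG0))
  have hJ : (1 : Polynomial F) ∈ J := by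
    have h1 : G ∈ J := Submodule.IsPrincipal.generator_mem J
    obtain ⟨u, hu⟩ := hGunit.exists_left_inv
    rw [← hu]
    exact J.mul_mem_left _ h1
  obtain ⟨e, he⟩ := (Ideal.mem_span_range_iff_exists_fun (R := Polynomial F)).mp hJ
  rw [Fin.sum_univ_three] at he
  obtain ⟨b0, hb0, h00⟩ := IsLocalization.integerNormalization_spec (nonZeroDivisors (A2 K)) (e 0)
  obtain ⟨b1, hb1, h01⟩ := IsLocalization.integerNormalization_spec (nonZeroDivisors (A2 K)) (e 1)
  obtain ⟨b2, hb2, h02⟩ := IsLocalization.integerNormalization_spec (nonZeroDivisors (A2 K)) (e 2)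
  set e0 := IsLocalization.integerNormalization (nonZeroDivisors (A2 K)) (e 0)
  set e1 := IsLocalization.integerNormalization (nonZeroDivisors (A2 K)) (e 1)
  set e2 := IsLocalization.integerNormalization (nonZeroDivisors (A2 K)) (e 2)
  refine ⟨![e0 * Polynomial.C (b1 * b2), e1 * Polynomial.C (b0 * b2), e2 * Polynomial.C (b0 * b1)],
    b0 * b1 * b2, mul_ne_zero (mul_ne_zero (nonZeroDivisors.ne_zero hb0) (nonZeroDivisors.ne_zero hb1))
      (nonZeroDivisors.ne_zero hb2), ?_⟩
  refine Polynomial.map_injective alg halg ?_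
  have h10 : Polynomial.map alg e0 = Polynomial.C (alg b0) * e 0 := by
    rw [show Polynomial.map alg e0 = _ from h00, Algebra.smul_def, Polynomial.algebraMap_apply]
  have h11 : Polynomial.map alg e1 = Polynomial.C (alg b1) * e 1 := by
    rw [show Polynomial.map alg e1 = _ from h01, Algebra.smul_def, Polynomial.algebraMap_apply]
  have h12 : Polynomial.map alg e2 = Polynomial.C (alg b2) * e 2 := by
    rw [show Polynomial.map alg e2 = _ from h02, Algebra.smul_def, Polynomial.algebraMap_apply]
  simp only [Matrix.cons_val_zero, Matrix.cons_val_one, Matrix.cons_val, Polynomial.map_add, Polynomial.map_mul,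
    Polynomial.map_C, map_mul, h10, h11, h12]
  linear_combination (Polynomial.C (alg b0) * Polynomial.C (alg b1) * Polynomial.C (alg b2)) * he

/-- The line restriction of a form in the parameters is constant. -/
lemma piC_EA (c : K) (b : A2 K) :
    piC α β c (EA α β b) = Polynomial.C (eval ![c, 1] b) := by
  have h1 : ((piC α β c).toRingHom).comp (EA α β).toRingHom
      = (Polynomial.C).comp (eval ![c, 1]) := by
    refine MvPolynomial.ringHom_ext (fun r => ?_) (fun i => ?_)
    · simp
    · fin_cases i <;> simp [piC_X0, piC_X1, piC_X2]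
  exact RingHom.congr_fun h1 b

lemma EA_mem {e : ℕ} {b : A2 K} (hb : b.IsHomogeneous e) : EA α β b ∈ Hd K e := by
  have h1 : ∀ i : Fin 2, ((![X 1 - C α * X 0, X 2 - C β * X 0] : Fin 2 → MvPolynomial (Fin 3) K) i).IsHomogeneous 1 := by
    intro i
    fin_cases i
    · exact Submodule.sub_mem _ (X_mem_Hd 1) (C_mul_X_mem _ _)
    · exact Submodule.sub_mem _ (X_mem_Hd 2) (C_mul_X_mem _ _)
  have := IsHomogeneous.aeval hb _ h1
  rwa [one_mul] at this

lemma comp_EA (e : ℕ) (b : A2 K) :
    homogeneousComponent e (EA α β b) = EA α β (homogeneousComponent e b) := by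
  conv_lhs => rw [← sum_homogeneousComponent b]
  rw [map_sum, map_sum]
  have h1 : ∀ k ∈ Finset.range (b.totalDegree + 1),
      homogeneousComponent e (EA α β (homogeneousComponent k b))
        = if k = e then EA α β (homogeneousComponent e b) else 0 := by
    intro k _
    rw [homogeneousComponent_of_mem (EA_mem α β (homogeneousComponent_isHomogeneous k b))]
    by_cases h : k = e
    · subst h
      simp
    · rw [if_neg h, if_neg (Ne.symm h)]
  rw [Finset.sum_congr rfl h1, Finset.sum_ite_eq']
  split_ifs with h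
  · rfl
  · rw [homogeneousComponent_eq_zero _ _ (by
      simp only [Finset.mem_range, not_lt] at h
      omega), map_zero]

/-- Bezout on the lines through a point. -/
theorem bezout_line (V : Fin 3 → MvPolynomial (Fin 3) K) (dd : Fin 3 → ℕ)
    (hV : ∀ i, V i ∈ Hd K (dd i)) {i₀ : Fin 3}
    (hprim : ∀ d, (∀ i, d ∣ V i) → IsUnit d) (h0 : eval ![1, α, β] (V i₀) ≠ 0) :
    ∃ (c₀ : Fin 3 → MvPolynomial (Fin 3) K) (ρ : MvPolynomial (Fin 3) K) (e : ℕ),
      ρ ≠ 0 ∧ ρ ∈ Hd K e ∧ c₀ 0 * V 0 + c₀ 1 * V 1 + c₀ 2 * V 2 = ρ ∧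
        ∀ c, ∃ r, piC α β c ρ = Polynomial.C r := by
  obtain ⟨e', b, hb, hsum⟩ := bezout_A α β V (hV i₀) hprim h0
  have h1 := congrArg (PsiA α β) hsum
  simp only [map_add, map_mul, PsiA_PhiA, PsiA_C] at h1
  -- a nonzero component
  have h2 : ∃ e, homogeneousComponent e b ≠ 0 := by
    by_contra hcon
    push Not at hcon
    apply hb
    rw [← sum_homogeneousComponent b]
    exact Finset.sum_eq_zero fun k _ => hcon k
  obtain ⟨e, he⟩ := h2
  refine ⟨fun i => cp e (dd i) (PsiA α β (e' i)), EA α β (homogeneousComponent e b), e, ?_, ?_, ?_, ?_⟩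
  · intro h
    exact he (EA_inj α β (h.trans (map_zero _).symm))
  · exact EA_mem α β (homogeneousComponent_isHomogeneous e b)
  · rw [← comp_EA]
    have h3 := congrArg (cp e 0) h1
    rw [cp_add, cp_add, cp_mul (hV 0), cp_mul (hV 1), cp_mul (hV 2), zero_add, zero_add, zero_add] at h3
    rw [h3]
    simp [cp]
  · intro c
    exact ⟨_, piC_EA α β c _⟩

end Bez

end Vale.Agent.Lib.P200.All
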