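import Vale.Agent.Lib.P200.All.Mat

namespace Vale.Agent.Lib.P200.All

open MvPolynomial Module Fam Gen

variable {K : Type*} [Field K]

/-- The first of two linear forms vanishing at a point. -/
noncomputable def L1 (P : Fin 3 → K) : MvPolynomial (Fin 3) K := C (P 0) * X 1 - C (P 1) * X 0

/-- The second of two linear forms vanishing at a point. -/
noncomputable def L2 (P : Fin 3 → K) : MvPolynomial (Fin 3) K := C (P 0) * X 2 - C (P 2) * X 0

section Lin

variable (P : Fin 3 → K)

lemma C_mul_X_mem (r : K) (i : Fin 3) : (C r * X i : MvPolynomial (Fin 3) K) ∈ Hd K 1 := by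
  rw [← smul_eq_C_mul]
  exact Submodule.smul_mem _ _ (X_mem_Hd i)

lemma L1_mem : L1 P ∈ Hd K 1 := Submodule.sub_mem _ (C_mul_X_mem _ _) (C_mul_X_mem _ _)
lemma L2_mem : L2 P ∈ Hd K 1 := Submodule.sub_mem _ (C_mul_X_mem _ _) (C_mul_X_mem _ _)

@[simp] lemma eval_L1 : eval P (L1 P) = 0 := by
  simp [L1]
  ring

@[simp] lemma eval_L2 : eval P (L2 P) = 0 := by
  simp [L2]
  ring

variable {P}

lemma L1_ne (hP : P 0 ≠ 0) : L1 P ≠ 0 := by
  intro h
  have := congrArg (eval ![0, 1, 0]) h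
  simp [L1] at this
  exact hP this

lemma L2_ne (hP : P 0 ≠ 0) : L2 P ≠ 0 := by
  intro h
  have := congrArg (eval ![0, 0, 1]) h
  simp [L2] at this
  exact hP this

lemma L1_not_dvd (hP : P 0 ≠ 0) : ¬ L1 P ∣ L2 P := by
  intro h
  obtain ⟨κ, hκ⟩ := lin_dvd (L1_mem P) (L2_mem P) h
  have := congrArg (eval ![0, 0, 1]) hκ
  simp [L1, L2] at this
  exact hP this

/-- Exactness of the Koszul complex of the two linear forms. -/
lemma koszul (hP : P 0 ≠ 0) {m : ℕ} {p q : MvPolynomial (Fin 3) K} (hq : q ∈ Hd K m)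
    (h : L1 P * p + L2 P * q = 0) :
    ∃ y, y ∈ Pt K m 1 ∧ p = L2 P * y ∧ q = - (L1 P * y) := by
  have hprime := lin_prime (L1_mem P) (L1_ne hP)
  have hd : L1 P ∣ L2 P * q := ⟨-p, by linear_combination h⟩
  rcases hprime.dvd_or_dvd hd with h1 | h1
  · exact absurd h1 (L1_not_dvd hP)
  obtain ⟨r, hr⟩ := h1
  have h2 : cp m 1 r * L1 P = q := decomp1 (L1_mem P) hq (by rw [hr]; ring)
  refine ⟨- cp m 1 r, Submodule.neg_mem _ (cp_mem _ _ _), ?_, ?_⟩
  · apply mul_left_cancel₀ (L1_ne hP)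
    rw [← h2] at h
    linear_combination h
  · rw [← h2]
    ring

/-- The ideal of the two linear forms contains the forms vanishing at the point. -/
lemma mem_pencil [Infinite K] (hP : P 0 ≠ 0) {d : ℕ} {α : MvPolynomial (Fin 3) K}
    (hα : α ∈ Hd K d) (h0 : eval P α = 0) :
    ∃ A B, A ∈ Pt K d 1 ∧ B ∈ Pt K d 1 ∧ A * L1 P + B * L2 P = α := by
  set 𝔭 := Ideal.span {L1 P, L2 P} with h𝔭
  let ψ : MvPolynomial (Fin 3) K →ₐ[K] MvPolynomial (Fin 3) K :=
    aeval ![X 0, C (P 1 / P 0) * X 0, C (P 2 / P 0) * X 0]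
  have h1 : (Ideal.Quotient.mkₐ K 𝔭).comp ψ = Ideal.Quotient.mkₐ K 𝔭 := by
    apply MvPolynomial.algHom_ext
    intro i
    fin_cases i
    · simp [ψ]
    · simp only [ψ, AlgHom.comp_apply, aeval_X]
      simp only [Fin.mk_one, Matrix.cons_val_one, Matrix.cons_val_zero]
      symm
      rw [Ideal.Quotient.mkₐ_eq_mk, Ideal.Quotient.eq, Ideal.mem_span_pair]
      refine ⟨C (P 0)⁻¹, 0, ?_⟩
      have h3 : (C (P 0)⁻¹ : MvPolynomial (Fin 3) K) * C (P 0) = 1 := by
        rw [← C_mul, inv_mul_cancel₀ hP, C_1]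
      rw [div_eq_mul_inv, C_mul, L1]
      linear_combination X 1 * h3
    · simp only [ψ, AlgHom.comp_apply, aeval_X]
      simp only [Fin.reduceFinMk, Matrix.cons_val]
      symm
      rw [Ideal.Quotient.mkₐ_eq_mk, Ideal.Quotient.eq, Ideal.mem_span_pair]
      refine ⟨0, C (P 0)⁻¹, ?_⟩
      have h3 : (C (P 0)⁻¹ : MvPolynomial (Fin 3) K) * C (P 0) = 1 := by
        rw [← C_mul, inv_mul_cancel₀ hP, C_1]
      rw [div_eq_mul_inv, C_mul, L2]
      linear_combination X 2 * h3
  have h2 : α - ψ α ∈ 𝔭 := by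
    have h3 := AlgHom.congr_fun h1 α
    simp only [AlgHom.comp_apply, Ideal.Quotient.mkₐ_eq_mk] at h3
    exact Ideal.Quotient.eq.mp h3.symm
  have h3 : ψ α = 0 := by
    apply MvPolynomial.funext
    intro R
    rw [map_zero]
    have h4 : (eval R).comp ψ.toRingHom = eval (fun i => (R 0 / P 0) * P i) := by
      refine MvPolynomial.ringHom_ext (fun r => ?_) (fun i => ?_)
      · simp [ψ]
      · fin_cases i
        · simp [ψ]
          field_simp
        · simp [ψ]
          field_simp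
        · simp [ψ]
          field_simp
    have h5 : eval R (ψ α) = eval (fun i => (R 0 / P 0) * P i) α := RingHom.congr_fun h4 α
    rw [h5, eval_scale hα, h0, mul_zero]
  rw [h3, sub_zero] at h2
  obtain ⟨A, B, hAB⟩ := Ideal.mem_span_pair.mp h2
  exact ⟨_, _, cp_mem _ _ A, cp_mem _ _ B, decomp2 (L1_mem P) (L2_mem P) hα hAB⟩

end Lin

/-- The data of a complete intersection in three variables. -/
structure CI (f g h : MvPolynomial (Fin 3) K) (a b c : ℕ) : Prop where
  hf : f ∈ Hd K a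
  hg : g ∈ Hd K b
  hh : h ∈ Hd K c
  reg : RegSeq f g h
  ha : 2 ≤ a
  hab : a ≤ b
  hbc : b ≤ c

/-- The ideal of the complete intersection. -/
noncomputable abbrev II (f g h : MvPolynomial (Fin 3) K) : Ideal (MvPolynomial (Fin 3) K) := Ideal.span {f, g, h}

section Sub

variable {I : Ideal (MvPolynomial (Fin 3) K)}

/-- The subspace generated in the next degree, modulo the ideal. -/
noncomputable def up (I : Ideal (MvPolynomial (Fin 3) K)) (V : Submodule K (MvPolynomial (Fin 3) K))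
    (d : ℕ) : Submodule K (MvPolynomial (Fin 3) K) :=
  Hd K 1 * V ⊔ degPart I (d + 1)

lemma up_le {V : Submodule K (MvPolynomial (Fin 3) K)} {d : ℕ} (hV : V ≤ Hd K d) :
    up I V d ≤ Hd K (d + 1) := sup_le (mul_le_Hd hV) inf_le_right

lemma degPart_le_up (V : Submodule K (MvPolynomial (Fin 3) K)) (d : ℕ) :
    degPart I (d + 1) ≤ up I V d := le_sup_right

lemma mul_mem_up {V : Submodule K (MvPolynomial (Fin 3) K)} (d : ℕ)
    {s v : MvPolynomial (Fin 3) K} (hs : s ∈ Hd K 1) (hv : v ∈ V) : s * v ∈ up I V d :=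
  Submodule.mem_sup_left (Submodule.mul_mem_mul hs hv)

lemma up_mono {V V' : Submodule K (MvPolynomial (Fin 3) K)} (h : V ≤ V') (d : ℕ) :
    up I V d ≤ up I V' d :=
  sup_le_sup_right (Submodule.mul_le.mpr fun _ hm _ hv => Submodule.mul_mem_mul hm (h hv)) _

/-- The elements of degree `n` which all variables multiply into `V`. -/
noncomputable def colon (V : Submodule K (MvPolynomial (Fin 3) K)) (n : ℕ) :
    Submodule K (MvPolynomial (Fin 3) K) where
  carrier := {v | v ∈ Hd K n ∧ ∀ i : Fin 3, X i * v ∈ V}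
  add_mem' := by
    rintro x y ⟨hx1, hx2⟩ ⟨hy1, hy2⟩
    refine ⟨Submodule.add_mem _ hx1 hy1, fun i => ?_⟩
    rw [mul_add]
    exact Submodule.add_mem _ (hx2 i) (hy2 i)
  zero_mem' := ⟨Submodule.zero_mem _, fun i => by rw [mul_zero]; exact Submodule.zero_mem _⟩
  smul_mem' := by
    rintro r x ⟨hx1, hx2⟩
    refine ⟨Submodule.smul_mem _ _ hx1, fun i => ?_⟩
    rw [mul_smul_comm]
    exact Submodule.smul_mem _ _ (hx2 i)

lemma mem_colon {V : Submodule K (MvPolynomial (Fin 3) K)} {n : ℕ} {v : MvPolynomial (Fin 3) K} :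
    v ∈ colon V n ↔ v ∈ Hd K n ∧ ∀ i : Fin 3, X i * v ∈ V := Iff.rfl

lemma colon_le (V : Submodule K (MvPolynomial (Fin 3) K)) (n : ℕ) : colon V n ≤ Hd K n :=
  fun _ hv => hv.1

/-- What holds for the variables holds for all linear forms. -/
lemma lin_mul_mem {W : Submodule K (MvPolynomial (Fin 3) K)} {v s : MvPolynomial (Fin 3) K}
    (hv : ∀ i : Fin 3, X i * v ∈ W) (hs : s ∈ Hd K 1) : s * v ∈ W := by
  have e : Hd K 1 = Submodule.span K (Set.range X) := homogeneousSubmodule_one_eq_span_X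
  rw [e] at hs
  induction hs using Submodule.span_induction with
  | mem x hx =>
    obtain ⟨i, rfl⟩ := hx
    exact hv i
  | zero => rw [zero_mul]; exact Submodule.zero_mem _
  | add x y _ _ h1 h2 => rw [add_mul]; exact Submodule.add_mem _ h1 h2
  | smul r x _ h1 => rw [smul_mul_assoc]; exact Submodule.smul_mem _ _ h1

lemma degPart_le_colon {V : Submodule K (MvPolynomial (Fin 3) K)} {n : ℕ}
    (h : degPart I (n + 1) ≤ V) : degPart I n ≤ colon V n := by
  intro v hv
  refine ⟨(mem_degPart.mp hv).2, fun i => h ?_⟩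
  rw [mul_comm]
  exact degPart_mul (by omega) hv (X_mem_Hd i)

lemma lin_mul_degPart {m x : MvPolynomial (Fin 3) K} {n : ℕ} (hm : m ∈ Hd K 1)
    (hx : x ∈ degPart I n) : m * x ∈ degPart I (n + 1) := by
  rw [mul_comm]
  exact degPart_mul rfl hx hm

end Sub

section LinAlg

variable {E F : Type*} [AddCommGroup E] [Module K E] [AddCommGroup F] [Module K F]

/-- Rank and nullity on a subspace. -/
lemma finrank_map_add_inf_ker (φ : E →ₗ[K] F) (S : Submodule K E) [Module.Finite K S] :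
    finrank K (S.map φ) + finrank K ↥(S ⊓ LinearMap.ker φ) = finrank K S := by
  have h1 := LinearMap.finrank_range_add_finrank_ker (φ.domRestrict S)
  rw [LinearMap.range_domRestrict] at h1
  have h2 : LinearMap.ker (φ.domRestrict S) = (S ⊓ LinearMap.ker φ).comap S.subtype := by
    ext x
    simp
  rw [h2] at h1
  rw [(Submodule.comapSubtypeEquivOfLe (inf_le_left : S ⊓ LinearMap.ker φ ≤ S)).finrank_eq] at h1
  exact h1

end LinAlg

section Quot

variable (I : Ideal (MvPolynomial (Fin 3) K))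

/-- The quotient map as a linear map. -/
noncomputable def qm : MvPolynomial (Fin 3) K →ₗ[K] (MvPolynomial (Fin 3) K ⧸ I) :=
  (Ideal.Quotient.mkₐ K I).toLinearMap

variable {I}

lemma qm_eq_zero {x : MvPolynomial (Fin 3) K} : qm I x = 0 ↔ x ∈ I := by
  show Ideal.Quotient.mk I x = 0 ↔ _
  exact Ideal.Quotient.eq_zero_iff_mem

lemma qm_mul (x y : MvPolynomial (Fin 3) K) : qm I (x * y) = qm I x * qm I y := by
  show Ideal.Quotient.mk I _ = Ideal.Quotient.mk I _ * Ideal.Quotient.mk I _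
  rw [map_mul]

/-- The dimension of the image in the quotient. -/
lemma finrank_map_qm {V : Submodule K (MvPolynomial (Fin 3) K)} {d : ℕ} (hV : V ≤ Hd K d)
    (hI : degPart I d ≤ V) : finrank K (V.map (qm I)) + finrank K (degPart I d) = finrank K V := by
  have := fin_of_le hV
  have h1 := finrank_map_add_inf_ker (qm I) V
  have h2 : V ⊓ LinearMap.ker (qm I) = degPart I d := by
    ext x
    simp only [Submodule.mem_inf, LinearMap.mem_ker, qm_eq_zero, mem_degPart]
    constructor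
    · rintro ⟨h3, h4⟩
      exact ⟨h4, hV h3⟩
    · intro h3
      exact ⟨hI h3, (mem_degPart.mp h3).1⟩
  rw [h2] at h1
  exact h1

end Quot

end Vale.Agent.Lib.P200.All
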