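import Vale.Agent.Lib.P200.All.Mac

namespace Vale.Agent.Lib.P200.All

open MvPolynomial Module Fam Gen

variable {K : Type*} [Field K] {f g h : MvPolynomial (Fin 3) K} {a b c : ℕ}

lemma Pt_mul_Hd {n e : ℕ} {x y : MvPolynomial (Fin 3) K} (hx : x ∈ Pt K n e) (hy : y ∈ Hd K e) :
    x * y ∈ Hd K n := by
  have := gmul_Pt_le hy (mul_mem_gmul hx)
  rwa [mul_comm]

lemma lin_Pt {m v : MvPolynomial (Fin 3) K} {n e : ℕ} (hm : m ∈ Hd K 1) (hv : v ∈ Pt K n e) :
    m * v ∈ Pt K (n + 1) e := by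
  by_cases h : e ≤ n
  · rw [Pt_of_le h] at hv
    rw [Pt_of_le (by omega)]
    have := Hd_mul_mem hm hv
    rwa [show 1 + (n - e) = n + 1 - e by omega] at this
  · rw [Pt_of_lt (by omega)] at hv
    rw [(Submodule.mem_bot K).mp hv, mul_zero]
    exact Submodule.zero_mem _

lemma mem_pencil' [Infinite K] {P : Fin 3 → K} (hP : P 0 ≠ 0) {n e : ℕ}
    {α : MvPolynomial (Fin 3) K} (hα : α ∈ Pt K (n + 1) e) (h0 : eval P α = 0) :
    ∃ A B, A ∈ Pt K n e ∧ B ∈ Pt K n e ∧ A * L1 P + B * L2 P = α := by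
  by_cases he : e ≤ n + 1
  · rw [Pt_of_le he] at hα
    obtain ⟨A, B, hA, hB, hAB⟩ := mem_pencil hP hα h0
    have hle : Pt K (n + 1 - e) 1 ≤ Pt K n e := by
      by_cases h1 : 1 ≤ n + 1 - e
      · rw [Pt_of_le h1, Pt_of_le (by omega), show n + 1 - e - 1 = n - e by omega]
      · rw [Pt_of_lt (by omega)]
        exact bot_le
    exact ⟨A, B, hle hA, hle hB, hAB⟩
  · rw [Pt_of_lt (by omega)] at hα
    rw [(Submodule.mem_bot K).mp hα]
    exact ⟨0, 0, Submodule.zero_mem _, Submodule.zero_mem _, by simp⟩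

namespace CI

variable (cI : CI f g h a b c)

include cI

lemma a_pos : 1 ≤ a := by have := cI.ha; omega
lemma b_pos : 1 ≤ b := by have := cI.ha; have := cI.hab; omega

/-- There are no syzygies in low degrees. -/
lemma low_syz {D : ℕ} {x y z : MvPolynomial (Fin 3) K} (hx : x ∈ Pt K D a) (hy : y ∈ Pt K D b)
    (hz : z ∈ Pt K D c) (hD : D < a + b) (hs : x * f + y * g + z * h = 0) :
    x = 0 ∧ y = 0 ∧ z = 0 := by
  obtain ⟨p, q, r, h1, h2, h3, hp, hq, hr⟩ := E1_hom cI.reg cI.hf cI.hg cI.hh hx hy hz hs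
  have := cI.hab
  have := cI.hbc
  rw [Pt_of_lt (by omega), Submodule.mem_bot] at hp hq hr
  subst hp hq hr
  simp only [zero_mul, sub_zero] at h1 h2 h3
  exact ⟨h1, h2, h3⟩

lemma decomp {n : ℕ} {x : MvPolynomial (Fin 3) K} (hx : x ∈ degPart (II f g h) n) :
    ∃ α β γ, α ∈ Pt K n a ∧ β ∈ Pt K n b ∧ γ ∈ Pt K n c ∧ α * f + β * g + γ * h = x := by
  obtain ⟨h1, h2⟩ := mem_degPart.mp hx
  obtain ⟨u, v, w, hs⟩ := mem_span3.mp h1
  exact ⟨_, _, _, cp_mem _ _ u, cp_mem _ _ v, cp_mem _ _ w, decomp3 cI.hf cI.hg cI.hh h2 hs⟩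

lemma mem_of_decomp {n : ℕ} {α β γ : MvPolynomial (Fin 3) K} (hα : α ∈ Pt K n a)
    (hβ : β ∈ Pt K n b) (hγ : γ ∈ Pt K n c) : α * f + β * g + γ * h ∈ degPart (II f g h) n :=
  mem_degPart.mpr ⟨mem_span3.mpr ⟨_, _, _, rfl⟩,
    Submodule.add_mem _ (Submodule.add_mem _ (Pt_mul_Hd hα cI.hf) (Pt_mul_Hd hβ cI.hg))
      (Pt_mul_Hd hγ cI.hh)⟩

/-- An element of the ideal with vanishing coefficients at the point. -/
lemma val_zero_mem [Infinite K] {P : Fin 3 → K} (hP : P 0 ≠ 0) {n : ℕ}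
    {α β γ : MvPolynomial (Fin 3) K} (hα : α ∈ Pt K (n + 1) a) (hβ : β ∈ Pt K (n + 1) b)
    (hγ : γ ∈ Pt K (n + 1) c) (h1 : eval P α = 0) (h2 : eval P β = 0) (h3 : eval P γ = 0) :
    ∃ u v, u ∈ degPart (II f g h) n ∧ v ∈ degPart (II f g h) n ∧
      L1 P * u + L2 P * v = α * f + β * g + γ * h := by
  obtain ⟨A1, B1, a1, b1, e1⟩ := mem_pencil' hP hα h1
  obtain ⟨A2, B2, a2, b2, e2⟩ := mem_pencil' hP hβ h2
  obtain ⟨A3, B3, a3, b3, e3⟩ := mem_pencil' hP hγ h3
  refine ⟨_, _, cI.mem_of_decomp a1 a2 a3, cI.mem_of_decomp b1 b2 b3, ?_⟩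
  rw [← e1, ← e2, ← e3]
  ring

/-- An element annihilated by the two linear forms lies in the ideal. -/
lemma ann_pencil [Infinite K] {l : MvPolynomial (Fin 3) K →ₗ[K] K} {s : ℕ}
    (hs : a + b + c = s + 3)
    (hl : ∀ g' ∈ Hd K s, l g' = 0 ↔ g' ∈ degPart (II f g h) s) {P : Fin 3 → K} (hP : P 0 ≠ 0)
    (hfP : eval P f ≠ 0) {e : ℕ} {y : MvPolynomial (Fin 3) K} (hy : y ∈ Hd K e)
    (he : e + a ≤ s) (h1 : L1 P * y ∈ II f g h) (h2 : L2 P * y ∈ II f g h) : y ∈ II f g h := by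
  have hkey : ∀ (n : ℕ) (v : MvPolynomial (Fin 3) K), v ∈ Hd K n →
      ∃ A B, A * L1 P + B * L2 P = v - C (eval P v / P 0 ^ n) * X 0 ^ n := by
    intro n v hv
    have hXn : (X 0 ^ n : MvPolynomial (Fin 3) K) ∈ Hd K n := by
      have := IsHomogeneous.pow (X_mem_Hd (K := K) 0) n
      rwa [one_mul] at this
    have hmem : v - C (eval P v / P 0 ^ n) * X 0 ^ n ∈ Hd K n := by
      refine Submodule.sub_mem _ hv ?_
      rw [← smul_eq_C_mul]
      exact Submodule.smul_mem _ _ hXn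
    have hev : eval P (v - C (eval P v / P 0 ^ n) * X 0 ^ n) = 0 := by
      rw [map_sub, map_mul, map_pow, eval_X, eval_C]
      field_simp
      ring
    obtain ⟨A, B, _, _, hAB⟩ := mem_pencil hP hmem hev
    exact ⟨A, B, hAB⟩
  have hX : X 0 ^ a * y ∈ II f g h := by
    obtain ⟨A, B, hAB⟩ := hkey a f cI.hf
    have hfy : f * y ∈ II f g h := Ideal.mul_mem_right _ _ (Ideal.subset_span (by simp))
    have hr : eval P f / P 0 ^ a ≠ 0 := div_ne_zero hfP (pow_ne_zero _ hP)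
    have h3 : C (eval P f / P 0 ^ a) * (X 0 ^ a * y) ∈ II f g h := by
      have h4 : C (eval P f / P 0 ^ a) * (X 0 ^ a * y)
          = f * y - (A * (L1 P * y) + B * (L2 P * y)) := by
        linear_combination y * hAB
      rw [h4]
      exact Ideal.sub_mem _ hfy (Ideal.add_mem _ (Ideal.mul_mem_left _ _ h1)
        (Ideal.mul_mem_left _ _ h2))
    have h5 : X 0 ^ a * y = C (eval P f / P 0 ^ a)⁻¹ * (C (eval P f / P 0 ^ a) * (X 0 ^ a * y)) := by
      rw [← mul_assoc, ← C_mul, inv_mul_cancel₀ hr, C_1, one_mul]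
    rw [h5]
    exact Ideal.mul_mem_left _ _ h3
  refine left_kernelG cI.reg cI.hf cI.hg cI.hh hs hl (s - e) e (by omega) y hy fun v hv => ?_
  refine (hl _ ?_).mpr ?_
  · have := Hd_mul_mem hy hv
    rwa [show e + (s - e) = s by omega] at this
  · refine mem_degPart.mpr ⟨?_, ?_⟩
    · obtain ⟨A, B, hAB⟩ := hkey (s - e) v hv
      have h4 : y * v = A * (L1 P * y) + B * (L2 P * y)
          + C (eval P v / P 0 ^ (s - e)) * X 0 ^ (s - e - a) * (X 0 ^ a * y) := by
        have h5 : (X 0 ^ (s - e) : MvPolynomial (Fin 3) K) = X 0 ^ (s - e - a) * X 0 ^ a := by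
          rw [← pow_add]
          congr 1
          omega
        rw [h5] at hAB
        linear_combination (-y) * hAB
      rw [h4]
      exact Ideal.add_mem _ (Ideal.add_mem _ (Ideal.mul_mem_left _ _ h1)
        (Ideal.mul_mem_left _ _ h2)) (Ideal.mul_mem_left _ _ hX)
    · have := Hd_mul_mem hy hv
      rwa [show e + (s - e) = s by omega] at this

end CI

/-- The relations at a point among elements of a subspace are the Koszul ones. -/
def QP (I : Ideal (MvPolynomial (Fin 3) K)) (V : Submodule K (MvPolynomial (Fin 3) K)) (n : ℕ)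
    (P : Fin 3 → K) : Prop :=
  ∀ v₁ ∈ V, ∀ v₂ ∈ V, L1 P * v₁ + L2 P * v₂ ∈ I →
    ∃ y ∈ colon V n, v₁ - L2 P * y ∈ I ∧ v₂ + L1 P * y ∈ I

namespace CI

variable (cI : CI f g h a b c)

include cI

/-- The Koszul property descends along the colon. -/
theorem QP_colon [Infinite K] {l : MvPolynomial (Fin 3) K →ₗ[K] K} {s : ℕ}
    (hs : a + b + c = s + 3)
    (hl : ∀ g' ∈ Hd K s, l g' = 0 ↔ g' ∈ degPart (II f g h) s) {P : Fin 3 → K} (hP : P 0 ≠ 0)
    (hfP : eval P f ≠ 0) {n : ℕ} {U : Submodule K (MvPolynomial (Fin 3) K)}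
    (hIU : degPart (II f g h) (n + 2) ≤ U) (hn : n + 3 < a + b)
    (hQ : QP (II f g h) U (n + 1) P) : QP (II f g h) (colon U (n + 1)) n P := by
  have hbc := cI.hbc
  have hab := cI.hab
  have hIT : degPart (II f g h) (n + 1) ≤ colon U (n + 1) := degPart_le_colon hIU
  intro t₁ ht₁ t₂ ht₂ hι
  have hhom : ∀ {t : MvPolynomial (Fin 3) K}, t ∈ colon U (n + 1) → ∀ {m : MvPolynomial (Fin 3) K},
      m ∈ Hd K 1 → m * t ∈ Hd K (n + 2) := by
    intro t ht m hm
    have := Hd_mul_mem hm ht.1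
    rwa [show 1 + (n + 1) = n + 2 by omega] at this
  obtain ⟨y, hy, hy1, hy2⟩ := hQ (X 0 * t₁) (ht₁.2 0) (X 0 * t₂) (ht₂.2 0) (by
    have : L1 P * (X 0 * t₁) + L2 P * (X 0 * t₂) = X 0 * (L1 P * t₁ + L2 P * t₂) := by ring
    rw [this]
    exact Ideal.mul_mem_left _ _ hι)
  set ι := L1 P * t₁ + L2 P * t₂ with hιdef
  set ι₁ := X 0 * t₁ - L2 P * y with hι₁
  set ι₂ := X 0 * t₂ + L1 P * y with hι₂
  have hιm : ι ∈ degPart (II f g h) (n + 2) :=
    mem_degPart.mpr ⟨hι, Submodule.add_mem _ (hhom ht₁ (L1_mem P)) (hhom ht₂ (L2_mem P))⟩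
  have hι₁m : ι₁ ∈ degPart (II f g h) (n + 2) :=
    mem_degPart.mpr ⟨hy1, Submodule.sub_mem _ (hhom ht₁ (X_mem_Hd 0)) (hhom hy (L2_mem P))⟩
  have hι₂m : ι₂ ∈ degPart (II f g h) (n + 2) :=
    mem_degPart.mpr ⟨hy2, Submodule.add_mem _ (hhom ht₂ (X_mem_Hd 0)) (hhom hy (L1_mem P))⟩
  obtain ⟨α, β, γ, hα, hβ, hγ, e0⟩ := cI.decomp hιm
  obtain ⟨α₁, β₁, γ₁, hα₁, hβ₁, hγ₁, e1⟩ := cI.decomp hι₁m
  obtain ⟨α₂, β₂, γ₂, hα₂, hβ₂, hγ₂, e2⟩ := cI.decomp hι₂m
  have hid : X 0 * ι = L1 P * ι₁ + L2 P * ι₂ := by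
    rw [hιdef, hι₁, hι₂]
    ring
  have hzero : (X 0 * α - L1 P * α₁ - L2 P * α₂) * f + (X 0 * β - L1 P * β₁ - L2 P * β₂) * g
      + (X 0 * γ - L1 P * γ₁ - L2 P * γ₂) * h = 0 := by
    rw [← e0, ← e1, ← e2] at hid
    linear_combination hid
  have hmem : ∀ {e : ℕ} {u u₁ u₂ : MvPolynomial (Fin 3) K}, u ∈ Pt K (n + 2) e → u₁ ∈ Pt K (n + 2) e →
      u₂ ∈ Pt K (n + 2) e → X 0 * u - L1 P * u₁ - L2 P * u₂ ∈ Pt K (n + 3) e := by
    intro e u u₁ u₂ h1 h2 h3
    exact Submodule.sub_mem _ (Submodule.sub_mem _ (lin_Pt (X_mem_Hd 0) h1) (lin_Pt (L1_mem P) h2))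
      (lin_Pt (L2_mem P) h3)
  obtain ⟨z1, z2, z3⟩ := cI.low_syz (hmem hα hα₁ hα₂) (hmem hβ hβ₁ hβ₂) (hmem hγ hγ₁ hγ₂) hn hzero
  have hev : ∀ {u u₁ u₂ : MvPolynomial (Fin 3) K}, X 0 * u - L1 P * u₁ - L2 P * u₂ = 0 →
      eval P u = 0 := by
    intro u u₁ u₂ h1
    have h2 := congrArg (eval P) h1
    simp only [map_sub, map_mul, eval_L1, eval_L2, eval_X, zero_mul, sub_zero, map_zero] at h2
    exact (mul_eq_zero.mp h2).resolve_left hP
  obtain ⟨u, v, hu, hv, huv⟩ := cI.val_zero_mem hP hα hβ hγ (hev z1) (hev z2) (hev z3)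
  rw [e0] at huv
  have hrel : L1 P * (t₁ - u) + L2 P * (t₂ - v) = 0 := by
    rw [hιdef] at huv
    linear_combination -huv
  have hq : t₂ - v ∈ Hd K (n + 1) := Submodule.sub_mem _ ht₂.1 (mem_degPart.mp hv).2
  obtain ⟨y', hy', k1, k2⟩ := koszul hP hq hrel
  have hy'H : y' ∈ Hd K n := by
    rw [Pt_of_le (by omega)] at hy'
    simpa using hy'
  have hL1 : L1 P * y' ∈ colon U (n + 1) := by
    have : L1 P * y' = v - t₂ := by linear_combination k2
    rw [this]
    exact Submodule.sub_mem _ (hIT hv) ht₂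
  have hL2 : L2 P * y' ∈ colon U (n + 1) := by
    rw [← k1]
    exact Submodule.sub_mem _ ht₁ (hIT hu)
  have hX0 : X 0 * y' ∈ colon U (n + 1) := by
    have hz : X 0 * y' - y ∈ II f g h := by
      refine cI.ann_pencil hs hl hP hfP (e := n + 1)
        (Submodule.sub_mem _ (?_ : X 0 * y' ∈ Hd K (n + 1)) hy.1) (by omega) ?_ ?_
      · have := Hd_mul_mem (X_mem_Hd (K := K) 0) hy'H
        rwa [add_comm] at this
      · have : L1 P * (X 0 * y' - y) = X 0 * v - ι₂ := by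
          rw [hι₂]
          linear_combination (X 0) * k2
        rw [this]
        exact Ideal.sub_mem _ (Ideal.mul_mem_left _ _ (mem_degPart.mp hv).1) (mem_degPart.mp hι₂m).1
      · have : L2 P * (X 0 * y' - y) = ι₁ - X 0 * u := by
          rw [hι₁]
          linear_combination (-X 0) * k1
        rw [this]
        exact Ideal.sub_mem _ (mem_degPart.mp hι₁m).1 (Ideal.mul_mem_left _ _ (mem_degPart.mp hu).1)
    have h2 : X 0 * y' ∈ Hd K (n + 1) := by
      have := Hd_mul_mem (X_mem_Hd (K := K) 0) hy'H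
      rwa [add_comm] at this
    have h3 : X 0 * y' - y ∈ colon U (n + 1) :=
      hIT (mem_degPart.mpr ⟨hz, Submodule.sub_mem _ h2 hy.1⟩)
    have h4 := Submodule.add_mem _ h3 hy
    rwa [sub_add_cancel] at h4
  have hPinv : (C (P 0)⁻¹ : MvPolynomial (Fin 3) K) * C (P 0) = 1 := by
    rw [← C_mul, inv_mul_cancel₀ hP, C_1]
  refine ⟨y', ⟨hy'H, ?_⟩, ?_, ?_⟩
  · intro i
    fin_cases i
    · exact hX0
    · have e : (X 1 * y' : MvPolynomial (Fin 3) K)
          = (P 0)⁻¹ • (L1 P * y' + P 1 • (X 0 * y')) := by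
        rw [smul_eq_C_mul, smul_eq_C_mul, L1]
        linear_combination (-X 1 * y') * hPinv
      show X 1 * y' ∈ _
      rw [e]
      exact Submodule.smul_mem _ _ (Submodule.add_mem _ hL1 (Submodule.smul_mem _ _ hX0))
    · have e : (X 2 * y' : MvPolynomial (Fin 3) K)
          = (P 0)⁻¹ • (L2 P * y' + P 2 • (X 0 * y')) := by
        rw [smul_eq_C_mul, smul_eq_C_mul, L2]
        linear_combination (-X 2 * y') * hPinv
      show X 2 * y' ∈ _
      rw [e]
      exact Submodule.smul_mem _ _ (Submodule.add_mem _ hL2 (Submodule.smul_mem _ _ hX0))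
  · have : t₁ - L2 P * y' = u := by linear_combination k1
    rw [this]
    exact (mem_degPart.mp hu).1
  · have : t₂ + L1 P * y' = v := by linear_combination k2
    rw [this]
    exact (mem_degPart.mp hv).1

end CI

section Rank

variable {I : Ideal (MvPolynomial (Fin 3) K)} (P : Fin 3 → K)

/-- The map of pairs given by the two linear forms, in the quotient. -/
noncomputable def PhiL (I : Ideal (MvPolynomial (Fin 3) K)) (P : Fin 3 → K) :
    (MvPolynomial (Fin 3) K ⧸ I) × (MvPolynomial (Fin 3) K ⧸ I) →ₗ[K] (MvPolynomial (Fin 3) K ⧸ I) :=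
  (LinearMap.mulLeft K (qm I (L1 P))).coprod (LinearMap.mulLeft K (qm I (L2 P)))

/-- The Koszul map in the quotient. -/
noncomputable def KoL (I : Ideal (MvPolynomial (Fin 3) K)) (P : Fin 3 → K) :
    (MvPolynomial (Fin 3) K ⧸ I) →ₗ[K] (MvPolynomial (Fin 3) K ⧸ I) × (MvPolynomial (Fin 3) K ⧸ I) :=
  (LinearMap.mulLeft K (qm I (L2 P))).prod (-(LinearMap.mulLeft K (qm I (L1 P))))

lemma PhiL_apply (x y : MvPolynomial (Fin 3) K ⧸ I) :
    PhiL I P (x, y) = qm I (L1 P) * x + qm I (L2 P) * y := by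
  simp [PhiL]

lemma KoL_apply (x : MvPolynomial (Fin 3) K ⧸ I) :
    KoL I P x = (qm I (L2 P) * x, - (qm I (L1 P) * x)) := by
  simp [KoL]

lemma PhiL_qm (x y : MvPolynomial (Fin 3) K) :
    PhiL I P (qm I x, qm I y) = qm I (L1 P * x + L2 P * y) := by
  rw [PhiL_apply, map_add, qm_mul, qm_mul]

variable {P}

lemma finrank_prod_self (Y : Submodule K (MvPolynomial (Fin 3) K ⧸ I)) [Module.Finite K Y] :
    Module.Finite K ↥(Y.prod Y) ∧ finrank K ↥(Y.prod Y) = 2 * finrank K Y := by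
  let e : (↥Y × ↥Y) ≃ₗ[K] ↥(Y.prod Y) :=
    { toFun := fun p => ⟨(p.1.1, p.2.1), ⟨p.1.2, p.2.2⟩⟩
      map_add' := fun _ _ => rfl
      map_smul' := fun _ _ => rfl
      invFun := fun q => (⟨q.1.1, q.2.1⟩, ⟨q.1.2, q.2.2⟩)
      left_inv := fun _ => rfl
      right_inv := fun _ => rfl }
  refine ⟨Module.Finite.equiv e, ?_⟩
  rw [← e.finrank_eq, Module.finrank_prod]
  omega

/-- The rank of the map of pairs. -/
lemma rank_pairs {V : Submodule K (MvPolynomial (Fin 3) K)} {d : ℕ} (hV : V ≤ Hd K d) :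
    finrank K (((V.map (qm I)).prod (V.map (qm I))).map (PhiL I P))
      + finrank K ↥(((V.map (qm I)).prod (V.map (qm I))) ⊓ LinearMap.ker (PhiL I P))
      = 2 * finrank K (V.map (qm I)) := by
  have := fin_of_le hV
  obtain ⟨h0, h2⟩ := finrank_prod_self (V.map (qm I))
  have h1 := finrank_map_add_inf_ker (PhiL I P) ((V.map (qm I)).prod (V.map (qm I)))
  rw [h1, h2]

/-- The image of the map of pairs lies in any subspace containing the products. -/
lemma map_pairs_le {V U : Submodule K (MvPolynomial (Fin 3) K)}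
    (hsub : ∀ v ∈ V, L1 P * v ∈ U ∧ L2 P * v ∈ U) :
    ((V.map (qm I)).prod (V.map (qm I))).map (PhiL I P) ≤ U.map (qm I) := by
  rintro _ ⟨⟨x, y⟩, ⟨⟨v₁, hv₁, rfl⟩, ⟨v₂, hv₂, rfl⟩⟩, rfl⟩
  show PhiL I P (qm I v₁, qm I v₂) ∈ _
  rw [PhiL_qm]
  exact Submodule.mem_map_of_mem (Submodule.add_mem _ (hsub _ hv₁).1 (hsub _ hv₂).2)

/-- The rank count under the Koszul property. -/
theorem rank_of_QP {V U : Submodule K (MvPolynomial (Fin 3) K)} {n : ℕ}
    (hV : V ≤ Hd K (n + 1)) (hIV : degPart I (n + 1) ≤ V) (hU : U ≤ Hd K (n + 2))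
    (hIU : degPart I (n + 2) ≤ U) (hsub : ∀ v ∈ V, L1 P * v ∈ U ∧ L2 P * v ∈ U)
    (hQ : QP I V n P) :
    2 * (finrank K V - finrank K (degPart I (n + 1))) ≤
      (finrank K U - finrank K (degPart I (n + 2)))
        + (finrank K (colon V n) - finrank K (degPart I n)) := by
  have hfV := fin_of_le hV
  have hfU := fin_of_le hU
  have hfC := fin_of_le (colon_le V n)
  have h1 := rank_pairs (P := P) (I := I) hV
  have h2 := finrank_map_qm hV hIV
  have h3 := finrank_map_qm hU hIU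
  have h4 := finrank_map_qm (colon_le V n) (degPart_le_colon hIV)
  have h5 : finrank K (((V.map (qm I)).prod (V.map (qm I))).map (PhiL I P))
      ≤ finrank K (U.map (qm I)) := Submodule.finrank_mono (map_pairs_le hsub)
  have h6 : ((V.map (qm I)).prod (V.map (qm I))) ⊓ LinearMap.ker (PhiL I P)
      ≤ ((colon V n).map (qm I)).map (KoL I P) := by
    rintro ⟨_, _⟩ ⟨⟨⟨v₁, hv₁, rfl⟩, ⟨v₂, hv₂, rfl⟩⟩, hk⟩
    have hk' : PhiL I P (qm I v₁, qm I v₂) = 0 := hk
    rw [PhiL_qm, qm_eq_zero] at hk'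
    obtain ⟨y, hy, h7, h8⟩ := hQ v₁ hv₁ v₂ hv₂ hk'
    refine ⟨qm I y, Submodule.mem_map_of_mem hy, ?_⟩
    rw [KoL_apply]
    have h9 := qm_eq_zero.mpr h7
    have h10 := qm_eq_zero.mpr h8
    rw [map_sub, qm_mul, sub_eq_zero] at h9
    rw [map_add, qm_mul, add_eq_zero_iff_eq_neg] at h10
    rw [← h9, ← h10]
  have hfin : Module.Finite K ↥(((colon V n).map (qm I)).map (KoL I P)) := inferInstance
  have h7 := Submodule.finrank_mono h6
  have h8 := Submodule.finrank_map_le (KoL I P) ((colon V n).map (qm I))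
  omega

end Rank

section Towers

variable (cI : CI f g h a b c)

include cI

lemma degPart_low {n : ℕ} (hn : n < a) : degPart (II f g h) n = ⊥ := by
  have hab := cI.hab
  have hbc := cI.hbc
  have h2 := FF_low cI.hf cI.hg cI.hab hn
  rw [degPart_abc cI.hf cI.hg cI.hh n, Pt_of_lt (by omega), gmul_bot, sup_bot_eq]
  exact h2

/-- The dimension bound along the tower of colons. -/
theorem tower [Infinite K] {l : MvPolynomial (Fin 3) K →ₗ[K] K} {s : ℕ}
    (hs : a + b + c = s + 3)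
    (hl : ∀ g' ∈ Hd K s, l g' = 0 ↔ g' ∈ degPart (II f g h) s) {P : Fin 3 → K} (hP : P 0 ≠ 0)
    (hfP : eval P f ≠ 0) :
    ∀ n, a ≤ n + 2 → n + 2 < a + b → ∀ U : Submodule K (MvPolynomial (Fin 3) K),
      U ≤ Hd K (n + 1) → degPart (II f g h) (n + 1) ≤ U → QP (II f g h) U n P →
      finrank K (colon U n) - finrank K (degPart (II f g h) n)
        ≤ th a n ((finrank K U - finrank K (degPart (II f g h) (n + 1)))
            - (finrank K (colon U n) - finrank K (degPart (II f g h) n)) + 1) := by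
  intro n hn
  have ha := cI.ha
  have hn2 : a - 2 ≤ n := by omega
  induction n, hn2 using Nat.le_induction with
  | base =>
    intro _ U hU hIU _
    rw [degPart_low cI (by omega : a - 2 < a), finrank_bot, Nat.sub_zero]
    rw [show a - 2 + 1 = a - 1 by omega] at hU hIU ⊢
    rw [degPart_low cI (by omega : a - 1 < a), finrank_bot, Nat.sub_zero]
    set ρ := finrank K U - finrank K (colon U (a - 2)) with hρ
    have hth : th a (a - 2) (ρ + 1) = ρ.choose 2 := by
      unfold th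
      rw [if_neg (by omega)]
      simp
    rw [hth]
    by_contra hcon
    have h1 := macaulay_all (colon_le U (a - 2)) (k := ρ + 1) (by omega) (by
      rw [Nat.add_sub_cancel]
      omega)
    have h2 : Hd K 1 * colon U (a - 2) ≤ U := by
      refine Submodule.mul_le.mpr fun m hm v hv => lin_mul_mem hv.2 hm
    have h3 := finrank_mono_Hd h2 hU
    omega
  | succ n hn1 ih =>
    intro hn3 U hU hIU hQ
    have hab := cI.hab
    have hbc := cI.hbc
    have hQ' : QP (II f g h) (colon U (n + 1)) n P := cI.QP_colon hs hl hP hfP hIU (by omega) hQ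
    have hT := colon_le U (n + 1)
    have hIT : degPart (II f g h) (n + 1) ≤ colon U (n + 1) := degPart_le_colon hIU
    have h1 := ih (by omega) (by omega) (colon U (n + 1)) hT hIT hQ'
    have h2 := rank_of_QP (P := P) hT hIT hU hIU (fun v hv =>
      ⟨lin_mul_mem hv.2 (L1_mem P), lin_mul_mem hv.2 (L2_mem P)⟩) hQ'
    set t := finrank K (colon U (n + 1)) - finrank K (degPart (II f g h) (n + 1)) with ht
    set t' := finrank K (colon (colon U (n + 1)) n) - finrank K (degPart (II f g h) n) with ht'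
    set u := finrank K U - finrank K (degPart (II f g h) (n + 1 + 1)) with hu
    have h3 := th_mono a n (t := t - t' + 1) (t' := u - t + 1) (by omega) (by omega)
    have h4 := th_succ_of_le (a := a) (n := n) (t := u - t + 1) (by omega) (by omega)
    rw [h4]
    simp only [Nat.add_sub_cancel]
    omega

end Towers

end Vale.Agent.Lib.P200.All
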