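import Vale.Agent.Lib.P200.All.Dual

namespace Vale.Agent.Lib.P200.All

open MvPolynomial Module Fam Gen

variable {K : Type*} [Field K] {f g h : MvPolynomial (Fin 3) K} {a b c : ℕ}

namespace CI

section Pairing

variable (cI : CI f g h a b c) {l : MvPolynomial (Fin 3) K →ₗ[K] K} {s : ℕ}
  (hs : a + b + c = s + 3)
  (hl : ∀ g' ∈ Hd K s, l g' = 0 ↔ g' ∈ degPart (II f g h) s)

include cI hs hl

/-- Every functional vanishing on the ideal comes from the pairing. -/
theorem rep_functional {d e : ℕ} (hde : d + e = s) (η : MvPolynomial (Fin 3) K →ₗ[K] K)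
    (hη : ∀ x ∈ degPart (II f g h) d, η x = 0) :
    ∃ y ∈ Hd K e, ∀ v ∈ Hd K d, η v = l (v * y) := by
  let B : MvPolynomial (Fin 3) K →ₗ[K] Dual K (MvPolynomial (Fin 3) K) :=
    (LinearMap.mul K (MvPolynomial (Fin 3) K)).compr₂ l
  let ρ : Hd K e →ₗ[K] Dual K (Hd K d) := ((Hd K d).subtype.dualMap).comp (B.comp (Hd K e).subtype)
  have hρ : ∀ (y : Hd K e) (v : Hd K d), ρ y v = l (y.1 * v.1) := fun _ _ => rfl
  let W₀ : Submodule K (Hd K d) := (degPart (II f g h) d).comap (Hd K d).subtype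
  have hW₀ : finrank K W₀ = finrank K (degPart (II f g h) d) :=
    (Submodule.comapSubtypeEquivOfLe inf_le_right).finrank_eq
  have hle : LinearMap.range ρ ≤ W₀.dualAnnihilator := by
    rintro _ ⟨y, rfl⟩
    rw [Submodule.mem_dualAnnihilator]
    intro x hx
    rw [hρ, mul_comm]
    exact cI.l_mul_I hs hl hde hx y.2
  have h1 := LinearMap.finrank_range_add_finrank_ker ρ
  have hker : finrank K (LinearMap.ker ρ) = finrank K (degPart (II f g h) e) := by
    have hk : LinearMap.ker ρ = (degPart (II f g h) e).comap (Hd K e).subtype := by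
      ext y
      rw [LinearMap.mem_ker, Submodule.mem_comap, Submodule.subtype_apply, mem_degPart]
      constructor
      · intro hy
        refine ⟨left_kernelG cI.reg cI.hf cI.hg cI.hh hs hl d e (by omega) y.1 y.2 fun v hv => ?_, y.2⟩
        have := LinearMap.congr_fun hy ⟨v, hv⟩
        rwa [hρ] at this
      · rintro ⟨hy1, hy2⟩
        ext v
        rw [hρ]
        exact cI.l_mul_I hs hl (by omega) (mem_degPart.mpr ⟨hy1, hy2⟩) v.2
    rw [hk]
    exact (Submodule.comapSubtypeEquivOfLe inf_le_right).finrank_eq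
  have h2 := Subspace.finrank_add_finrank_dualAnnihilator_eq W₀
  have h3 := cI.hdim d
  have h4 := cI.hdim e
  have h5 := cI.card_sym hs hl hde
  have heq : LinearMap.range ρ = W₀.dualAnnihilator :=
    Submodule.eq_of_le_of_finrank_eq hle (by omega)
  have hmem : η ∘ₗ (Hd K d).subtype ∈ W₀.dualAnnihilator := by
    rw [Submodule.mem_dualAnnihilator]
    intro x hx
    exact hη _ hx
  rw [← heq] at hmem
  obtain ⟨y, hy⟩ := hmem
  refine ⟨y.1, y.2, fun v hv => ?_⟩
  have := LinearMap.congr_fun hy ⟨v, hv⟩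
  rw [hρ] at this
  rw [mul_comm]
  exact this.symm

/-- Elements multiplied into a closed subspace by the two linear forms. -/
theorem colon_of_pencil {d e : ℕ} (hde : d + 1 + e = s) {V : Submodule K (MvPolynomial (Fin 3) K)}
    (hV : V ≤ Hd K d) (hIV : degPart (II f g h) d ≤ V) (hc : Closed (II f g h) V d)
    {P : Fin 3 → K}
    (hp : ∀ t ∈ up (II f g h) (perp l (up (II f g h) V d) e) e,
      ∃ z₁ ∈ perp l (up (II f g h) V d) e, ∃ z₂ ∈ perp l (up (II f g h) V d) e,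
        t - (L1 P * z₁ + L2 P * z₂) ∈ II f g h)
    {n : ℕ} (hn : d = n + 1) {y : MvPolynomial (Fin 3) K} (hy : y ∈ Hd K n)
    (h1 : L1 P * y ∈ V) (h2 : L2 P * y ∈ V) : y ∈ colon V n := by
  subst hn
  refine ⟨hy, fun i => ?_⟩
  have hup := cI.up_dual hs hl hde hV hIV hc
  have hpp := cI.perp_perp hs hl (l := l) (d := n + 1) (e := e + 1) (by omega) hV hIV
  rw [← hpp]
  have hXy : X i * y ∈ Hd K (n + 1) := by
    have := Hd_mul_mem (X_mem_Hd (K := K) i) hy
    rwa [add_comm] at this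
  refine ⟨hXy, fun t ht => ?_⟩
  rw [← hup] at ht
  obtain ⟨z₁, hz₁, z₂, hz₂, hmem⟩ := hp t ht
  set Z := perp l (up (II f g h) V (n + 1)) e with hZ
  have hZle : Z ≤ Hd K e := perp_le' _ _
  have hV' : ∀ {u : MvPolynomial (Fin 3) K}, u ∈ V → ∀ {z : MvPolynomial (Fin 3) K}, z ∈ Z →
      l (X i * z * u) = 0 := by
    intro u hu z hz
    have h3 : X i * z ∈ up (II f g h) Z e := mul_mem_up e (X_mem_Hd i) hz
    rw [hup] at h3
    have := h3.2 u hu
    rwa [mul_comm] at this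
  have h4 : t - (L1 P * z₁ + L2 P * z₂) ∈ degPart (II f g h) (e + 1) := by
    refine mem_degPart.mpr ⟨hmem, Submodule.sub_mem _ ?_ (Submodule.add_mem _ ?_ ?_)⟩
    · exact (up_le hZle) (by rw [hup]; exact ht |> fun h => by rwa [hup] at h)
    · have := Hd_mul_mem (L1_mem P) (hZle hz₁)
      rwa [add_comm] at this
    · have := Hd_mul_mem (L2_mem P) (hZle hz₂)
      rwa [add_comm] at this
  have h5 : t * (X i * y) = (t - (L1 P * z₁ + L2 P * z₂)) * (X i * y)
      + X i * z₁ * (L1 P * y) + X i * z₂ * (L2 P * y) := by ring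
  rw [h5, map_add, map_add, hV' h1 hz₁, hV' h2 hz₂, add_zero, add_zero]
  exact cI.l_mul_I hs hl (by omega) h4 hXy

/-- Elements multiplied into the orthogonal by the two linear forms. -/
theorem colon_star {d e : ℕ} (hde : d + 1 + e = s) {V : Submodule K (MvPolynomial (Fin 3) K)}
    (hV : V ≤ Hd K d) {P : Fin 3 → K}
    (hp : ∀ t ∈ up (II f g h) V d, ∃ v₁ ∈ V, ∃ v₂ ∈ V, t - (L1 P * v₁ + L2 P * v₂) ∈ II f g h)
    {y : MvPolynomial (Fin 3) K} (hy : y ∈ Hd K e)
    (h1 : L1 P * y ∈ perp l V (e + 1)) (h2 : L2 P * y ∈ perp l V (e + 1)) :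
    y ∈ perp l (up (II f g h) V d) e := by
  refine ⟨hy, fun t ht => ?_⟩
  obtain ⟨v₁, hv₁, v₂, hv₂, hmem⟩ := hp t ht
  have h4 : t - (L1 P * v₁ + L2 P * v₂) ∈ degPart (II f g h) (d + 1) := by
    refine mem_degPart.mpr ⟨hmem, Submodule.sub_mem _ (up_le hV ht) (Submodule.add_mem _ ?_ ?_)⟩
    · have := Hd_mul_mem (L1_mem P) (hV hv₁)
      rwa [add_comm] at this
    · have := Hd_mul_mem (L2_mem P) (hV hv₂)
      rwa [add_comm] at this
  have h5 : t * y = (t - (L1 P * v₁ + L2 P * v₂)) * y + v₁ * (L1 P * y) + v₂ * (L2 P * y) := by ring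
  rw [h5, map_add, map_add, h1.2 v₁ hv₁, h2.2 v₂ hv₂, add_zero, add_zero]
  exact cI.l_mul_I hs hl hde h4 hy

end Pairing

section Values

variable (cI : CI f g h a b c)

include cI

/-- The coefficients of an element of the ideal, as linear maps. -/
theorem exists_D (n : ℕ) :
    ∃ D : Fin 3 → MvPolynomial (Fin 3) K →ₗ[K] MvPolynomial (Fin 3) K,
      (∀ i u, D i u ∈ Pt K n (![a, b, c] i)) ∧
      ∀ x ∈ degPart (II f g h) n, D 0 x * f + D 1 x * g + D 2 x * h = x := by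
  let E := (Pt K n a) × (Pt K n b) × (Pt K n c)
  let μ : E →ₗ[K] degPart (II f g h) n :=
    { toFun := fun p => ⟨p.1.1 * f + p.2.1.1 * g + p.2.2.1 * h,
        cI.mem_of_decomp p.1.2 p.2.1.2 p.2.2.2⟩
      map_add' := by
        intro p q
        apply Subtype.ext
        show (p.1.1 + q.1.1) * f + (p.2.1.1 + q.2.1.1) * g + (p.2.2.1 + q.2.2.1) * h
          = (p.1.1 * f + p.2.1.1 * g + p.2.2.1 * h) + (q.1.1 * f + q.2.1.1 * g + q.2.2.1 * h)
        ring
      map_smul' := by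
        intro r p
        apply Subtype.ext
        show (r • p.1.1) * f + (r • p.2.1.1) * g + (r • p.2.2.1) * h
          = r • (p.1.1 * f + p.2.1.1 * g + p.2.2.1 * h)
        simp only [smul_mul_assoc, smul_add] }
  have hμ : Function.Surjective μ := by
    rintro ⟨x, hx⟩
    obtain ⟨α, β, γ, hα, hβ, hγ, e⟩ := cI.decomp hx
    exact ⟨(⟨α, hα⟩, ⟨β, hβ⟩, ⟨γ, hγ⟩), Subtype.ext e⟩
  obtain ⟨σ, hσ⟩ := μ.exists_rightInverse_of_surjective (LinearMap.range_eq_top.mpr hμ)
  obtain ⟨τ, hτ⟩ := LinearMap.exists_extend σ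
  have hτ' : ∀ x : degPart (II f g h) n, τ x.1 = σ x := fun x => LinearMap.congr_fun hτ x
  refine ⟨![(Pt K n a).subtype ∘ₗ (LinearMap.fst K _ _) ∘ₗ τ,
    (Pt K n b).subtype ∘ₗ (LinearMap.fst K _ _) ∘ₗ (LinearMap.snd K _ _) ∘ₗ τ,
    (Pt K n c).subtype ∘ₗ (LinearMap.snd K _ _) ∘ₗ (LinearMap.snd K _ _) ∘ₗ τ], ?_, ?_⟩
  · intro i u
    fin_cases i
    · exact (τ u).1.2
    · exact (τ u).2.1.2
    · exact (τ u).2.2.2
  · intro x hx
    have h1 : μ (σ ⟨x, hx⟩) = ⟨x, hx⟩ := LinearMap.congr_fun hσ ⟨x, hx⟩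
    have h2 := congrArg Subtype.val h1
    rw [← hτ' ⟨x, hx⟩] at h2
    exact h2

end Values

end CI

/-- The hypotheses on the maps giving the coefficients. -/
structure IsDec (D : Fin 3 → MvPolynomial (Fin 3) K →ₗ[K] MvPolynomial (Fin 3) K)
    (f g h : MvPolynomial (Fin 3) K) (a b c n : ℕ) : Prop where
  mem : ∀ i u, D i u ∈ Pt K n (![a, b, c] i)
  dec : ∀ x ∈ degPart (II f g h) n, D 0 x * f + D 1 x * g + D 2 x * h = x

namespace CI

section Values2

variable (cI : CI f g h a b c)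
  {D : Fin 3 → MvPolynomial (Fin 3) K →ₗ[K] MvPolynomial (Fin 3) K} {n : ℕ}
  (hD : IsDec D f g h a b c (n + 2))

include cI hD

/-- A relation with vanishing value is a Koszul relation. -/
theorem rel_koszul [Infinite K] {P : Fin 3 → K} (hP : P 0 ≠ 0) {v₁ v₂ : MvPolynomial (Fin 3) K}
    (hv₁ : v₁ ∈ Hd K (n + 1)) (hv₂ : v₂ ∈ Hd K (n + 1))
    (hι : L1 P * v₁ + L2 P * v₂ ∈ II f g h)
    (h0 : ∀ i, eval P (D i (L1 P * v₁ + L2 P * v₂)) = 0) :
    ∃ y ∈ Hd K n, v₁ - L2 P * y ∈ II f g h ∧ v₂ + L1 P * y ∈ II f g h := by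
  set ι := L1 P * v₁ + L2 P * v₂ with hιdef
  have hιH : ι ∈ Hd K (n + 2) := by
    refine Submodule.add_mem _ ?_ ?_
    · have := Hd_mul_mem (L1_mem P) hv₁
      rwa [show 1 + (n + 1) = n + 2 by omega] at this
    · have := Hd_mul_mem (L2_mem P) hv₂
      rwa [show 1 + (n + 1) = n + 2 by omega] at this
  have h1 := hD.dec ι (mem_degPart.mpr ⟨hι, hιH⟩)
  obtain ⟨u, v, hu, hv, huv⟩ := cI.val_zero_mem hP (n := n + 1) (hD.mem 0 ι) (hD.mem 1 ι) (hD.mem 2 ι)
    (h0 0) (h0 1) (h0 2)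
  rw [h1] at huv
  have hrel : L1 P * (v₁ - u) + L2 P * (v₂ - v) = 0 := by
    rw [hιdef] at huv
    linear_combination -huv
  have hq : v₂ - v ∈ Hd K (n + 1) := Submodule.sub_mem _ hv₂ (mem_degPart.mp hv).2
  obtain ⟨y, hy, k1, k2⟩ := koszul hP hq hrel
  refine ⟨y, ?_, ?_, ?_⟩
  · rw [Pt_of_le (by omega)] at hy
    simpa using hy
  · have : v₁ - L2 P * y = u := by linear_combination k1
    rw [this]
    exact (mem_degPart.mp hu).1
  · have : v₂ + L1 P * y = v := by linear_combination k2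
    rw [this]
    exact (mem_degPart.mp hv).1

/-- Koszul relations have vanishing value. -/
theorem val_of_I {P : Fin 3 → K} (hn : n + 2 < a + b) {u v : MvPolynomial (Fin 3) K}
    (hu : u ∈ degPart (II f g h) (n + 1)) (hv : v ∈ degPart (II f g h) (n + 1)) (i : Fin 3) :
    eval P (D i (L1 P * u + L2 P * v)) = 0 := by
  obtain ⟨α₁, β₁, γ₁, a1, a2, a3, e1⟩ := cI.decomp hu
  obtain ⟨α₂, β₂, γ₂, b1, b2, b3, e2⟩ := cI.decomp hv
  have hx : L1 P * u + L2 P * v ∈ degPart (II f g h) (n + 2) := by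
    have h1 := lin_mul_degPart (L1_mem P) hu
    have h2 := lin_mul_degPart (L2_mem P) hv
    exact Submodule.add_mem _ h1 h2
  have hdec := hD.dec _ hx
  have hzero : (D 0 (L1 P * u + L2 P * v) - (L1 P * α₁ + L2 P * α₂)) * f
      + (D 1 (L1 P * u + L2 P * v) - (L1 P * β₁ + L2 P * β₂)) * g
      + (D 2 (L1 P * u + L2 P * v) - (L1 P * γ₁ + L2 P * γ₂)) * h = 0 := by
    rw [← e1, ← e2] at hdec
    rw [← e1, ← e2]
    linear_combination hdec
  have hm : ∀ {e : ℕ} {x y : MvPolynomial (Fin 3) K}, x ∈ Pt K (n + 1) e → y ∈ Pt K (n + 1) e →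
      L1 P * x + L2 P * y ∈ Pt K (n + 2) e := fun h1 h2 =>
    Submodule.add_mem _ (lin_Pt (L1_mem P) h1) (lin_Pt (L2_mem P) h2)
  obtain ⟨z1, z2, z3⟩ := cI.low_syz (Submodule.sub_mem _ (hD.mem 0 _) (hm a1 b1))
    (Submodule.sub_mem _ (hD.mem 1 _) (hm a2 b2)) (Submodule.sub_mem _ (hD.mem 2 _) (hm a3 b3)) hn
    hzero
  have hev : ∀ {A B C' : MvPolynomial (Fin 3) K}, A - (L1 P * B + L2 P * C') = 0 → eval P A = 0 := by
    intro A B C' h1
    have h2 := congrArg (eval P) h1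
    simpa using h2
  fin_cases i
  · exact hev z1
  · exact hev z2
  · exact hev z3

/-- The value is orthogonal to the forms at the point. -/
theorem val_orth {P : Fin 3 → K} {x : MvPolynomial (Fin 3) K}
    (hx : x ∈ degPart (II f g h) (n + 2)) :
    eval P (D 0 x) * eval P f + eval P (D 1 x) * eval P g + eval P (D 2 x) * eval P h
      = eval P x := by
  have := congrArg (eval P) (hD.dec x hx)
  simpa using this

end Values2

end CI

end Vale.Agent.Lib.P200.All
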