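import Vale.Agent.Lib.P200.All.Ana2

namespace Vale.Agent.Lib.P200.All

open MvPolynomial Module Fam Gen

variable {K : Type*} [Field K] {f g h : MvPolynomial (Fin 3) K} {a b c : ℕ}

/-- Growth in the closed case in the range of the tower. -/
theorem analysis [Infinite K] (cI : CI f g h a b c) {l : MvPolynomial (Fin 3) K →ₗ[K] K} {s : ℕ}
    (hs : a + b + c = s + 3) (hl : ∀ g' ∈ Hd K s, l g' = 0 ↔ g' ∈ degPart (II f g h) s) {n : ℕ}
    (hn1 : a ≤ n + 2) (hn2 : n + 2 < a + b) {V : Submodule K (MvPolynomial (Fin 3) K)}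
    (hV : V ≤ Hd K (n + 1)) (hIV : degPart (II f g h) (n + 1) ≤ V)
    (hcl : Closed (II f g h) V (n + 1))
    (IH : ∀ (e : ℕ) (V' : Submodule K (MvPolynomial (Fin 3) K)), V' ≤ Hd K e →
      degPart (II f g h) e ≤ V' →
      MS (II f g h) (a, b, c) V' e < MS (II f g h) (a, b, c) V (n + 1) →
      EE (II f g h) (a, b, c) V' e) :
    EE (II f g h) (a, b, c) V (n + 1) := by
  have hab := cI.hab
  have hbc := cI.hbc
  have ha := cI.ha
  obtain ⟨e, hde⟩ : ∃ e, n + 1 + 1 + e = s := ⟨s - (n + 2), by omega⟩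
  rcases dich (I := II f g h) hV with ⟨EV, cV, hcV, hcVm, hpV⟩ | ⟨E, Ξ, Z, hZ, hΞ, hI, hne⟩
  swap
  · obtain ⟨h1, h2, h3, h4⟩ := cI.move1 hV hIV Ξ Z hZ hΞ hI hne
    exact h4 (IH _ _ h1 h2 h3)
  have hZle : perp l (up (II f g h) V (n + 1)) e ≤ Hd K e := CI.perp_le' _ _
  have hIZ : degPart (II f g h) e ≤ perp l (up (II f g h) V (n + 1)) e :=
    cI.degPart_le_perp_up hs hl hde hV
  have hMS := cI.MS_dual hs hl hde hV hIV hcl
  rcases dich (I := II f g h) hZle with ⟨EZ, cZ, hcZ, hcZm, hpZ⟩ | ⟨E, Ξ, Z, hZ, hΞ, hI, hne⟩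
  swap
  · obtain ⟨h1, h2, h3, h4⟩ := cI.move1 hZle hIZ Ξ Z hZ hΞ hI hne
    rw [hMS] at h3
    exact cI.EE_dual hs hl hde hV hIV hcl (h4 (IH _ _ h1 h2 h3))
  obtain ⟨D, hD1, hD2⟩ := cI.exists_D (n + 2)
  have hD : IsDec D f g h a b c (n + 2) := ⟨hD1, hD2⟩
  obtain ⟨E₁, c₁, ι, _, W, hc₁, hc₁m, hWm, hv1, hv2⟩ := families (I := II f g h) hV ![a, b, c] D hD1
  have F : Fm f g h D V W c₁ := ⟨hv1, hv2⟩
  by_cases h2 : ∃ s₁ s₂, W s₁ 1 * W s₂ 2 - W s₁ 2 * W s₂ 1 ≠ 0
  · obtain ⟨s₁, s₂, hC⟩ := h2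
    exact case2 cI hs hl hD hn2 hV hIV hcl hde hcV hpV F hC
  push Not at h2
  by_cases h0 : ∀ s i, W s i = 0
  · exact case0 cI hs hl hD hn1 hn2 hV hIV hcl hde hcZ hpZ F hc₁ h0
  push Not at h0
  obtain ⟨s₀, i₁, hne⟩ := h0
  exact case1 cI hs hl hD hn2 hV hIV hcl hde hcV hpV hcZ hcZm hpZ F hc₁ hc₁m hWm h2 hne

/-- Growth in low degrees, from Macaulay. -/
theorem EE_low [Infinite K] (cI : CI f g h a b c) {d : ℕ} (hd : d + 2 ≤ a)
    {V : Submodule K (MvPolynomial (Fin 3) K)} (hV : V ≤ Hd K d) :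
    EE (II f g h) (a, b, c) V d := by
  have hab := cI.hab
  have h0 : degPart (II f g h) d = ⊥ := degPart_low cI (by omega)
  have h1 : degPart (II f g h) (d + 1) = ⊥ := degPart_low cI (by omega)
  unfold EE
  rw [h0, h1, finrank_bot, Nat.sub_zero, zero_add]
  have hle : Hd K 1 * V ≤ up (II f g h) V d := le_sup_left
  have h2 := finrank_mono_Hd hle (up_le hV)
  obtain ⟨t, h3, h4, h5⟩ := GS_all (c := c) (q := finrank K V) (d := d) cI.hab cI.hbc cI.a_pos (by omega)
  rcases h5 with rfl | ⟨h6, h7, h8⟩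
  · by_cases h9 : finrank K V = 0
    · omega
    · have := macaulay_all hV (k := 1) le_rfl (by simp; omega)
      omega
  · have hth : th a d t = (t - 1).choose 2 := by
      unfold th
      rw [if_neg (by omega)]
    rw [hth] at h8
    have := macaulay_all hV h6 h8
    omega

/-- Growth above the top degree is trivial. -/
theorem EE_top (cI : CI f g h a b c) {s : ℕ} (hs : a + b + c = s + 3) {d : ℕ} (hd : s ≤ d)
    {V : Submodule K (MvPolynomial (Fin 3) K)} (hV : V ≤ Hd K d) :
    EE (II f g h) (a, b, c) V d := by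
  have h1 := GS_le_card (a, b, c) d (finrank K V - finrank K (degPart (II f g h) d))
  have h2 : outE (a, b, c) (d + 1) = ∅ := by
    rw [Finset.eq_empty_iff_forall_notMem]
    intro t ht
    obtain ⟨⟨h3, h4, h5⟩, h6⟩ := mem_out.mp ht
    simp only at h3 h4 h5
    omega
  rw [h2, Finset.card_empty] at h1
  unfold EE
  have h3 := finrank_mono_Hd (degPart_le_up (I := II f g h) V d) (up_le hV)
  omega

/-- Growth when a linear form is a nonzerodivisor on the ideal of the first two forms. -/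
theorem EE_zone (cI : CI f g h a b c) {L : MvPolynomial (Fin 3) K} (hL : L ∈ Hd K 1)
    (hnzd : ∀ (x : MvPolynomial (Fin 3) K) (n : ℕ), x ∈ Hd K n → L * x ∈ Ideal.span {f, g} →
      x ∈ Ideal.span {f, g}) {d : ℕ} (hd1 : a + b ≤ d + 2) (hd2 : d + 2 ≤ c)
    {V : Submodule K (MvPolynomial (Fin 3) K)} (hV : V ≤ Hd K d)
    (hIV : degPart (II f g h) d ≤ V) :
    EE (II f g h) (a, b, c) V d := by
  have hfV := fin_of_le hV
  have hfU := fin_of_le (up_le (I := II f g h) hV)
  have hG := GS_high (a := a) (b := b) (c := c) (d := d)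
    (q := finrank K V - finrank K (degPart (II f g h) d)) hd1
  have hx1 := finrank_map_qm (I := II f g h) hV hIV
  have hw1 := finrank_map_qm (I := II f g h) (up_le (I := II f g h) hV)
    (degPart_le_up (I := II f g h) V d)
  -- the map of multiplication by the linear form
  let φ := qm (II f g h) ∘ₗ LinearMap.mulLeft K L
  have h1 := finrank_map_add_inf_ker φ V
  have hker : V ⊓ LinearMap.ker φ = degPart (II f g h) d := by
    ext x
    simp only [Submodule.mem_inf, LinearMap.mem_ker, mem_degPart]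
    constructor
    · rintro ⟨h2, h3⟩
      refine ⟨?_, hV h2⟩
      have h4 : L * x ∈ II f g h := qm_eq_zero.mp h3
      have h5 : L * x ∈ Hd K (d + 1) := by
        have := Hd_mul_mem hL (hV h2)
        rwa [add_comm] at this
      have h6 : L * x ∈ degPart (II f g h) (d + 1) := mem_degPart.mpr ⟨h4, h5⟩
      obtain ⟨α, β, γ, h7, h8, h9, h10⟩ := cI.decomp h6
      rw [Pt_of_lt (by omega), Submodule.mem_bot] at h9
      rw [h9, zero_mul, add_zero] at h10
      have h11 : L * x ∈ Ideal.span {f, g} :=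
        Ideal.mem_span_pair.mpr ⟨α, β, h10⟩
      exact (Ideal.span_mono (by
        rintro y (rfl | rfl)
        · simp
        · simp)) (hnzd x d (hV h2) h11)
    · rintro ⟨h2, h3⟩
      refine ⟨hIV (mem_degPart.mpr ⟨h2, h3⟩), ?_⟩
      exact qm_eq_zero.mpr (Ideal.mul_mem_left _ _ h2)
  rw [hker] at h1
  have hle : V.map φ ≤ (up (II f g h) V d).map (qm (II f g h)) := by
    rintro _ ⟨v, hv, rfl⟩
    exact ⟨L * v, mul_mem_up d hL hv, rfl⟩
  have h2 := Submodule.finrank_mono hle
  unfold EE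
  omega

/-- A line on which two forms restrict to coprime polynomials of the same degrees. -/
structure GdL (f g : MvPolynomial (Fin 3) K) (a b : ℕ) (α β c : K) : Prop where
  hf : f ∈ Hd K a
  hg : g ∈ Hd K b
  ha : 1 ≤ a
  hab : a ≤ b
  hφ : (piC α β c f).natDegree = a
  hγ : (piC α β c g).natDegree = b
  hcop : IsCoprime (piC α β c f) (piC α β c g)

section GLs

variable {f g : MvPolynomial (Fin 3) K} {a b : ℕ} {α β c : K}

lemma GdL.phi_ne (G : GdL f g a b α β c) : piC α β c f ≠ 0 := by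
  intro h
  have := G.hφ
  have h3 := G.ha
  rw [h] at this
  simp at this
  omega

lemma GdL.nzd [Infinite K] (G : GdL f g a b α β c) {x : MvPolynomial (Fin 3) K} {n : ℕ} (hx : x ∈ Hd K n)
    (hmem : lF α β c * x ∈ Ideal.span {f, g}) : x ∈ Ideal.span {f, g} := by
  obtain ⟨A, B, hAB⟩ := Ideal.mem_span_pair.mp hmem
  have hhom : lF α β c * x ∈ Hd K (n + 1) := by
    have := Hd_mul_mem (lF_mem α β c) hx
    rwa [add_comm] at this
  have hs := decomp2 G.hf G.hg hhom hAB
  set A' := cp (n + 1) a A with hA'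
  set B' := cp (n + 1) b B with hB'
  have hA'm : A' ∈ Pt K (n + 1) a := cp_mem _ _ _
  have hB'm : B' ∈ Pt K (n + 1) b := cp_mem _ _ _
  have hπ : piC α β c A' * piC α β c f + piC α β c B' * piC α β c g = 0 := by
    have := congrArg (piC α β c) hs
    rwa [map_add, map_mul, map_mul, map_mul, piC_lF, zero_mul] at this
  have hd : piC α β c f ∣ piC α β c B' * piC α β c g :=
    ⟨- piC α β c A', by linear_combination hπ⟩
  have hd2 : piC α β c f ∣ piC α β c B' := G.hcop.dvd_of_dvd_mul_right hd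
  obtain ⟨D, hD⟩ := hd2
  have hφ0 := G.phi_ne
  have hliftcond : D = 0 ∨ (a + b ≤ n + 1 ∧ D.natDegree + (a + b) ≤ n + 1) := by
    by_cases hD0 : D = 0
    · exact Or.inl hD0
    · right
      have h1 : piC α β c B' ≠ 0 := by
        rw [hD]
        exact mul_ne_zero hφ0 hD0
      obtain ⟨h2, h3⟩ := Pt_deg α β c hB'm h1
      rw [hD, Polynomial.natDegree_mul hφ0 hD0, G.hφ] at h3
      omega
  obtain ⟨E, hE, hED⟩ := lift_Pt α β c hliftcond
  have hA₁ : A' + E * g ∈ Pt K (n + 1) a :=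
    Submodule.add_mem _ hA'm (Pt_mul hE G.hg)
  have hB₁ : B' - E * f ∈ Pt K (n + 1) b :=
    Submodule.sub_mem _ hB'm (Pt_mul (by rw [add_comm b a]; exact hE) G.hf)
  have hπ1 : piC α β c (B' - E * f) = 0 := by
    rw [map_sub, map_mul, hED, hD]
    ring
  have hπ2 : piC α β c (A' + E * g) = 0 := by
    rw [map_add, map_mul, hED]
    apply mul_left_cancel₀ hφ0
    rw [mul_zero]
    rw [hD] at hπ
    linear_combination hπ
  obtain ⟨r₁, hr₁⟩ := dvd_of_Pt α β c hA₁ hπ2
  obtain ⟨r₂, hr₂⟩ := dvd_of_Pt α β c hB₁ hπ1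
  have hl0 := lF_ne_zero α β c
  have h5 : lF α β c * x = lF α β c * (r₁ * f + r₂ * g) := by
    rw [← hs]
    have h6 : A' = lF α β c * r₁ - E * g := by rw [← hr₁]; ring
    have h7 : B' = lF α β c * r₂ + E * f := by rw [← hr₂]; ring
    rw [h6, h7]
    ring
  rw [mul_left_cancel₀ hl0 h5]
  exact Ideal.mem_span_pair.mpr ⟨r₁, r₂, rfl⟩

end GLs

/-- Two forms without a common factor are coprime on a line of the pencil. -/
theorem exists_goodL [IsAlgClosed K] {e3 : ℕ} (hreg : RegSeq f g h) (hf : f ∈ Hd K a) (hg : g ∈ Hd K b)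
    (hh : h ∈ Hd K e3) (ha : 1 ≤ a) (hab : a ≤ b) : ∃ α β c : K, GdL f g a b α β c := by
  classical
  have hf0 : f ≠ 0 := hreg.h0
  have hg0 : g ≠ 0 := by
    rintro rfl
    have h1 := hreg.h1 1 (by simp)
    rw [Ideal.mem_span_singleton'] at h1
    obtain ⟨x, hx⟩ := h1
    have h2 : (1 : MvPolynomial (Fin 3) K) ∈ Hd K 0 := isHomogeneous_one _ _
    have h3 := decomp1 hf h2 hx
    rw [cp, if_neg (by omega), zero_mul] at h3
    exact zero_ne_one h3
  obtain ⟨α, β, hQ⟩ := exists_point (Hd_mul_mem hf hg) (mul_ne_zero hf0 hg0)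
  rw [map_mul] at hQ
  have hQf := left_ne_zero_of_mul hQ
  have hQg := right_ne_zero_of_mul hQ
  by_cases hex : ∃ c, IsCoprime (piC α β c f) (piC α β c g)
  · obtain ⟨c, hc⟩ := hex
    exact ⟨α, β, c, hf, hg, ha, hab, natDegree_pi c hf hQf, natDegree_pi c hg hQg, hc⟩
  exfalso
  push Not at hex
  have hroot : ∀ c : K, ∃ γ, eval ![γ, α * γ + c, β * γ + 1] f = 0 ∧
      eval ![γ, α * γ + c, β * γ + 1] g = 0 := by
    intro c
    by_contra hc
    push Not at hc
    apply hex c
    rw [Polynomial.isCoprime_iff_aeval_ne_zero_of_isAlgClosed K K]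
    intro x
    by_cases h2 : eval ![x, α * x + c, β * x + 1] f = 0
    · right
      have := hc x h2
      rw [← eval_piC] at this
      simpa using this
    · left
      rw [← eval_piC] at h2
      simpa using h2
  choose γ hγ1 hγ2 using hroot
  set n := a * b + 1 with hn
  let c : Fin n → K := fun i => Infinite.natEmbedding K i.1
  have hc : Function.Injective c := fun i j hij =>
    Fin.ext ((Infinite.natEmbedding K).injective hij)
  let P : Fin n → Fin 3 → K := fun i => ![γ (c i), α * γ (c i) + c i, β * γ (c i) + 1]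
  have hPf : ∀ i, eval (P i) f = 0 := fun i => hγ1 (c i)
  have hPv : ∀ i, eval (P i) g = 0 := fun i => hγ2 (c i)
  have hPt : ∀ i, eval (P i) (tF β) = 1 := by
    intro i
    simp [P, tF]
  have hPl : ∀ i j, eval (P i) (lF α β (c j)) = c i - c j := by
    intro i j
    simp [P, lF, tF]
  set N := n + a + b with hN
  -- forms separating the points
  have hsep : ∀ i, ∃ x ∈ Hd K N, ∀ k, eval (P k) x = if k = i then 1 else 0 := by
    intro i
    let w := tF β ^ (N - (n - 1)) * ∏ j ∈ Finset.univ.erase i, lF α β (c j)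
    have hw : w ∈ Hd K N := by
      have h1 : (∏ j ∈ Finset.univ.erase i, lF α β (c j)) ∈ Hd K (n - 1) := by
        have := IsHomogeneous.prod (Finset.univ.erase i) (fun j => lF α β (c j)) (fun _ => 1)
          (fun j _ => lF_mem α β (c j))
        rw [Finset.sum_const, Finset.card_erase_of_mem (Finset.mem_univ i), Finset.card_univ,
          Fintype.card_fin, smul_eq_mul, mul_one] at this
        exact this
      have h2 := Hd_mul_mem (IsHomogeneous.pow (tF_mem β) (N - (n - 1))) h1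
      rwa [show 1 * (N - (n - 1)) + (n - 1) = N by omega] at h2
    have hwi : eval (P i) w ≠ 0 := by
      simp only [w, map_mul, map_pow, hPt, one_pow, one_mul, map_prod, hPl]
      refine Finset.prod_ne_zero_iff.mpr fun j hj => ?_
      exact sub_ne_zero.mpr (fun h => (Finset.ne_of_mem_erase hj) (hc h).symm)
    have hwk : ∀ k, k ≠ i → eval (P k) w = 0 := by
      intro k hk
      simp only [w, map_mul, map_prod, hPl]
      refine mul_eq_zero_of_right _ (Finset.prod_eq_zero (Finset.mem_erase.mpr ⟨hk, Finset.mem_univ k⟩) ?_)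
      rw [sub_self]
    refine ⟨(eval (P i) w)⁻¹ • w, (Hd K N).smul_mem _ hw, fun k => ?_⟩
    rw [MvPolynomial.smul_eval]
    by_cases hki : k = i
    · rw [if_pos hki, hki]
      exact inv_mul_cancel₀ hwi
    · rw [if_neg hki, hwk k hki, mul_zero]
  -- the evaluation map
  let E : MvPolynomial (Fin 3) K →ₗ[K] (Fin n → K) :=
    LinearMap.pi (fun i => (aeval (P i) : MvPolynomial (Fin 3) K →ₐ[K] K).toLinearMap)
  have hE : ∀ x i, E x i = eval (P i) x := by
    intro x i
    simp [E, aeval_eq_eval]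
  have hr := LinearMap.finrank_range_add_finrank_ker (E.domRestrict (Hd K N))
  have hrange : LinearMap.range (E.domRestrict (Hd K N)) = ⊤ := by
    rw [LinearMap.range_eq_top]
    intro y
    choose x hx1 hx2 using hsep
    refine ⟨⟨∑ i, y i • x i, Submodule.sum_mem _ fun i _ => (Hd K N).smul_mem _ (hx1 i)⟩, ?_⟩
    funext k
    rw [LinearMap.domRestrict_apply, hE, map_sum]
    simp only [MvPolynomial.smul_eval, hx2]
    simp
  rw [hrange, finrank_top, Module.finrank_fin_fun, LinearMap.ker_domRestrict, finrank_Hd] at hr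
  have hle : FF f g N ≤ Hd K N ⊓ LinearMap.ker E := by
    refine le_inf (FF_le _) ?_
    rw [FF_eq hf hg]
    refine sup_le ?_ ?_
    · intro y hy
      obtain ⟨u, _, rfl⟩ := mem_gmul.mp hy
      rw [LinearMap.mem_ker]
      funext i
      rw [hE, map_mul, hPf, zero_mul]
      rfl
    · intro y hy
      obtain ⟨u, _, rfl⟩ := mem_gmul.mp hy
      rw [LinearMap.mem_ker]
      funext i
      rw [hE, map_mul, hPv, zero_mul]
      rfl
  have h2 : finrank K ↥((LinearMap.ker E).comap (Hd K N).subtype)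
      = finrank K ↥(Hd K N ⊓ LinearMap.ker E) := by
    have h3 : (LinearMap.ker E).comap (Hd K N).subtype
        = (Hd K N ⊓ LinearMap.ker E).comap (Hd K N).subtype := by
      ext x
      simp
    rw [h3]
    exact (Submodule.comapSubtypeEquivOfLe inf_le_left).finrank_eq
  have h4 := finrank_mono_Hd hle inf_le_left
  have h5 : finrank K (FF f g N) + (O2 a b N).card = (N + 2).choose 2 :=
    (finrank_all hreg hf hg hh (by omega) (by omega) N).2.1
  have h6 := card_O2_le a b N
  rw [h2] at hr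
  omega

end Vale.Agent.Lib.P200.All
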